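import Vale.Agent.P137.Nreg

/-! P137 AE: the truncations `Nn n = Nm h 2^(-n) 2^n` and a.e. convergence of their gradients.

* `umax_eq`: `(∫⁻_{ball} ‖f‖ₑ) / vol = ofReal (av |f| z r)` for `r > 0` (`av_eq`, `volume_ball_eq`,
  `ofReal_integral_norm_eq_lintegral_enorm`). `≤`: a ball containing `x` has `r ∈ [2^(-n), 2^n]` for some
  `n` (`le_Nm`). `≥`: for an optimal `(z, r)`, `x ∈ ball z r'` for `r' > r` and `av z r' → av z r` as `r' ↓ r`
  (`continuousOn_av`, `le_of_tendsto`).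
* `ae_tendsto_fderiv`: take `x` where all `Nn n` are differentiable (`lipschitz_Nm`, `ae_all_iff`) and
  which is a Lebesgue point of `μ` (`IsUnifLocDoublingMeasure.ae_tendsto_average` with `K = 1`, and
  `ball =ᵐ closedBall`). Case 1: some ball `(z, r)`, `r > 0`, `‖x - z‖ ≤ r`, has `Nn n x ≤ av h z r` for all `n`;
  then it is optimal for all large `n`, so the gradients are eventually constant (`fderiv_Nm`).
  Case 2: no such ball. Choose optimal `(z n, r n)`. Claim `r n → 0`: otherwise `r n ≥ ε` along a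
  subsequence; if it is bounded along a further subsequence, a convergent subsequence
  (`tendsto_subseq_of_bounded`) gives a ball as in case 1 (`continuousOn_av`, `Nn` monotone in `n`);
  if `r n → ∞`, `Nn n x = av ≤ ∫ h / (om r^d) → 0`, so `Nn n x ≤ 0 ≤ av h x 1` for all `n`, case 1 again.
  So `fderiv (Nn n) x = innerSL (av μ (z n) (r n)) → innerSL (μ x)`.
-/

namespace Vale.Agent.P137

open MeasureTheory Metric Set Filter Topology
open scoped ENNReal NNReal RealInnerProductSpace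

variable {d : ℕ}

/-- The truncations exhausting all radii. -/
noncomputable def Nn (h : E d → ℝ) (n : ℕ) : E d → ℝ := Nm h ((2 : ℝ) ^ n)⁻¹ (2 ^ n)

theorem Nn_pos (n : ℕ) : (0 : ℝ) < ((2 : ℝ) ^ n)⁻¹ := by
  positivity

theorem Nn_le (n : ℕ) : ((2 : ℝ) ^ n)⁻¹ ≤ 2 ^ n := by
  have h : (1 : ℝ) ≤ 2 ^ n := one_le_pow₀ (by norm_num)
  exact (inv_le_one_of_one_le₀ h).trans h

theorem Nn_mono {h : E d → ℝ} (hh : Integrable h) (x : E d) : Monotone fun n => Nn h n x := by
  intro m n hmn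
  have h1 : (2 : ℝ) ^ m ≤ 2 ^ n := pow_le_pow_right₀ (by norm_num) hmn
  exact Nm_mono hh (Nn_pos n) (inv_anti₀ (by positivity) h1) (Nn_le m) h1 x

theorem aeN_scale {r : ℝ} (hr : 0 < r) :
    ∀ᶠ n : ℕ in atTop, ((2 : ℝ) ^ n)⁻¹ ≤ r ∧ r ≤ 2 ^ n := by
  have h : Tendsto (fun n : ℕ => (2 : ℝ) ^ n) atTop atTop :=
    tendsto_pow_atTop_atTop_of_one_lt (by norm_num)
  filter_upwards [h.eventually_ge_atTop r⁻¹, h.eventually_ge_atTop r] with n h1 h2
  exact ⟨inv_le_of_inv_le₀ hr h1, h2⟩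

theorem aeN_ratio {f : E d → ℝ} (hf : Integrable f) (z : E d) {r : ℝ} (hr : 0 < r) :
    (∫⁻ y in ball z r, ‖f y‖ₑ) / volume (ball z r) =
      ENNReal.ofReal (av (fun y => |f y|) z r) := by
  have hp : 0 < om d * r ^ d := mul_pos om_pos (pow_pos hr d)
  rw [av_eq _ z hr, volume_ball_eq z hr,
    ← ofReal_integral_norm_eq_lintegral_enorm hf.integrableOn, ← ENNReal.ofReal_div_of_pos hp,
    smul_eq_mul, div_eq_inv_mul]
  rfl

theorem umax_eq {f : E d → ℝ} (hf : Integrable f) (x : E d) :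
    umax f x = ⨆ n, ENNReal.ofReal (Nn (fun y => |f y|) n x) := by
  have hh : Integrable fun y => |f y| := hf.abs
  refine le_antisymm ?_ (iSup_le fun n => ?_)
  · refine iSup_le fun z => iSup_le fun r => iSup_le fun hx => ?_
    have hr : 0 < r := pos_of_mem_ball hx
    obtain ⟨n, h1, h2⟩ := (aeN_scale hr).exists
    rw [aeN_ratio hf z hr]
    refine le_iSup_of_le n (ENNReal.ofReal_le_ofReal ?_)
    exact le_Nm hh (Nn_pos n) h1 h2 (by rw [← dist_eq_norm]; exact (mem_ball.1 hx).le)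
  · obtain ⟨z, r, h1, h2, h3, h4⟩ := exists_opt hh (Nn_pos n) (Nn_le n) x
    have hr : 0 < r := (Nn_pos n).trans_le h1
    have hc : ContinuousAt (fun p : E d × ℝ => av (fun y => |f y|) p.1 p.2) (z, r) :=
      (continuousOn_av hh).continuousAt
        ((isOpen_lt continuous_const continuous_snd).mem_nhds hr)
    have hc2 : Tendsto (fun s : ℝ => av (fun y => |f y|) z s) (𝓝[>] r)
        (𝓝 (av (fun y => |f y|) z r)) :=
      (hc.tendsto.comp (Continuous.tendsto (f := fun s : ℝ => (z, s)) (by fun_prop) r)).mono_left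
        nhdsWithin_le_nhds
    rw [Nn, ← h4]
    refine le_of_tendsto (ENNReal.tendsto_ofReal hc2) ?_
    filter_upwards [self_mem_nhdsWithin] with s hs
    have hs' : r < s := hs
    have hx : x ∈ ball z s := by
      rw [mem_ball, dist_eq_norm]
      exact h3.trans_lt hs'
    rw [← aeN_ratio hf z (hr.trans hs')]
    exact le_iSup_of_le z (le_iSup_of_le s (le_iSup_of_le hx le_rfl))

theorem aeN_closed (μ : E d → E d) (z : E d) {r : ℝ} (hr : 0 < r) :
    ⨍ y in closedBall z r, μ y = av μ z r := by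
  refine setAverage_congr ?_
  rw [← ball_union_sphere]
  exact union_ae_eq_left_of_ae_eq_empty
    (ae_eq_empty.2 (Measure.addHaar_sphere_of_ne_zero volume z hr.ne'))

theorem aeN_av_le (hd : 0 < d) {h : E d → ℝ} (hh : Integrable h) (h0 : ∀ x, 0 ≤ h x) (z : E d)
    {r M : ℝ} (hM : 1 ≤ M) (hr : M ≤ r) : av h z r ≤ (∫ y, h y) / om d / M := by
  have hr1 : 1 ≤ r := hM.trans hr
  have hr0 : 0 < r := by linarith
  have h1 : ∫ y in ball z r, h y ≤ ∫ y, h y :=
    setIntegral_le_integral hh (Eventually.of_forall h0)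
  have h2 : 0 ≤ ∫ y, h y := integral_nonneg h0
  have h3 : M ≤ r ^ d := hr.trans (le_self_pow₀ hr1 hd.ne')
  have h4 : 0 < om d := om_pos
  rw [av_eq _ z hr0, smul_eq_mul, div_div, ← div_eq_inv_mul]
  exact div_le_div₀ h2 h1 (by positivity) (mul_le_mul_of_nonneg_left h3 h4.le)

theorem aeN_radii (hd : 0 < d) {h : E d → ℝ} (hh : Integrable h) (h0 : ∀ x, 0 ≤ h x) {x : E d}
    (hc : ¬ ∃ z r, 0 < r ∧ ‖x - z‖ ≤ r ∧ ∀ n, Nn h n x ≤ av h z r) {z : ℕ → E d} {r : ℕ → ℝ}
    (ho : ∀ n, Opt h ((2 : ℝ) ^ n)⁻¹ (2 ^ n) x (z n) (r n)) : Tendsto r atTop (𝓝 0) := by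
  have hr : ∀ n, 0 < r n := fun n => (Nn_pos n).trans_le (ho n).1
  have hN : ∀ m n, m ≤ n → Nn h m x ≤ av h (z n) (r n) := fun m n hmn =>
    (Nn_mono hh x hmn).trans (ho n).2.2.2.symm.le
  refine tendsto_order.2 ⟨fun a ha => Eventually.of_forall fun n => ha.trans (hr n),
    fun ε hε => ?_⟩
  by_contra hne
  have hfr : ∃ᶠ n in atTop, ε ≤ r n := by
    simpa only [not_eventually, not_lt] using hne
  by_cases hb : ∃ M, ∃ᶠ n in atTop, ε ≤ r n ∧ r n ≤ M
  · obtain ⟨M, hM⟩ := hb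
    have hK : IsCompact (closedBall x M ×ˢ Icc ε M) := (isCompact_closedBall x M).prod isCompact_Icc
    obtain ⟨a, ha, φ, hφ, hlim⟩ := hK.tendsto_subseq' (x := fun n => (z n, r n))
      (hM.mono fun n hn => ⟨by
        rw [mem_closedBall, dist_comm, dist_eq_norm]
        exact (ho n).2.2.1.trans hn.2, hn⟩)
    have ha0 : 0 < a.2 := hε.trans_le ha.2.1
    refine hc ⟨a.1, a.2, ha0, ?_, fun n => ?_⟩
    · have c1 : Continuous fun p : E d × ℝ => ‖x - p.1‖ := by fun_prop
      exact le_of_tendsto_of_tendsto' ((c1.tendsto a).comp hlim)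
        ((continuous_snd.tendsto a).comp hlim) fun k => (ho (φ k)).2.2.1
    · have hca : ContinuousAt (fun p : E d × ℝ => av h p.1 p.2) a :=
        (continuousOn_av hh).continuousAt
          ((isOpen_lt continuous_const continuous_snd).mem_nhds ha0)
      refine ge_of_tendsto (hca.tendsto.comp hlim) ?_
      filter_upwards [eventually_ge_atTop n] with k hk
      exact hN n (φ k) (hk.trans (hφ.id_le k))
  · refine hc ⟨x, 1, one_pos, by simp, fun n => ?_⟩
    have h1 : 0 ≤ av h x 1 := by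
      rw [av_eq _ x one_pos, smul_eq_mul]
      exact mul_nonneg (inv_nonneg.2 (mul_pos om_pos (pow_pos one_pos d)).le)
        (integral_nonneg h0)
    refine le_trans ?_ h1
    have ht : Tendsto (fun M : ℝ => (∫ y, h y) / om d / M) atTop (𝓝 0) :=
      tendsto_id.const_div_atTop _
    refine ge_of_tendsto ht ?_
    filter_upwards [eventually_ge_atTop 1] with M hM
    have hev : ∀ᶠ k in atTop, ¬ (ε ≤ r k ∧ r k ≤ M) := not_frequently.1 fun hf => hb ⟨M, hf⟩
    obtain ⟨k, h2, h3, h4⟩ := (hfr.and_eventually (hev.and (eventually_ge_atTop n))).exists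
    have h5 : M ≤ r k := by
      by_contra h6
      exact h3 ⟨h2, (not_le.1 h6).le⟩
    exact (hN n k h4).trans (aeN_av_le hd hh h0 _ hM h5)

theorem ae_tendsto_fderiv (hd : 0 < d) {h : E d → ℝ} {μ : E d → E d} (hP : Pair h μ univ)
    (h0 : ∀ x, 0 ≤ h x) :
    ∀ᵐ x, ∃ D : E d →L[ℝ] ℝ, Tendsto (fun n => fderiv ℝ (Nn h n) x) atTop (𝓝 D) := by
  have hh := hP.ih
  have hdiff : ∀ᵐ x, ∀ n, DifferentiableAt ℝ (Nn h n) x := by
    rw [ae_all_iff]
    intro n
    obtain ⟨L, hL⟩ := lipschitz_Nm hP (Nn_pos n) (Nn_le n)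
    exact hL.ae_differentiableAt
  filter_upwards [hdiff, IsUnifLocDoublingMeasure.ae_tendsto_average (volume : Measure (E d))
    hP.im.locallyIntegrable 1] with x hx hleb
  by_cases hc : ∃ z r, 0 < r ∧ ‖x - z‖ ≤ r ∧ ∀ n, Nn h n x ≤ av h z r
  · obtain ⟨z, r, hr, hxz, hle⟩ := hc
    refine ⟨innerSL ℝ (av μ z r), tendsto_const_nhds.congr' ?_⟩
    filter_upwards [aeN_scale hr] with n hn
    exact (fderiv_Nm hP (Nn_pos n) (hx n)
      ⟨hn.1, hn.2, hxz, le_antisymm (le_Nm hh (Nn_pos n) hn.1 hn.2 hxz) (hle n)⟩).symm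
  · choose z r ho using fun n => exists_opt hh (Nn_pos n) (Nn_le n) x
    have hr : ∀ n, 0 < r n := fun n => (Nn_pos n).trans_le (ho n).1
    have hr0 : Tendsto r atTop (𝓝[>] 0) :=
      tendsto_nhdsWithin_iff.2 ⟨aeN_radii hd hh h0 hc ho, Eventually.of_forall hr⟩
    have hlim := hleb z r hr0 (Eventually.of_forall fun n => by
      rw [one_mul, mem_closedBall, dist_eq_norm]
      exact (ho n).2.2.1)
    refine ⟨innerSL ℝ (μ x), (((innerSL ℝ (E := E d)).continuous.tendsto _).comp hlim).congr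
      fun n => ?_⟩
    rw [Nn, fderiv_Nm hP (Nn_pos n) (hx n) (ho n), Function.comp_apply, aeN_closed μ _ (hr n)]

end Vale.Agent.P137
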