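import Vale.Agent.P137.Defs

/-! P137 Mollify: smooth approximation of a `W^{1,1}` function.

* `scheffe`: Fatou (`lintegral_liminf_le'`) for `‖F n‖ + ‖F0‖ - ‖F n - F0‖ ≥ 0`, or dominated convergence
  for `‖F n‖ - ‖F n - F0‖`, which is bounded by `‖F0‖` in absolute value and tends to `‖F0‖` a.e.:
  `∫ ‖F n - F0‖ = ∫ ‖F n‖ - ∫ (‖F n‖ - ‖F n - F0‖) ≤ ∫ ‖F0‖ - ∫ (..) → 0`.
* `exists_mollify`: bumps `φ n : ContDiffBump (0 : E d)` with `rIn = 1/(n+1)`, `rOut = 2/(n+1)`,
  `ρ n = (φ n).normed volume`, `fn n = ρ n ⋆[lsmul ℝ ℝ] f`, `Gn n = ρ n ⋆[lsmul ℝ ℝ] G`.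
  Smoothness: `HasCompactSupport.contDiff_convolution_left`; derivative:
  `HasCompactSupport.hasFDerivAt_convolution_left`, then `IsWeakGrad` for the test function
  `y ↦ ρ n (x - y)` gives `fderiv (fn n) x v = ∫ ⟪G y, v⟫ ρ n (x - y) dy = ⟪Gn n x, v⟫`.
  `Integrable.integrable_convolution`, `∫ ‖ρ ⋆ G‖ ≤ ∫ (ρ ⋆ ‖G‖) = ∫ ‖G‖` (`integral_convolution`,
  `ContDiffBump.integral_normed`), a.e. convergence
  `ContDiffBump.ae_convolution_tendsto_right_of_locallyIntegrable` (with `K = 2`), and `scheffe`.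
-/

namespace Vale.Agent.P137

open MeasureTheory Metric Set Filter Topology
open scoped ENNReal NNReal RealInnerProductSpace

variable {d : ℕ}

theorem scheffe {F : Type} [NormedAddCommGroup F] {Fn : ℕ → E d → F} {F0 : E d → F}
    (hn : ∀ n, Integrable (Fn n)) (h0 : Integrable F0)
    (hle : ∀ n, ∫ x, ‖Fn n x‖ ≤ ∫ x, ‖F0 x‖)
    (hae : ∀ᵐ x, Tendsto (fun n => Fn n x) atTop (𝓝 (F0 x))) :
    Tendsto (fun n => ∫ x, ‖Fn n x - F0 x‖) atTop (𝓝 0) := by
  have h1 : Tendsto (fun n => ∫ x, (‖Fn n x‖ - ‖Fn n x - F0 x‖)) atTop (𝓝 (∫ x, ‖F0 x‖)) := by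
    refine tendsto_integral_of_dominated_convergence (fun x => ‖F0 x‖)
      (fun n => ((hn n).norm.sub ((hn n).sub h0).norm).aestronglyMeasurable) h0.norm
      (fun n => Eventually.of_forall fun x => ?_) ?_
    · have := abs_norm_sub_norm_le (Fn n x) (Fn n x - F0 x)
      rwa [sub_sub_cancel] at this
    · filter_upwards [hae] with x hx
      have := hx.norm.sub (hx.sub_const (F0 x)).norm
      simpa using this
  have h2 : Tendsto (fun n => (∫ x, ‖F0 x‖) - ∫ x, (‖Fn n x‖ - ‖Fn n x - F0 x‖)) atTop (𝓝 0) := by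
    simpa using h1.const_sub (∫ x, ‖F0 x‖)
  refine squeeze_zero (fun n => integral_nonneg fun x => norm_nonneg _) (fun n => ?_) h2
  have h3 : Integrable fun x => ‖Fn n x - F0 x‖ := ((hn n).sub h0).norm
  rw [integral_sub (hn n).norm h3]
  linarith [hle n]

open scoped Convolution

/-- The bump functions used for the mollification. -/
noncomputable def bumpMo (d n : ℕ) : ContDiffBump (0 : E d) :=
  ⟨1 / ((n : ℝ) + 1), 2 * (1 / ((n : ℝ) + 1)), by positivity, by
    have : (0 : ℝ) < 1 / ((n : ℝ) + 1) := by positivity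
    linarith⟩

theorem conv_ae_mo {F : Type} [NormedAddCommGroup F] [NormedSpace ℝ F] [CompleteSpace F]
    {H : E d → F} (hH : Integrable H) : ∀ᵐ x, Tendsto (fun n => ((bumpMo d n).normed volume
      ⋆[ContinuousLinearMap.lsmul ℝ ℝ, volume] H) x) atTop (𝓝 (H x)) := by
  refine ContDiffBump.ae_convolution_tendsto_right_of_locallyIntegrable (K := 2) ?_
    (Eventually.of_forall fun n => le_rfl) hH.locallyIntegrable
  simpa [bumpMo] using tendsto_one_div_add_atTop_nhds_zero_nat.const_mul (2 : ℝ)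

theorem conv_norm_mo {F : Type} [NormedAddCommGroup F] [NormedSpace ℝ F] [CompleteSpace F]
    {H : E d → F} (hH : Integrable H) (φ : ContDiffBump (0 : E d)) :
    ∫ x, ‖(φ.normed volume ⋆[ContinuousLinearMap.lsmul ℝ ℝ, volume] H) x‖ ≤ ∫ x, ‖H x‖ := by
  have h1 := integral_convolution (ContinuousLinearMap.lsmul ℝ ℝ : ℝ →L[ℝ] ℝ →L[ℝ] ℝ)
    (φ.integrable_normed (μ := volume)) hH.norm
  rw [φ.integral_normed, ContinuousLinearMap.lsmul_apply, one_smul] at h1
  rw [← h1]
  refine integral_mono (φ.integrable_normed.integrable_convolution _ hH).norm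
    (φ.integrable_normed.integrable_convolution _ hH.norm) fun x => ?_
  simp only [convolution_lsmul]
  refine (norm_integral_le_integral_norm _).trans_eq (integral_congr_ae
    (Eventually.of_forall fun t => ?_))
  simp only [norm_smul, Real.norm_of_nonneg (φ.nonneg_normed t), smul_eq_mul]

theorem conv_tendsto_mo {F : Type} [NormedAddCommGroup F] [NormedSpace ℝ F] [CompleteSpace F]
    {H : E d → F} (hH : Integrable H) : Tendsto (fun n => ∫ x, ‖((bumpMo d n).normed volume
      ⋆[ContinuousLinearMap.lsmul ℝ ℝ, volume] H) x - H x‖) atTop (𝓝 0) :=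
  scheffe (fun n => (bumpMo d n).integrable_normed.integrable_convolution _ hH) hH
    (fun _ => conv_norm_mo hH _) (conv_ae_mo hH)

theorem conv_fderiv_mo {f : E d → ℝ} {G : E d → E d} (hf : Integrable f) (hG : Integrable G)
    (hw : IsWeakGrad f G) (φ : ContDiffBump (0 : E d)) (x v : E d) :
    fderiv ℝ (φ.normed volume ⋆[ContinuousLinearMap.lsmul ℝ ℝ, volume] f) x v =
      ⟪(φ.normed volume ⋆[ContinuousLinearMap.lsmul ℝ ℝ, volume] G) x, v⟫ := by
  set ρ := φ.normed volume with hρ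
  have hc : HasCompactSupport ρ := φ.hasCompactSupport_normed
  have h1 : ContDiff ℝ 1 ρ := φ.contDiff_normed (n := 1)
  have h2 := hc.hasFDerivAt_convolution_right
    (ContinuousLinearMap.lsmul ℝ ℝ : ℝ →L[ℝ] ℝ →L[ℝ] ℝ).flip hf.locallyIntegrable h1 x
  rw [convolution_flip] at h2
  rw [h2.fderiv, convolution_precompR_apply _ hf.locallyIntegrable (hc.fderiv ℝ)
    (h1.continuous_fderiv one_ne_zero), convolution_def, convolution_lsmul_swap]
  have h3 := hw (fun y => ρ (x - y))
    ((φ.contDiff_normed (n := ⊤)).comp (contDiff_const.sub contDiff_id))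
    (hc.comp_homeomorph (Homeomorph.subLeft x)) v
  have h4 : ∀ y, fderiv ℝ (fun y => ρ (x - y)) y v = -fderiv ℝ ρ (x - y) v := by
    intro y
    have h5 := ((h1.differentiable one_ne_zero (x - y)).hasFDerivAt.comp y
      ((hasFDerivAt_id y).const_sub x)).fderiv
    have h6 := congrArg (fun L : E d →L[ℝ] ℝ => L v) h5
    simpa [Function.comp_def] using h6
  have h7 : Integrable fun t => ρ (x - t) • G t :=
    ((hc.convolutionExists_left (ContinuousLinearMap.lsmul ℝ ℝ) φ.continuous_normed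
      hG.locallyIntegrable) x).integrable_swap
  rw [real_inner_comm, ← integral_inner h7]
  simp only [h4, mul_neg, integral_neg, neg_inj] at h3
  simp only [ContinuousLinearMap.flip_apply, ContinuousLinearMap.lsmul_apply, smul_eq_mul,
    real_inner_smul_right]
  simp only [mul_comm (fderiv ℝ ρ _ v), h3]
  exact integral_congr_ae (Eventually.of_forall fun t => by
    simp only [real_inner_comm (G t), mul_comm])

theorem exists_mollify {f : E d → ℝ} {G : E d → E d} (hf : Integrable f) (hG : Integrable G)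
    (hw : IsWeakGrad f G) : ∃ (fn : ℕ → E d → ℝ) (Gn : ℕ → E d → E d),
    (∀ n, ContDiff ℝ 1 (fn n)) ∧ (∀ n, Integrable (fn n)) ∧ (∀ n, Integrable (Gn n)) ∧
    (∀ n x v, fderiv ℝ (fn n) x v = ⟪Gn n x, v⟫) ∧
    Tendsto (fun n => ∫ x, |fn n x - f x|) atTop (𝓝 0) ∧
    Tendsto (fun n => ∫ x, ‖Gn n x - G x‖) atTop (𝓝 0) ∧
    ∀ᵐ x, Tendsto (fun n => fn n x) atTop (𝓝 (f x)) :=
  ⟨fun n => (bumpMo d n).normed volume ⋆[ContinuousLinearMap.lsmul ℝ ℝ, volume] f,
    fun n => (bumpMo d n).normed volume ⋆[ContinuousLinearMap.lsmul ℝ ℝ, volume] G,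
    fun n => (bumpMo d n).hasCompactSupport_normed.contDiff_convolution_left (n := 1) _
      (bumpMo d n).contDiff_normed hf.locallyIntegrable,
    fun n => (bumpMo d n).integrable_normed.integrable_convolution _ hf,
    fun n => (bumpMo d n).integrable_normed.integrable_convolution _ hG,
    fun _ x v => conv_fderiv_mo hf hG hw _ x v, conv_tendsto_mo hf, conv_tendsto_mo hG,
    conv_ae_mo hf⟩

end Vale.Agent.P137
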