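import Vale.Agent.P137.Smooth
import Vale.Agent.P137.Mollify

/-! P137 Approx: the gradient pair of `|f|`.

For `ε > 0` let `ψ t = √(t^2 + ε^2) - ε`, a smooth function with `0 ≤ ψ t ≤ |t|`, `ψ' t = t / √(t^2 + ε^2)`,
`|ψ'| ≤ 1` (so `ψ` is `1`-Lipschitz).
* `pair_psi`: `pair_of_contDiff` for `ψ ∘ fn n` with field `ψ' (fn n x) • Gn n x` (`exists_mollify`), then
  `Pair.of_tendsto`: `|ψ (fn) - ψ f| ≤ |fn - f|`, and
  `‖ψ'(fn) • Gn - ψ'(f) • G‖ ≤ ‖Gn - G‖ + |ψ'(fn) - ψ'(f)| ‖G‖` (dominated convergence for the last term).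
* `pair_abs`: `ε = 1/(n+1)`; `ψ f → |f|` dominated by `2 |f|`, `ψ' f → Real.sign f` pointwise, dominated by
  `2 ‖G‖`; `μ x = Real.sign (f x) • G x` (a.e. strongly measurable as a pointwise limit,
  `aestronglyMeasurable_of_tendsto_ae`).
-/

namespace Vale.Agent.P137

open MeasureTheory Metric Set Filter Topology
open scoped ENNReal NNReal RealInnerProductSpace

variable {d : ℕ}

theorem sqrt_pos_ap {ε : ℝ} (hε : 0 < ε) (t : ℝ) : 0 < √(t ^ 2 + ε ^ 2) :=
  Real.sqrt_pos.2 (by positivity)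

theorem hasDerivAt_psi_ap {ε : ℝ} (hε : 0 < ε) (t : ℝ) :
    HasDerivAt (fun t : ℝ => √(t ^ 2 + ε ^ 2) - ε) (t / √(t ^ 2 + ε ^ 2)) t := by
  have h := (((hasDerivAt_pow 2 t).add_const (ε ^ 2)).sqrt (by positivity)).sub_const ε
  refine h.congr_deriv ?_
  have := sqrt_pos_ap hε t
  field_simp
  norm_num

theorem abs_dpsi_ap {ε : ℝ} (hε : 0 < ε) (t : ℝ) : |t / √(t ^ 2 + ε ^ 2)| ≤ 1 := by
  have := sqrt_pos_ap hε t
  rw [abs_div, abs_of_pos this, div_le_one this]
  exact Real.abs_le_sqrt (by nlinarith [sq_nonneg ε])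

theorem lip_psi_ap {ε : ℝ} (hε : 0 < ε) (s t : ℝ) :
    |(√(s ^ 2 + ε ^ 2) - ε) - (√(t ^ 2 + ε ^ 2) - ε)| ≤ |s - t| := by
  have := Convex.norm_image_sub_le_of_norm_hasDerivWithin_le (s := univ) (C := 1)
    (fun x _ => (hasDerivAt_psi_ap hε x).hasDerivWithinAt) (fun x _ => abs_dpsi_ap hε x)
    convex_univ (mem_univ t) (mem_univ s)
  simpa using this

theorem abs_psi_ap {ε : ℝ} (hε : 0 < ε) (s : ℝ) : |√(s ^ 2 + ε ^ 2) - ε| ≤ |s| := by
  have := lip_psi_ap hε s 0
  simpa [Real.sqrt_sq hε.le] using this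

theorem cont_dpsi_ap {ε : ℝ} (hε : 0 < ε) : Continuous fun t : ℝ => t / √(t ^ 2 + ε ^ 2) :=
  continuous_id.div (by fun_prop) fun t => (sqrt_pos_ap hε t).ne'

theorem intg_psi_ap {f : E d → ℝ} (hf : Integrable f) {ε : ℝ} (hε : 0 < ε) :
    Integrable fun x => √(f x ^ 2 + ε ^ 2) - ε :=
  hf.norm.mono' ((by fun_prop : Continuous fun t : ℝ => √(t ^ 2 + ε ^ 2) - ε).comp_aestronglyMeasurable
    hf.aestronglyMeasurable) (Eventually.of_forall fun x => abs_psi_ap hε (f x))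

theorem norm_dpsi_ap {ε : ℝ} (hε : 0 < ε) (t : ℝ) (v : E d) :
    ‖(t / √(t ^ 2 + ε ^ 2)) • v‖ ≤ ‖v‖ := by
  rw [norm_smul]
  exact mul_le_of_le_one_left (norm_nonneg _) (abs_dpsi_ap hε t)

theorem intg_dpsi_ap {f : E d → ℝ} {G : E d → E d} (hf : Integrable f) (hG : Integrable G) {ε : ℝ}
    (hε : 0 < ε) : Integrable fun x => (f x / √(f x ^ 2 + ε ^ 2)) • G x :=
  hG.norm.mono' (((cont_dpsi_ap hε).comp_aestronglyMeasurable hf.aestronglyMeasurable).smul
    hG.aestronglyMeasurable) (Eventually.of_forall fun x => norm_dpsi_ap hε (f x) (G x))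

theorem pair_psi {f : E d → ℝ} {G : E d → E d} (hf : Integrable f) (hG : Integrable G)
    (hw : IsWeakGrad f G) {ε : ℝ} (hε : 0 < ε) :
    Pair (fun x => √(f x ^ 2 + ε ^ 2) - ε) (fun x => (f x / √(f x ^ 2 + ε ^ 2)) • G x) univ := by
  obtain ⟨fn, Gn, hc, hi, hi', hD, t1, t2, hae⟩ := exists_mollify hf hG hw
  refine Pair.of_tendsto (hn := fun n x => √(fn n x ^ 2 + ε ^ 2) - ε)
    (μn := fun n x => (fn n x / √(fn n x ^ 2 + ε ^ 2)) • Gn n x) (fun n => ?_) (intg_psi_ap hf hε)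
    (intg_dpsi_ap hf hG hε) ?_ ?_
  · refine pair_of_contDiff ?_ (intg_psi_ap (hi n) hε) (intg_dpsi_ap (hi n) (hi' n) hε) fun x v => ?_
    · exact ((((hc n).pow 2).add contDiff_const).sqrt fun x => by positivity).sub contDiff_const
    · have h1 := ((hasDerivAt_psi_ap hε (fn n x)).comp_hasFDerivAt x
        ((hc n).differentiable one_ne_zero x).hasFDerivAt).fderiv
      have h2 := congrArg (fun L : E d →L[ℝ] ℝ => L v) h1
      simp only [smul_apply, smul_eq_mul, hD] at h2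
      rw [real_inner_smul_left, ← h2]
      rfl
  · refine squeeze_zero (fun n => integral_nonneg fun x => abs_nonneg _) (fun n => ?_) t1
    exact integral_mono ((intg_psi_ap (hi n) hε).sub (intg_psi_ap hf hε)).abs
      ((hi n).sub hf).abs fun x => lip_psi_ap hε _ _
  · have t3 : Tendsto (fun n => ∫ x, ‖(fn n x / √(fn n x ^ 2 + ε ^ 2)) • G x -
        (f x / √(f x ^ 2 + ε ^ 2)) • G x‖) atTop (𝓝 (∫ _ : E d, (0 : ℝ))) := by
      refine tendsto_integral_of_dominated_convergence (fun x => ‖G x‖ + ‖G x‖)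
        (fun n => ((intg_dpsi_ap (hi n) hG hε).sub
          (intg_dpsi_ap hf hG hε)).norm.aestronglyMeasurable) (hG.norm.add hG.norm)
        (fun n => Eventually.of_forall fun x => ?_) ?_
      · rw [norm_norm]
        exact (norm_sub_le _ _).trans (add_le_add (norm_dpsi_ap hε _ _) (norm_dpsi_ap hε _ _))
      · filter_upwards [hae] with x hx
        exact tendsto_iff_norm_sub_tendsto_zero.1
          ((((cont_dpsi_ap hε).tendsto _).comp hx).smul_const (G x))
    rw [integral_zero] at t3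
    have t4 := t2.add t3
    rw [add_zero] at t4
    refine squeeze_zero (fun n => integral_nonneg fun x => norm_nonneg _) (fun n => ?_) t4
    have i1 : Integrable fun x => ‖Gn n x - G x‖ := ((hi' n).sub hG).norm
    have i2 : Integrable fun x => ‖(fn n x / √(fn n x ^ 2 + ε ^ 2)) • G x -
        (f x / √(f x ^ 2 + ε ^ 2)) • G x‖ :=
      ((intg_dpsi_ap (hi n) hG hε).sub (intg_dpsi_ap hf hG hε)).norm
    rw [← integral_add i1 i2]
    refine integral_mono ((intg_dpsi_ap (hi n) (hi' n) hε).sub (intg_dpsi_ap hf hG hε)).norm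
      (i1.add i2) fun x => ?_
    refine (norm_sub_le_norm_sub_add_norm_sub _ ((fn n x / √(fn n x ^ 2 + ε ^ 2)) • G x) _).trans ?_
    rw [← smul_sub]
    exact add_le_add (norm_dpsi_ap hε _ _) le_rfl

theorem tendsto_sqrt_ap (t : ℝ) :
    Tendsto (fun n : ℕ => √(t ^ 2 + (1 / ((n : ℝ) + 1)) ^ 2)) atTop (𝓝 |t|) := by
  have h := ((tendsto_one_div_add_atTop_nhds_zero_nat (𝕜 := ℝ)).pow 2).const_add (t ^ 2) |>.sqrt
  simpa [Real.sqrt_sq_eq_abs] using h

theorem pair_abs {f : E d → ℝ} {G : E d → E d} (hf : Integrable f) (hG : Integrable G)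
    (hw : IsWeakGrad f G) : ∃ μ : E d → E d, Pair (fun x => |f x|) μ univ ∧ ∀ x, ‖μ x‖ ≤ ‖G x‖ := by
  have hε : ∀ n : ℕ, (0 : ℝ) < 1 / ((n : ℝ) + 1) := fun n => by positivity
  have hb : ∀ x, ‖(f x / |f x|) • G x‖ ≤ ‖G x‖ := by
    intro x
    rw [norm_smul]
    refine mul_le_of_le_one_left (norm_nonneg _) ?_
    rw [Real.norm_eq_abs, abs_div, abs_abs]
    exact div_self_le_one _
  have hl : ∀ x, Tendsto (fun n : ℕ => (f x / √(f x ^ 2 + (1 / ((n : ℝ) + 1)) ^ 2)) • G x) atTop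
      (𝓝 ((f x / |f x|) • G x)) := by
    intro x
    refine Tendsto.smul_const ?_ _
    by_cases h : f x = 0
    · simp [h]
    · exact tendsto_const_nhds.div (tendsto_sqrt_ap (f x)) (abs_ne_zero.2 h)
  have hμ : Integrable fun x => (f x / |f x|) • G x :=
    hG.norm.mono' (aestronglyMeasurable_of_tendsto_ae atTop
      (fun n => (intg_dpsi_ap hf hG (hε n)).aestronglyMeasurable) (Eventually.of_forall hl))
      (Eventually.of_forall hb)
  refine ⟨fun x => (f x / |f x|) • G x, Pair.of_tendsto (fun n => pair_psi hf hG hw (hε n))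
    hf.abs hμ ?_ ?_, hb⟩
  · have := tendsto_integral_of_dominated_convergence (μ := volume) (f := fun _ : E d => (0 : ℝ))
      (F := fun (n : ℕ) x => |√(f x ^ 2 + (1 / ((n : ℝ) + 1)) ^ 2) - 1 / ((n : ℝ) + 1) - abs (f x)|)
      (fun x => |f x| + |f x|)
      (fun n => ((intg_psi_ap hf (hε n)).sub hf.abs).abs.aestronglyMeasurable)
      (hf.abs.add hf.abs) (fun n => Eventually.of_forall fun x => ?_)
      (Eventually.of_forall fun x => ?_)
    · rwa [integral_zero] at this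
    · rw [Real.norm_eq_abs, abs_abs]
      exact (abs_sub _ _).trans (add_le_add (abs_psi_ap (hε n) _) (abs_abs _).le)
    · have h1 := (((tendsto_sqrt_ap (f x)).sub
        (tendsto_one_div_add_atTop_nhds_zero_nat (𝕜 := ℝ))).sub_const |f x|).abs
      simpa using h1
  · have := tendsto_integral_of_dominated_convergence (μ := volume) (f := fun _ : E d => (0 : ℝ))
      (F := fun (n : ℕ) x => ‖(f x / √(f x ^ 2 + (1 / ((n : ℝ) + 1)) ^ 2)) • G x -
        (f x / |f x|) • G x‖) (fun x => ‖G x‖ + ‖G x‖)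
      (fun n => ((intg_dpsi_ap hf hG (hε n)).sub hμ).norm.aestronglyMeasurable)
      (hG.norm.add hG.norm) (fun n => Eventually.of_forall fun x => ?_)
      (Eventually.of_forall fun x => tendsto_iff_norm_sub_tendsto_zero.1 (hl x))
    · rwa [integral_zero] at this
    · rw [norm_norm]
      exact (norm_sub_le _ _).trans (add_le_add (norm_dpsi_ap (hε n) _ _) (hb x))

end Vale.Agent.P137
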