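import Mathlib

/-! P137 Area: a one dimensional area formula bound with charging intervals.

Plan. `exists_partition_approximatesLinearOn_of_hasFDerivWithinAt` (with
`f' s = ContinuousLinearMap.smulRight 1 (f' s)` or `toSpanSingleton`, and `r A = ‖A‖₊ / 2` if `A ≠ 0`)
partitions `A` into countably many measurable pieces `P n = A ∩ t n` on which `f` is injective
(for `x, y` in the piece, `|f x - f y - a (x - y)| ≤ |a|/2 |x - y|` with `a ≠ 0`). On each piece
`lintegral_abs_det_fderiv_le_addHaar_image` (or `lintegral_image_eq_lintegral_abs_deriv_mul` with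
`g = 1`) gives `∫_{P n} |f'| ≤ vol (f '' P n)`, and `f '' P n` is measurable
(`measurable_image_of_fderivWithin`). So the left side is at most
`∫⁻ lam, ∑' n, (f '' P n).indicator 1 lam`. For fixed `lam` and a finite set of `n` with
`lam ∈ f '' P n` choose points `s n ∈ P n` (distinct); their intervals `J n = Ioo s0 (s0 + γ j)` are
pairwise disjoint and lie in `Ioo a (b + T)`; so the number of such `n` is at most
`∑' j, (γ j)⁻¹ vol {t ∈ Ioo a (b+T) | edist lam (p j t) ≤ e j t}`. Integrate in `lam` (Tonelli,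
`lintegral_lintegral_swap`): `vol {lam | edist lam c ≤ ε} ≤ 2 ε` (`Real.volume_closedEBall` or by cases
`ε = ⊤`).
-/

namespace Vale.Agent.P137

open MeasureTheory Set
open scoped ENNReal

/-- A countable measurable partition into pieces of injectivity. -/
theorem area_partition (f f' : ℝ → ℝ) (A : Set ℝ) (hA : MeasurableSet A)
    (hf : ∀ s ∈ A, HasDerivAt f (f' s) s) (hf' : ∀ s ∈ A, f' s ≠ 0) :
    ∃ P : ℕ → Set ℝ, Pairwise (Function.onFun Disjoint P) ∧ (∀ n, MeasurableSet (P n)) ∧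
      (∀ n, P n ⊆ A) ∧ A = ⋃ n, P n ∧ ∀ n, InjOn f (P n) := by
  classical
  rcases A.eq_empty_or_nonempty with rfl | hne
  · refine ⟨fun _ => ∅, ?_, fun _ => MeasurableSet.empty, fun _ => Subset.rfl, by simp,
      fun _ => injOn_empty _⟩
    intro i j _
    simp [Function.onFun]
  let r : (ℝ →L[ℝ] ℝ) → NNReal := fun B => if B 1 = 0 then 1 else ‖B 1‖₊ / 2
  have rpos : ∀ B, r B ≠ 0 := by
    intro B
    by_cases h : B 1 = 0
    · simp [r, h]
    · simp [r, h]
  obtain ⟨t, B, hdis, hmeas, hcov, happ, hB⟩ :=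
    exists_partition_approximatesLinearOn_of_hasFDerivWithinAt f A
      (fun s => ContinuousLinearMap.toSpanSingleton ℝ (f' s))
      (fun x hx => (hf x hx).hasDerivWithinAt.hasFDerivWithinAt) r rpos
  refine ⟨fun n => A ∩ t n, ?_, fun n => hA.inter (hmeas n), fun n => inter_subset_left, ?_, ?_⟩
  · intro i j hij
    exact (hdis hij).mono inter_subset_right inter_subset_right
  · rw [← inter_iUnion]
    exact (inter_eq_left.2 hcov).symm
  · intro n x hx y hy hxy
    obtain ⟨z, hz, hBz⟩ := hB hne n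
    have h1 : B n 1 = f' z := by simp [hBz]
    have h0 : B n 1 ≠ 0 := h1 ▸ hf' z hz
    have h2 := happ n x hx y hy
    have h3 : B n (x - y) = (x - y) * B n 1 := by
      rw [← smul_eq_mul, ← map_smul, smul_eq_mul, mul_one]
    have h4 : (r (B n) : ℝ) = ‖B n 1‖ / 2 := by simp [r, h0]
    rw [hxy, sub_self, zero_sub, norm_neg, h3, norm_mul, h4] at h2
    have h5 : 0 < ‖B n 1‖ := norm_pos_iff.2 h0
    have h6 : ‖x - y‖ ≤ 0 := by nlinarith [norm_nonneg (x - y)]
    exact sub_eq_zero.1 (norm_le_zero_iff.1 h6)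

/-- Counting the preimages of a level by disjoint charging intervals. -/
theorem area_count (f : ℝ → ℝ) (A : Set ℝ) (a b T : ℝ) (γ : ℕ → ℝ) (p : ℕ → ℝ → ℝ)
    (e : ℕ → ℝ → ℝ≥0∞) (hab : A ⊆ Ioo a b) (hγ : ∀ j, 0 < γ j)
    (hch : ∀ s ∈ A, ∃ (j : ℕ) (s0 : ℝ), s ≤ s0 ∧ s0 + γ j ≤ s + T ∧
      (∀ t ∈ Ioo s0 (s0 + γ j), edist (f s) (p j t) ≤ e j t) ∧
      ∀ s' ∈ A, s < s' → f s' = f s → s0 + γ j ≤ s')
    (P : ℕ → Set ℝ) (hdis : Pairwise (Function.onFun Disjoint P)) (hP : ∀ n, P n ⊆ A) (lam : ℝ) :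
    ∑' n, (f '' P n).indicator (1 : ℝ → ℝ≥0∞) lam ≤
      ∑' j, (ENNReal.ofReal (γ j))⁻¹ *
        volume (Ioo a (b + T) ∩ {t | edist lam (p j t) ≤ e j t}) := by
  classical
  choose! J s0 h1 h2 h3 h4 using hch
  have hex : ∀ n, lam ∈ f '' P n → ∃ s, s ∈ P n ∧ f s = lam := fun n hn => hn
  choose! s hsP hsf using hex
  let W : ℕ → Set ℝ := fun j => Ioo a (b + T) ∩ {t | edist lam (p j t) ≤ e j t}
  let m : Measure ℝ := Measure.sum fun j => (ENNReal.ofReal (γ j))⁻¹ • volume.restrict (W j)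
  let I : ℕ → Set ℝ := fun n =>
    if lam ∈ f '' P n then Ioo (s0 (s n)) (s0 (s n) + γ (J (s n))) else ∅
  have hIm : ∀ n, MeasurableSet (I n) := by
    intro n
    by_cases h : lam ∈ f '' P n
    · simp only [I, if_pos h]; exact measurableSet_Ioo
    · simp only [I, if_neg h]; exact MeasurableSet.empty
  have key : ∀ n k, lam ∈ f '' P n → lam ∈ f '' P k → s n < s k → Disjoint (I n) (I k) := by
    intro n k hn hk hlt
    simp only [I, if_pos hn, if_pos hk]
    have a1 := h4 (s n) (hP n (hsP n hn)) (s k) (hP k (hsP k hk)) hlt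
      ((hsf k hk).trans (hsf n hn).symm)
    have a2 := h1 (s k) (hP k (hsP k hk))
    rw [Set.disjoint_left]
    intro x hx hx'
    linarith [hx.2, hx'.1]
  have hId : Pairwise (Function.onFun Disjoint I) := by
    intro n k hnk
    change Disjoint (I n) (I k)
    by_cases hn : lam ∈ f '' P n
    swap
    · simp only [I, if_neg hn]; exact empty_disjoint _
    by_cases hk : lam ∈ f '' P k
    swap
    · simp only [I, if_neg hk]; exact disjoint_empty _
    have hne : s n ≠ s k := by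
      intro h
      exact Set.disjoint_left.1 (hdis hnk) (hsP n hn) (h ▸ hsP k hk)
    rcases lt_or_gt_of_ne hne with h | h
    · exact key n k hn hk h
    · exact (key k n hk hn h).symm
  have hone : ∀ n, (f '' P n).indicator (1 : ℝ → ℝ≥0∞) lam ≤ m (I n) := by
    intro n
    by_cases hn : lam ∈ f '' P n
    swap
    · rw [indicator_of_notMem hn]; exact zero_le
    rw [indicator_of_mem hn, Pi.one_apply, Measure.sum_apply _ (hIm n)]
    refine le_trans ?_ (ENNReal.le_tsum (J (s n)))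
    have hA := hP n (hsP n hn)
    have hsub : I n ⊆ W (J (s n)) := by
      simp only [I, if_pos hn]
      intro x hx
      refine ⟨⟨?_, ?_⟩, ?_⟩
      · linarith [(hab hA).1, h1 _ hA, hx.1]
      · linarith [(hab hA).2, h2 _ hA, hx.2]
      · have := h3 _ hA x hx
        rwa [hsf n hn] at this
    rw [Measure.smul_apply, Measure.restrict_apply (hIm n), inter_eq_left.2 hsub]
    simp only [I, if_pos hn, Real.volume_Ioo, add_sub_cancel_left, smul_eq_mul]
    rw [ENNReal.inv_mul_cancel (by simpa using hγ _) ENNReal.ofReal_ne_top]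
  calc ∑' n, (f '' P n).indicator (1 : ℝ → ℝ≥0∞) lam ≤ ∑' n, m (I n) :=
        ENNReal.tsum_le_tsum hone
    _ = m (⋃ n, I n) := (measure_iUnion hId hIm).symm
    _ ≤ m univ := measure_mono (subset_univ _)
    _ = _ := by
        rw [Measure.sum_apply _ MeasurableSet.univ]
        simp [W]

/-- The measure of the levels close to a reference function. -/
theorem area_swap (S : Set ℝ) (p : ℝ → ℝ) (e : ℝ → ℝ≥0∞) (hp : Measurable p)
    (he : Measurable e) :
    ∫⁻ lam : ℝ, volume.restrict S {t | edist lam (p t) ≤ e t} = 2 * ∫⁻ t in S, e t := by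
  have hU : MeasurableSet {q : ℝ × ℝ | edist q.1 (p q.2) ≤ e q.2} :=
    measurableSet_le (measurable_fst.edist (hp.comp measurable_snd)) (he.comp measurable_snd)
  have h1 := Measure.prod_apply (μ := (volume : Measure ℝ)) (ν := volume.restrict S) hU
  have h2 := Measure.prod_apply_symm (μ := (volume : Measure ℝ)) (ν := volume.restrict S) hU
  have h3 : ∀ t : ℝ, volume ((fun x : ℝ => (x, t)) ⁻¹' {q : ℝ × ℝ | edist q.1 (p q.2) ≤ e q.2})
      = 2 * e t := by
    intro t
    exact Real.volume_closedEBall (p t) (e t)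
  simp only [h3] at h2
  rw [lintegral_const_mul _ he] at h2
  rw [← h2, h1]
  rfl

theorem area_line (f f' : ℝ → ℝ) (A : Set ℝ) (a b T : ℝ) (γ : ℕ → ℝ) (p : ℕ → ℝ → ℝ)
    (e : ℕ → ℝ → ℝ≥0∞) (hA : MeasurableSet A) (hab : A ⊆ Ioo a b) (hγ : ∀ j, 0 < γ j)
    (hp : ∀ j, Measurable (p j)) (he : ∀ j, Measurable (e j))
    (hf : ∀ s ∈ A, HasDerivAt f (f' s) s) (hf' : ∀ s ∈ A, f' s ≠ 0)
    (hch : ∀ s ∈ A, ∃ (j : ℕ) (s0 : ℝ), s ≤ s0 ∧ s0 + γ j ≤ s + T ∧
      (∀ t ∈ Ioo s0 (s0 + γ j), edist (f s) (p j t) ≤ e j t) ∧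
      ∀ s' ∈ A, s < s' → f s' = f s → s0 + γ j ≤ s') :
    ∫⁻ s in A, ‖f' s‖ₑ ≤
      ∑' j : ℕ, 2 * (ENNReal.ofReal (γ j))⁻¹ * ∫⁻ t in Ioo a (b + T), e j t := by
  obtain ⟨P, hdis, hPm, hPA, hAU, hinj⟩ := area_partition f f' A hA hf hf'
  have hder : ∀ n, ∀ x ∈ P n, HasDerivWithinAt f (f' x) (P n) x :=
    fun n x hx => (hf x (hPA n hx)).hasDerivWithinAt
  have him : ∀ n, MeasurableSet (f '' P n) := fun n =>
    measurable_image_of_fderivWithin (hPm n) (fun x hx => (hder n x hx).hasFDerivWithinAt) (hinj n)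
  have hU : ∀ j, MeasurableSet {q : ℝ × ℝ | edist q.1 (p j q.2) ≤ e j q.2} := fun j =>
    measurableSet_le (measurable_fst.edist ((hp j).comp measurable_snd))
      ((he j).comp measurable_snd)
  have hsec : ∀ j (lam : ℝ), volume (Ioo a (b + T) ∩ {t | edist lam (p j t) ≤ e j t}) =
      volume.restrict (Ioo a (b + T)) {t | edist lam (p j t) ≤ e j t} := by
    intro j lam
    rw [Measure.restrict_apply' measurableSet_Ioo, inter_comm]
  have hmeas : ∀ j, Measurable fun lam : ℝ =>
      volume.restrict (Ioo a (b + T)) {t | edist lam (p j t) ≤ e j t} := fun j =>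
    measurable_measure_prodMk_left (ν := volume.restrict (Ioo a (b + T))) (hU j)
  calc ∫⁻ s in A, ‖f' s‖ₑ = ∑' n, ∫⁻ s in P n, ‖f' s‖ₑ := by
        conv_lhs => rw [hAU]
        exact lintegral_iUnion hPm hdis _
    _ = ∑' n, ∫⁻ lam, (f '' P n).indicator (1 : ℝ → ℝ≥0∞) lam := by
        refine tsum_congr fun n => ?_
        rw [lintegral_indicator (him n),
          lintegral_image_eq_lintegral_abs_deriv_mul (hPm n) (hder n) (hinj n)]
        simp only [Pi.one_apply, mul_one, Real.enorm_eq_ofReal_abs]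
    _ = ∫⁻ lam, ∑' n, (f '' P n).indicator (1 : ℝ → ℝ≥0∞) lam :=
        (lintegral_tsum fun n => (measurable_one.indicator (him n)).aemeasurable).symm
    _ ≤ ∫⁻ lam : ℝ, ∑' j, (ENNReal.ofReal (γ j))⁻¹ *
        volume.restrict (Ioo a (b + T)) {t | edist lam (p j t) ≤ e j t} := by
        refine lintegral_mono fun lam => ?_
        simp only [← hsec]
        exact area_count f A a b T γ p e hab hγ hch P hdis hPA lam
    _ = ∑' j, ∫⁻ lam : ℝ, (ENNReal.ofReal (γ j))⁻¹ *
        volume.restrict (Ioo a (b + T)) {t | edist lam (p j t) ≤ e j t} :=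
        lintegral_tsum fun j => ((hmeas j).const_mul _).aemeasurable
    _ = _ := by
        refine tsum_congr fun j => ?_
        rw [lintegral_const_mul _ (hmeas j), area_swap _ _ _ (hp j) (he j)]
        ring

end Vale.Agent.P137
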