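import Vale.Agent.P137.Mart

/-! P137 GM: mass of disjoint zones inside a tree.

* `gm_disj`: for `n ≥ j0` let `Al n = H n \ ⋃_{j < n} Z j` (`Sat (n + a - 1)`, so `Sat (n + a)`; also
  `Al (n+1)` is `Sat (n + a)`), `P n = ∫_{Al n} ⟪ν, μ⟫`. `Al n ⊇ Z n ⊔ Al (n+1)`, and with
  `setIntegral_inner_vk_mu` at level `n + a`:
  `P n - P (n+1) = ∫_{Al n \ Al (n+1)} ⟪ν, vk (n+a)⟫`. Pointwise (in `ℝ`, `b = (bd ..).toReal`):
  `‖v‖ ≤ 2 ⟪ν,v⟫ + 3 b` and `0 ≤ 2 ⟪ν,v⟫ + 2 b`. So `∫_{Z n} ‖v‖ ≤ 2 (P n - P (n+1)) + 3 ∫_{H n} b`,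
  `-P n ≤ ∫_{H n} b`, `P j0 = ∫_{cube} ⟪ν, vk j0⟫ ≤ ∫_{cube} ‖vk j0‖`. Telescope, then
  `ENNReal.tsum_le_of_sum_range_le`.
* `gm`: apply `gm_disj` to `Z' j = if j % m = c then Z j else ∅` for `c < m` and add.
-/

namespace Vale.Agent.P137

open MeasureTheory Metric Set Filter Topology
open scoped ENNReal NNReal RealInnerProductSpace

variable {d : ℕ}

/-- Real version of the bad mass. -/
noncomputable def bdR (g : Grid d) (μ : E d → E d) (Gd : Set (E d)) (k : ℕ) (y : E d) : ℝ :=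
  (g.bd μ Gd k y).toReal

theorem bdR_nonneg (g : Grid d) (μ : E d → E d) (Gd : Set (E d)) (k : ℕ) (y : E d) :
    0 ≤ bdR g μ Gd k y := ENNReal.toReal_nonneg

theorem bdR_int (g : Grid d) {μ : E d → E d} (hμ : Integrable μ) (Gd : Set (E d)) (k : ℕ) :
    Integrable (bdR g μ Gd k) := by
  refine (g.integrable_vk hμ k).norm.mono' (g.measurable_bd Gd k).ennreal_toReal.aestronglyMeasurable
    (Eventually.of_forall fun y => ?_)
  rw [Real.norm_of_nonneg (bdR_nonneg _ _ _ _ _), ← toReal_enorm]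
  exact ENNReal.toReal_mono enorm_ne_top (g.bd_le Gd k y)

theorem ofReal_bdR (g : Grid d) {μ : E d → E d} (hμ : Integrable μ) (Gd : Set (E d)) (k : ℕ)
    (S : Set (E d)) : ENNReal.ofReal (∫ y in S, bdR g μ Gd k y) = ∫⁻ y in S, g.bd μ Gd k y := by
  rw [ofReal_integral_eq_lintegral_ofReal (bdR_int g hμ Gd k).integrableOn
    (Eventually.of_forall (bdR_nonneg g μ Gd k))]
  refine lintegral_congr fun y => ENNReal.ofReal_toReal ?_
  exact ne_top_of_le_ne_top enorm_ne_top (g.bd_le Gd k y)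

theorem gm_step (g : Grid d) {μ : E d → E d} (hμ : Integrable μ) {ν : E d} {Gd : Set (E d)}
    (hG : Cone ν Gd) {k : ℕ} {A A' Y B : Set (E d)} (hA : g.Sat k A) (hA' : g.Sat k A')
    (h1 : A' ⊆ A) (h2 : Y ⊆ A \ A') (h3 : A ⊆ B) :
    ∫ u in Y, ‖g.vk μ k u‖ ≤
      2 * ((∫ u in A, ⟪ν, μ u⟫) - ∫ u in A', ⟪ν, μ u⟫) + 3 * ∫ u in B, bdR g μ Gd k u := by
  have i1 : Integrable fun u => ⟪ν, μ u⟫ := hμ.const_inner ν
  have i2 : Integrable fun u => ⟪ν, g.vk μ k u⟫ := (g.integrable_vk hμ k).const_inner ν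
  have i3 := bdR_int g hμ Gd k
  have i4 : Integrable fun u => 2 * ⟪ν, g.vk μ k u⟫ + 3 * bdR g μ Gd k u :=
    (i2.const_mul 2).add (i3.const_mul 3)
  have hp : ∀ u, ‖g.vk μ k u‖ ≤ 2 * ⟪ν, g.vk μ k u⟫ + 3 * bdR g μ Gd k u := by
    intro u
    by_cases h : g.vk μ k u ∈ Gd
    · have := hG.le _ h
      linarith [bdR_nonneg g μ Gd k u]
    · have e : bdR g μ Gd k u = ‖g.vk μ k u‖ := by rw [bdR, g.bd_of_notMem h, toReal_enorm]
      have h4 := (abs_le.1 (abs_real_inner_le_norm ν (g.vk μ k u))).1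
      have h5 := mul_le_of_le_one_left (norm_nonneg (g.vk μ k u)) hG.norm_le
      linarith
  rw [← setIntegral_sdiff hA'.measurableSet i1.integrableOn h1,
    ← g.setIntegral_inner_vk_mu hμ (φ := fun _ => ν) (fun _ _ _ => rfl) (fun _ => le_rfl) (hA.diff hA')]
  calc ∫ u in Y, ‖g.vk μ k u‖ ≤ ∫ u in A \ A', ‖g.vk μ k u‖ :=
        setIntegral_mono_set (g.integrable_vk hμ k).norm.integrableOn
          (Eventually.of_forall fun u => norm_nonneg _) h2.eventuallyLE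
    _ ≤ ∫ u in A \ A', (2 * ⟪ν, g.vk μ k u⟫ + 3 * bdR g μ Gd k u) :=
        integral_mono (g.integrable_vk hμ k).norm.integrableOn i4.integrableOn hp
    _ = 2 * (∫ u in A \ A', ⟪ν, g.vk μ k u⟫) + 3 * ∫ u in A \ A', bdR g μ Gd k u := by
        rw [integral_add (i2.const_mul 2).integrableOn (i3.const_mul 3).integrableOn,
          integral_const_mul, integral_const_mul]
    _ ≤ _ := by
        have := setIntegral_mono_set (s := A \ A') (t := B) i3.integrableOn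
          (Eventually.of_forall (bdR_nonneg g μ Gd k)) (sdiff_subset.trans h3).eventuallyLE
        linarith

theorem gm_disj (g : Grid d) {μ : E d → E d} (hμ : Integrable μ) {ν : E d} {Gd : Set (E d)}
    (hG : Cone ν Gd) {a : ℕ} (ha : 1 ≤ a) (j0 : ℕ) (y0 : E d) (H Z : ℕ → Set (E d))
    (hH : ∀ j, g.Sat j (H j)) (hlow : ∀ j, j < j0 → H j = ∅) (htop : H j0 = g.cube j0 y0)
    (hanti : ∀ j, j0 ≤ j → H (j + 1) ⊆ H j) (hZ : ∀ j, g.Sat (j + a) (Z j))
    (hZH : ∀ j, Z j ⊆ H j) (hdisj : ∀ u j j', u ∈ Z j → u ∈ Z j' → j = j') :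
    ∑' j : ℕ, ∫⁻ u in Z j, ‖g.vk μ (j + a) u‖ₑ ≤
      2 * (∫⁻ u in g.cube j0 y0, ‖g.vk μ j0 u‖ₑ) +
        3 * ∑' j : ℕ, ∫⁻ u in H j, g.bd μ Gd (j + a) u := by
  set Al : ℕ → Set (E d) := fun n => {u | u ∈ H n ∧ ∀ j, j < n → u ∉ Z j} with hAl
  have hsat : ∀ n k, n + a ≤ k + 1 → g.Sat k (Al n) := by
    intro n k h y u e hy
    exact ⟨(hH n).mono (by omega) y u e hy.1, fun j hj hu =>
      hy.2 j hj ((hZ j).mono (by omega) u y e.symm hu)⟩
  have hZ0 : ∀ j, j < j0 → Z j = ∅ := fun j hj => subset_eq_empty (hZH j) (hlow j hj)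
  have hβ : ∀ n, 0 ≤ ∫ u in H n, bdR g μ Gd (n + a) u := fun n =>
    integral_nonneg (bdR_nonneg g μ Gd _)
  have key : ∀ N, j0 ≤ N → ∑ n ∈ Finset.range N, ∫ u in Z n, ‖g.vk μ (n + a) u‖ ≤
      2 * ((∫ u in Al j0, ⟪ν, μ u⟫) - ∫ u in Al N, ⟪ν, μ u⟫) +
        3 * ∑ n ∈ Finset.range N, ∫ u in H n, bdR g μ Gd (n + a) u := by
    intro N hN
    induction N, hN using Nat.le_induction with
    | base =>
      rw [Finset.sum_eq_zero fun n hn => by rw [hZ0 n (Finset.mem_range.1 hn), setIntegral_empty]]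
      have := Finset.sum_nonneg fun n (_ : n ∈ Finset.range j0) => hβ n
      linarith
    | succ N hN ih =>
      have := gm_step g hμ hG (k := N + a) (A := Al N) (A' := Al (N + 1)) (Y := Z N) (B := H N)
        (hsat _ _ (by omega)) (hsat _ _ (by omega))
        (fun u hu => ⟨hanti N hN hu.1, fun j hj => hu.2 j (by omega)⟩)
        (fun u hu => ⟨⟨hZH N hu, fun j hj h => by have := hdisj u j N h hu; omega⟩,
          fun h => h.2 N (by omega) hu⟩) (fun u hu => hu.1)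
      rw [Finset.sum_range_succ, Finset.sum_range_succ]
      linarith
  have e0 : Al j0 = g.cube j0 y0 := by
    ext u
    rw [← htop]
    exact ⟨fun h => h.1, fun h => ⟨h, fun j hj => by rw [hZ0 j hj]; exact notMem_empty u⟩⟩
  have htp : ∫ u in Al j0, ⟪ν, μ u⟫ ≤ ∫ u in g.cube j0 y0, ‖g.vk μ j0 u‖ := by
    rw [e0, ← g.setIntegral_inner_vk_mu hμ (φ := fun _ => ν) (fun _ _ _ => rfl) (fun _ => le_rfl)
      (g.sat_cube j0 y0)]
    refine integral_mono ((g.integrable_vk hμ j0).const_inner ν).integrableOn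
      (g.integrable_vk hμ j0).norm.integrableOn fun u => ?_
    exact (real_inner_le_norm _ _).trans (mul_le_of_le_one_left (norm_nonneg _) hG.norm_le)
  refine ENNReal.tsum_le_of_sum_range_le fun N => ?_
  refine (Finset.sum_le_sum_of_subset (Finset.range_mono (le_max_left N j0))).trans ?_
  generalize hM : max N j0 = M
  have hM' : j0 ≤ M := hM ▸ le_max_right N j0
  have h1 := key M hM'
  have h2 := gm_step g hμ hG (k := M + a) (A := Al M) (A' := ∅) (Y := ∅) (B := H M)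
    (hsat _ _ (by omega)) (fun _ _ _ h => h) (empty_subset _) (empty_subset _) (fun u hu => hu.1)
  rw [setIntegral_empty, setIntegral_empty] at h2
  have h3 : ∑ n ∈ Finset.range M, ∫ u in Z n, ‖g.vk μ (n + a) u‖ ≤
      2 * (∫ u in g.cube j0 y0, ‖g.vk μ j0 u‖) +
        3 * ∑ n ∈ Finset.range (M + 1), ∫ u in H n, bdR g μ Gd (n + a) u := by
    rw [Finset.sum_range_succ]
    linarith
  have e1 : ∀ k (S : Set (E d)), ∫⁻ u in S, ‖g.vk μ k u‖ₑ = ENNReal.ofReal (∫ u in S, ‖g.vk μ k u‖) :=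
    fun k S => (ofReal_integral_norm_eq_lintegral_enorm (g.integrable_vk hμ k).integrableOn).symm
  simp only [e1]
  rw [← ENNReal.ofReal_sum_of_nonneg fun n _ => integral_nonneg fun u => norm_nonneg _]
  refine (ENNReal.ofReal_le_ofReal h3).trans (ENNReal.ofReal_add_le.trans (add_le_add ?_ ?_))
  · rw [ENNReal.ofReal_mul (by norm_num), ENNReal.ofReal_ofNat]
  · rw [ENNReal.ofReal_mul (by norm_num), ENNReal.ofReal_ofNat,
      ENNReal.ofReal_sum_of_nonneg fun n _ => hβ n]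
    simp only [ofReal_bdR g hμ]
    exact mul_le_mul_right (ENNReal.sum_le_tsum _) _

theorem gm (g : Grid d) {μ : E d → E d} (hμ : Integrable μ) {ν : E d} {Gd : Set (E d)}
    (hG : Cone ν Gd) {a : ℕ} (ha : 1 ≤ a) (j0 : ℕ) (y0 : E d) (H Z : ℕ → Set (E d))
    (hH : ∀ j, g.Sat j (H j)) (hlow : ∀ j, j < j0 → H j = ∅) (htop : H j0 = g.cube j0 y0)
    (hanti : ∀ j, j0 ≤ j → H (j + 1) ⊆ H j) (hZ : ∀ j, g.Sat (j + a) (Z j))
    (hZH : ∀ j, Z j ⊆ H j) (m : ℕ) (hover : ∀ u j j', u ∈ Z j → u ∈ Z j' → j' < j + m) :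
    ∑' j : ℕ, ∫⁻ u in Z j, ‖g.vk μ (j + a) u‖ₑ ≤
      m * (2 * (∫⁻ u in g.cube j0 y0, ‖g.vk μ j0 u‖ₑ) +
        3 * ∑' j : ℕ, ∫⁻ u in H j, g.bd μ Gd (j + a) u) := by
  have h1 : ∀ c ∈ Finset.range m,
      ∑' j : ℕ, ∫⁻ u in (if j % m = c then Z j else ∅), ‖g.vk μ (j + a) u‖ₑ ≤
        2 * (∫⁻ u in g.cube j0 y0, ‖g.vk μ j0 u‖ₑ) +
          3 * ∑' j : ℕ, ∫⁻ u in H j, g.bd μ Gd (j + a) u := by
    intro c _
    refine gm_disj g hμ hG ha j0 y0 H (fun j => if j % m = c then Z j else ∅) hH hlow htop hanti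
      (fun j => ?_) (fun j => ?_) fun u j j' h h' => ?_
    · split_ifs
      · exact hZ j
      · exact fun _ _ _ h => h
    · split_ifs
      · exact hZH j
      · exact empty_subset _
    · split_ifs at h h' with e e'
      · have k1 := hover u j j' h h'
        have k2 := hover u j' j h' h
        have e2 : j ≡ j' [MOD m] := e.trans e'.symm
        rcases le_total j j' with hl | hl
        · have := Nat.eq_zero_of_dvd_of_lt ((Nat.modEq_iff_dvd' hl).1 e2) (by omega)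
          omega
        · have := Nat.eq_zero_of_dvd_of_lt ((Nat.modEq_iff_dvd' hl).1 e2.symm) (by omega)
          omega
      · exact absurd h' (notMem_empty u)
      · exact absurd h (notMem_empty u)
      · exact absurd h (notMem_empty u)
  have h2 := Finset.sum_le_card_nsmul _ _ _ h1
  rw [Finset.card_range, nsmul_eq_mul, ← Summable.tsum_finsetSum fun _ _ => ENNReal.summable] at h2
  refine (ENNReal.tsum_le_tsum fun j => ?_).trans h2
  rcases Nat.eq_zero_or_pos m with rfl | hm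
  · have : Z j = ∅ := eq_empty_of_forall_notMem fun u hu => lt_irrefl _ (hover u j j hu hu)
    simp [this]
  · refine le_trans (le_of_eq ?_) (Finset.single_le_sum
      (f := fun c => ∫⁻ u in (if j % m = c then Z j else ∅), ‖g.vk μ (j + a) u‖ₑ)
      (fun _ _ => zero_le) (Finset.mem_range.2 (Nat.mod_lt j hm)))
    simp

end Vale.Agent.P137
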