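import Vale.Agent.P137.Grid

/-! P137 Nmax: the truncated maximal function `Nm`.

Plan.
* `continuousOn_av`: `av_eq` and dominated convergence (`continuousAt_of_dominated` /
  `tendsto_integral_filter_of_dominated_convergence`) for `(ball z r).indicator h`; off the null
  sphere `sphere z0 r0` (`Measure.addHaar_sphere`) the indicator is locally constant in `(z, r)`.
* `Nm h δ η x = sSup ((fun p => av h (x + p.1) (max p.2 δ)) '' K)` with the compact nonempty set
  `K = {p : E d × ℝ | δ ≤ p.2 ∧ p.2 ≤ η ∧ ‖p.1‖ ≤ p.2}`; `IsCompact.continuous_sSup`,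
  `IsCompact.exists_sSup_image_eq`, `le_csSup`.
* `Act.av_lt`: otherwise `Nm ≥ av z r ≥ Nm x` on the open ball, so `x` is a local minimum
  (`IsLocalMin.fderiv_eq_zero`).
* `Opt.inner_le`: `n = x - z`, `‖n‖ = r`, `φ = fderiv`. If `⟪n, w⟫ < 0` then `x + s w` is in the ball
  for small `s > 0`, so `φ w ≥ 0`; by perturbation (`w - ε n`) also for `⟪n, w⟫ ≤ 0`. So `φ = 0` on
  `n^⊥`, `φ n ≤ 0`, `φ u = ⟪n,u⟫ φ n / r^2`, `|φ n| ≤ r ‖φ‖`, and `‖φ‖ > 0`.
* `isClosed_opt`: the set is the projection along the compact `K` of a closed set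
  (`isClosedMap_fst_of_compactSpace`, or sequences); the constraints `δ ≤ r` keep `av` continuous.
* `measurableSet_AA`: countable union over `(j, n)` with `g.rep j n ∈ S j` of
  `{Act} ∩ {x | ∃ p ∈ K, Opt ..}`, `K = {z | idx j z = n ∧ Deep j z} ×ˢ Icc (R j/2) (R j)`.
-/

namespace Vale.Agent.P137

open MeasureTheory Metric Set Filter Topology
open scoped ENNReal NNReal RealInnerProductSpace

variable {d : ℕ}

theorem continuousAt_ball_integral {F : Type} [NormedAddCommGroup F] [NormedSpace ℝ F]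
    {h : E d → F} (hh : Integrable h) {p : E d × ℝ} (hp : 0 < p.2) :
    ContinuousAt (fun q : E d × ℝ => ∫ y in ball q.1 q.2, h y) p := by
  have e : (fun q : E d × ℝ => ∫ y in ball q.1 q.2, h y) =
      fun q : E d × ℝ => ∫ y, (ball q.1 q.2).indicator h y := by
    funext q
    rw [integral_indicator measurableSet_ball]
  rw [e]
  refine continuousAt_of_dominated (bound := fun y => ‖h y‖) ?_ ?_ hh.norm ?_
  · exact Eventually.of_forall fun q => hh.aestronglyMeasurable.indicator measurableSet_ball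
  · exact Eventually.of_forall fun q => Eventually.of_forall fun y => norm_indicator_le_norm_self _ _
  · have hs : volume (sphere p.1 p.2) = 0 := Measure.addHaar_sphere_of_ne_zero volume p.1 hp.ne'
    have hae : ∀ᵐ y, y ∉ sphere p.1 p.2 := measure_eq_zero_iff_ae_notMem.1 hs
    filter_upwards [hae] with y hy
    have hc : Continuous fun q : E d × ℝ => dist y q.1 - q.2 := by fun_prop
    rcases lt_or_gt_of_ne (show dist y p.1 ≠ p.2 from hy) with h1 | h1
    · have : ∀ᶠ q : E d × ℝ in 𝓝 p, dist y q.1 - q.2 < 0 :=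
        hc.continuousAt.eventually_lt continuousAt_const (by simpa using h1)
      refine (continuousAt_const (y := h y)).congr ?_
      filter_upwards [this] with q hq
      rw [indicator_of_mem (show y ∈ ball q.1 q.2 from mem_ball.2 (by linarith))]
    · have : ∀ᶠ q : E d × ℝ in 𝓝 p, 0 < dist y q.1 - q.2 :=
        continuousAt_const.eventually_lt hc.continuousAt (by simpa using h1)
      refine (continuousAt_const (y := (0 : F))).congr ?_
      filter_upwards [this] with q hq
      rw [indicator_of_notMem (show y ∉ ball q.1 q.2 from fun hm => by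
        have := mem_ball.1 hm; linarith)]

theorem continuousOn_av {F : Type} [NormedAddCommGroup F] [NormedSpace ℝ F] [CompleteSpace F]
    {h : E d → F} (hh : Integrable h) :
    ContinuousOn (fun p : E d × ℝ => av h p.1 p.2) {p | 0 < p.2} := by
  refine ContinuousOn.congr
    (f := fun p : E d × ℝ => (om d * p.2 ^ d)⁻¹ • ∫ y in ball p.1 p.2, h y) ?_
    (fun p hp => av_eq h p.1 hp)
  intro p hp
  have hp' : 0 < p.2 := hp
  refine ContinuousAt.continuousWithinAt (ContinuousAt.smul ?_ (continuousAt_ball_integral hh hp'))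
  refine ContinuousAt.inv₀ (by fun_prop) ?_
  exact (mul_pos om_pos (pow_pos hp' _)).ne'

theorem continuous_av {F : Type} [NormedAddCommGroup F] [NormedSpace ℝ F] [CompleteSpace F]
    {h : E d → F} (hh : Integrable h) {r : ℝ} (hr : 0 < r) : Continuous fun z => av h z r := by
  have := (continuousOn_av hh).comp_continuous (f := fun z : E d => (z, r)) (by fun_prop)
    (fun _ => hr)
  exact this

variable {h : E d → ℝ} {δ η : ℝ}

/-- The compact parameter set. -/
def KK (d : ℕ) (δ η : ℝ) : Set (E d × ℝ) := {p | δ ≤ p.2 ∧ p.2 ≤ η ∧ ‖p.1‖ ≤ p.2}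

theorem isCompact_KK : IsCompact (KK d δ η) := by
  refine ((isCompact_closedBall (0 : E d) η).prod (isCompact_Icc (a := δ) (b := η))).of_isClosed_subset
    ?_ ?_
  · exact (isClosed_le continuous_const continuous_snd).inter
      ((isClosed_le continuous_snd continuous_const).inter
        (isClosed_le (continuous_fst.norm) continuous_snd))
  · rintro p ⟨h1, h2, h3⟩
    exact ⟨mem_closedBall_zero_iff.2 (h3.trans h2), h1, h2⟩

theorem continuous_avK (hh : Integrable h) (hδ : 0 < δ) :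
    Continuous fun q : E d × (E d × ℝ) => av h (q.1 + q.2.1) (max q.2.2 δ) := by
  have := (continuousOn_av hh).comp_continuous
    (f := fun q : E d × (E d × ℝ) => (q.1 + q.2.1, max q.2.2 δ)) (by fun_prop)
    (fun q => lt_max_of_lt_right hδ)
  exact this

theorem Nm_set (x : E d) : {a | ∃ z r, δ ≤ r ∧ r ≤ η ∧ ‖x - z‖ ≤ r ∧ a = av h z r} =
    (fun p : E d × ℝ => av h (x + p.1) (max p.2 δ)) '' KK d δ η := by
  ext a
  constructor
  · rintro ⟨z, r, h1, h2, h3, rfl⟩
    refine ⟨(z - x, r), ⟨h1, h2, by simpa [norm_sub_rev] using h3⟩, ?_⟩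
    simp [max_eq_left h1]
  · rintro ⟨p, ⟨h1, h2, h3⟩, rfl⟩
    refine ⟨x + p.1, p.2, h1, h2, by simpa using h3, ?_⟩
    simp [max_eq_left h1]

theorem continuous_avK' (hh : Integrable h) (hδ : 0 < δ) (x : E d) :
    Continuous fun p : E d × ℝ => av h (x + p.1) (max p.2 δ) :=
  (continuous_avK hh hδ).comp (f := fun p : E d × ℝ => (x, p)) (by fun_prop)

theorem le_Nm (hh : Integrable h) (hδ : 0 < δ) {x z : E d} {r : ℝ} (h1 : δ ≤ r) (h2 : r ≤ η)
    (h3 : ‖x - z‖ ≤ r) : av h z r ≤ Nm h δ η x := by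
  refine le_csSup ?_ ⟨z, r, h1, h2, h3, rfl⟩
  rw [Nm_set]
  exact (isCompact_KK.image (continuous_avK' hh hδ x)).bddAbove

theorem exists_opt (hh : Integrable h) (hδ : 0 < δ) (hδη : δ ≤ η) (x : E d) :
    ∃ z r, Opt h δ η x z r := by
  have hne : (KK d δ η).Nonempty := ⟨(0, δ), le_rfl, hδη, by simpa using hδ.le⟩
  have := (isCompact_KK.image (continuous_avK' hh hδ x)).sSup_mem (hne.image _)
  rw [← Nm_set] at this
  obtain ⟨z, r, h1, h2, h3, h4⟩ := this
  exact ⟨z, r, h1, h2, h3, h4.symm⟩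

theorem continuous_Nm (hh : Integrable h) (hδ : 0 < δ) (hδη : δ ≤ η) :
    Continuous (Nm h δ η) := by
  have e : Nm h δ η = fun x => sSup ((fun p : E d × ℝ => av h (x + p.1) (max p.2 δ)) '' KK d δ η) := by
    funext x
    rw [Nm, Nm_set]
  have _ := hδη
  rw [e]
  exact isCompact_KK.continuous_sSup (f := fun (x : E d) (p : E d × ℝ) => av h (x + p.1) (max p.2 δ))
    (continuous_avK hh hδ)

theorem Act.av_lt (hh : Integrable h) (hδ : 0 < δ) {x z : E d} {r : ℝ} (hx : Act (Nm h δ η) x)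
    (h1 : δ ≤ r) (h2 : r ≤ η) (h3 : ‖x - z‖ < r) : av h z r < Nm h δ η x := by
  by_contra hc
  push Not at hc
  refine hx.2 (IsLocalMin.fderiv_eq_zero ?_)
  have : ball z r ∈ 𝓝 x := isOpen_ball.mem_nhds (by rwa [mem_ball, dist_eq_norm])
  filter_upwards [this] with y hy
  rw [mem_ball, dist_eq_norm] at hy
  exact hc.trans (le_Nm hh hδ h1 h2 hy.le)

theorem Opt.inner_le (hh : Integrable h) (hδ : 0 < δ) {x z u : E d} {r b : ℝ}
    (hx : Act (Nm h δ η) x) (ho : Opt h δ η x z r) (hb : 0 < b)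
    (hu : b * ‖fderiv ℝ (Nm h δ η) x‖ ≤ fderiv ℝ (Nm h δ η) x u) : ⟪x - z, u⟫ ≤ -(b * r) := by
  obtain ⟨h1, h2, h3, h4⟩ := ho
  have _ := hb
  have hr : 0 < r := hδ.trans_le h1
  set φ := fderiv ℝ (Nm h δ η) x with hφ
  have hxm : x ∈ closedBall z r := by rwa [mem_closedBall, dist_eq_norm]
  have hmin : IsLocalMinOn (Nm h δ η) (closedBall z r) x := by
    refine IsMinOn.localize ?_
    intro y hy
    rw [mem_closedBall, dist_eq_norm] at hy
    exact h4.symm.le.trans (le_Nm hh hδ h1 h2 hy)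
  have key : ∀ y ∈ closedBall z r, 0 ≤ φ (y - x) := fun y hy =>
    hmin.hasFDerivWithinAt_nonneg hx.1.hasFDerivAt.hasFDerivWithinAt
      (sub_mem_posTangentConeAt_of_segment_subset ((convex_closedBall z r).segment_subset hxm hy))
  set g : E d := (InnerProductSpace.toDual ℝ (E d)).symm φ with hg
  have hgφ : ∀ v, φ v = ⟪g, v⟫ := fun v => by
    rw [hg, InnerProductSpace.toDual_symm_apply]
  have hn : ‖g‖ = ‖φ‖ := by rw [hg, LinearIsometryEquiv.norm_map]
  have hpos : 0 < ‖g‖ := by rw [hn]; exact norm_pos_iff.2 hx.2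
  set c := r / ‖g‖ with hc
  have hcg : c * ‖g‖ = r := div_mul_cancel₀ _ hpos.ne'
  have hc0 : 0 < c := div_pos hr hpos
  have hy : z - c • g ∈ closedBall z r := by
    rw [mem_closedBall, dist_eq_norm]
    simp [norm_smul, abs_of_pos hc0, hcg]
  have k1 := key _ hy
  have e1 : z - c • g - x = -((x - z) + c • g) := by abel
  rw [hgφ, e1, inner_neg_right, inner_add_right, inner_smul_right, real_inner_self_eq_norm_sq] at k1
  have k2 : ‖(x - z) + c • g‖ ^ 2 ≤ 0 := by
    rw [norm_add_sq_real, inner_smul_right, norm_smul, Real.norm_eq_abs, abs_of_pos hc0, hcg,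
      real_inner_comm]
    have a1 : ‖x - z‖ ^ 2 ≤ r ^ 2 := pow_le_pow_left₀ (norm_nonneg _) h3 2
    have a2 : c * ⟪g, x - z⟫ ≤ -(c * (c * ‖g‖ ^ 2)) := by nlinarith
    have a3 : c * (c * ‖g‖ ^ 2) = r ^ 2 := by rw [← hcg]; ring
    linarith
  have k3 : x - z = -(c • g) := by
    have : ‖(x - z) + c • g‖ = 0 := by
      have := sq_nonneg ‖(x - z) + c • g‖
      exact pow_eq_zero_iff (two_ne_zero) |>.1 (le_antisymm k2 this)
    exact eq_neg_of_add_eq_zero_left (norm_eq_zero.1 this)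
  rw [k3, inner_neg_left, inner_smul_left, ← hgφ]
  rw [← hn] at hu
  have : b * r ≤ c * φ u := by
    calc b * r = c * (b * ‖g‖) := by rw [← hcg]; ring
      _ ≤ c * φ u := mul_le_mul_of_nonneg_left hu hc0.le
  simpa using this

theorem measurableSet_act (N : E d → ℝ) : MeasurableSet {x | Act N x} := by
  have h1 := measurableSet_of_differentiableAt ℝ N
  have h2 : MeasurableSet {x | fderiv ℝ N x ≠ 0} :=
    (measurable_fderiv ℝ N) (measurableSet_singleton (0 : E d →L[ℝ] ℝ)).compl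
  exact h1.inter h2

theorem isClosed_opt (hh : Integrable h) (hδ : 0 < δ) (hδη : δ ≤ η) {K : Set (E d × ℝ)}
    (hK : IsCompact K) : IsClosed {x | ∃ p ∈ K, Opt h δ η x p.1 p.2} := by
  have : CompactSpace K := isCompact_iff_compactSpace.1 hK
  have hc : Continuous fun q : E d × K => av h q.2.1.1 (max q.2.1.2 δ) := by
    have := (continuousOn_av hh).comp_continuous
      (f := fun q : E d × K => (q.2.1.1, max q.2.1.2 δ)) (by fun_prop)
      (fun q => lt_max_of_lt_right hδ)
    exact this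
  have hcl : IsClosed {q : E d × K | δ ≤ q.2.1.2 ∧ q.2.1.2 ≤ η ∧ ‖q.1 - q.2.1.1‖ ≤ q.2.1.2 ∧
      av h q.2.1.1 (max q.2.1.2 δ) = Nm h δ η q.1} := by
    have c1 : Continuous fun q : E d × K => q.2.1.2 := by fun_prop
    have c2 : Continuous fun q : E d × K => ‖q.1 - q.2.1.1‖ := by fun_prop
    have c3 : Continuous fun q : E d × K => Nm h δ η q.1 :=
      (continuous_Nm hh hδ hδη).comp continuous_fst
    exact (isClosed_le continuous_const c1).inter
      ((isClosed_le c1 continuous_const).inter ((isClosed_le c2 c1).inter (isClosed_eq hc c3)))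
  convert isClosedMap_fst_of_compactSpace _ hcl using 1
  ext x
  constructor
  · rintro ⟨p, hp, h1, h2, h3, h4⟩
    exact ⟨(x, ⟨p, hp⟩), ⟨h1, h2, h3, by simpa [max_eq_left h1] using h4⟩, rfl⟩
  · rintro ⟨⟨x, p, hp⟩, ⟨h1, h2, h3, h4⟩, rfl⟩
    have h1' : δ ≤ p.2 := h1
    exact ⟨p, hp, h1, h2, h3, by simpa [max_eq_left h1'] using h4⟩

theorem measurableSet_AA (hh : Integrable h) (hδ : 0 < δ) (hδη : δ ≤ η) (g : Grid d)
    {S : ℕ → Set (E d)} (hS : ∀ j, g.Sat j (S j)) : MeasurableSet (AA h δ η g S) := by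
  have e : AA h δ η g S = {x | Act (Nm h δ η) x} ∩ ⋃ (j : ℕ) (n : Fin d → ℤ) (_ : g.rep j n ∈ S j),
      {x | ∃ p ∈ {z | g.idx j z = n ∧ g.Deep j z} ×ˢ Icc (g.R j / 2) (g.R j),
        Opt h δ η x p.1 p.2} := by
    ext x
    simp only [AA, mem_ofPred_eq, mem_inter_iff, mem_iUnion]
    refine and_congr_right fun _ => ⟨?_, ?_⟩
    · rintro ⟨j, z, r, h1, h2, h3, h4, h5⟩
      exact ⟨j, g.idx j z, hS j _ _ (g.idx_rep j _).symm h5, (z, r), ⟨⟨rfl, h4⟩, h2, h3⟩, h1⟩
    · rintro ⟨j, n, hn, p, ⟨⟨h1, h2⟩, h3, h4⟩, h5⟩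
      exact ⟨j, p.1, p.2, h5, h3, h4, h2, hS j _ _ ((g.idx_rep j n).trans h1.symm) hn⟩
  rw [e]
  refine (measurableSet_act _).inter
    (MeasurableSet.iUnion fun j => MeasurableSet.iUnion fun n => MeasurableSet.iUnion fun _ => ?_)
  exact (isClosed_opt hh hδ hδη ((g.isCompact_deep j n).prod isCompact_Icc)).measurableSet

end Vale.Agent.P137
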