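import Vale.Agent.P137.Area
import Vale.Agent.P137.Nmax

/-! P137 Charge: integrate the line estimate `area_line` over all lines in direction `u`.

Plan. `line_trick`: Tonelli (`lintegral_lintegral_swap`) and translation invariance
(`lintegral_add_right_eq_self`). For `charge` we may assume `0 < Tm` (else `A = ∅`, as `g0 R j > 0`).
Let `Φ = A.indicator fun x => ‖fderiv N x u‖ₑ` (measurable: `measurable_fderiv_apply_const`) and
`e j y = C * ofReal (R j / R j^d) * ∫⁻_{ball y (6 R j)} w j` (measurable in `y`: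
`Measurable.lintegral_prod_right` for the indicator of the open set `{(y,u) | dist u y < 6 R j}`).
For each base point `x` apply `area_line` to `f s = N (x + s u)`, `f' s = fderiv N (x + s u) u`,
`A_x = {s ∈ Ioo 0 Tm | x + s u ∈ A}`, `p j t = av h (x + t u) (c0 d * R j)` (`continuous_av`),
`γ j = g0 d * R j`, `a = 0`, `b = T = Tm`. Integrate over `x`:
`Tm ∫ Φ ≤ ∑' j, 2 (γ j)⁻¹ (2 Tm) ∫ e j`, and `∫ e j = C ofReal (R/R^d) ofReal (om (6R)^d) ∫ w j`
(`lintegral_ball_lintegral`). Finally `be ‖fderiv‖ ≤ fderiv u`, so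
`C' = 4 C om 6^d / (g0 be)` works.
-/

namespace Vale.Agent.P137

open MeasureTheory Metric Set Filter Topology
open scoped ENNReal NNReal RealInnerProductSpace

variable {d : ℕ}

theorem line_trick {Φ : E d → ℝ≥0∞} (hΦ : Measurable Φ) (u : E d) (a b : ℝ) :
    ∫⁻ x, ∫⁻ s in Ioo a b, Φ (x + s • u) = ENNReal.ofReal (b - a) * ∫⁻ x, Φ x := by
  rw [lintegral_lintegral_swap (f := fun (x : E d) (s : ℝ) => Φ (x + s • u))
    (hΦ.comp (by fun_prop)).aemeasurable]
  simp only [lintegral_add_right_eq_self]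
  rw [setLIntegral_const, Real.volume_Ioo, mul_comm]

theorem charge_meas {w : E d → ℝ≥0∞} (hw : Measurable w) (ρ : ℝ) :
    Measurable ({p : E d × E d | dist p.2 p.1 < ρ}.indicator fun p => w p.2) :=
  (hw.comp measurable_snd).indicator (isOpen_lt (by fun_prop) continuous_const).measurableSet

theorem measurable_lintegral_ball {w : E d → ℝ≥0∞} (hw : Measurable w) (ρ : ℝ) :
    Measurable fun y : E d => ∫⁻ u in ball y ρ, w u := by
  have h := (charge_meas hw ρ).lintegral_prod_right' (ν := volume)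
  convert h using 2 with y
  rw [← lintegral_indicator measurableSet_ball]
  rfl

theorem lintegral_ball_lintegral {w : E d → ℝ≥0∞} (hw : Measurable w) {ρ : ℝ} (hρ : 0 < ρ) :
    ∫⁻ y : E d, ∫⁻ u in ball y ρ, w u = ENNReal.ofReal (om d * ρ ^ d) * ∫⁻ u, w u := by
  have h1 : ∀ y : E d, ∫⁻ u in ball y ρ, w u =
      ∫⁻ u, {p : E d × E d | dist p.2 p.1 < ρ}.indicator (fun p => w p.2) (y, u) := by
    intro y
    rw [← lintegral_indicator measurableSet_ball]
    rfl
  simp only [h1]
  rw [lintegral_lintegral_swap (f := fun y u : E d =>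
    {p : E d × E d | dist p.2 p.1 < ρ}.indicator (fun p => w p.2) (y, u))
    (charge_meas hw ρ).aemeasurable, ← lintegral_const_mul _ hw]
  refine lintegral_congr fun u => ?_
  have h2 : (fun y : E d => {p : E d × E d | dist p.2 p.1 < ρ}.indicator (fun p => w p.2) (y, u)) =
      (ball u ρ).indicator fun _ => w u := by
    funext y
    simp only [indicator, mem_ofPred_eq, mem_ball, dist_comm]
  rw [h2, lintegral_indicator measurableSet_ball, setLIntegral_const, volume_ball_eq u hρ, mul_comm]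

theorem charge (hd : 0 < d) (C : ℝ≥0) : ∃ C' : ℝ≥0, ∀ (h N : E d → ℝ) (A : Set (E d)) (u : E d)
    (Tm : ℝ) (R : ℕ → ℝ) (w : ℕ → E d → ℝ≥0∞), Integrable h → MeasurableSet A →
    (∀ j, 0 < R j) → (∀ j, Measurable (w j)) →
    (∀ x ∈ A, Act N x ∧ be d * ‖fderiv ℝ N x‖ ≤ fderiv ℝ N x u ∧ Chg h N C R w Tm u x) →
    ∫⁻ x in A, ‖fderiv ℝ N x‖ₑ ≤ C' * ∑' j : ℕ, ∫⁻ y, w j y := by
  have hbe := be_pos hd
  have hg := g0_pos hd
  have hom : 0 < om d := om_pos
  refine ⟨((be d)⁻¹).toNNReal * (C * (4 * om d * 6 ^ d / g0 d).toNNReal), ?_⟩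
  intro h N A u Tm R w hh hA hR hw H
  rcases A.eq_empty_or_nonempty with rfl | ⟨x0, hx0⟩
  · simp
  have hT : 0 < Tm := by
    obtain ⟨j, s0, h1, h2, -⟩ := (H x0 hx0).2.2
    have := mul_pos hg (hR j)
    linarith
  set Φ : E d → ℝ≥0∞ := A.indicator fun x => ‖fderiv ℝ N x u‖ₑ with hΦ
  have hΦm : Measurable Φ := (measurable_fderiv_apply_const ℝ N u).enorm.indicator hA
  set e : ℕ → E d → ℝ≥0∞ := fun j y =>
    C * ENNReal.ofReal (R j / R j ^ d) * ∫⁻ v in ball y (6 * R j), w j v with he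
  have hem : ∀ j, Measurable (e j) := fun j =>
    (measurable_lintegral_ball (hw j) _).const_mul _
  have hline : ∀ x : E d, ∫⁻ s in Ioo 0 Tm, Φ (x + s • u) ≤
      ∑' j : ℕ, 2 * (ENNReal.ofReal (g0 d * R j))⁻¹ * ∫⁻ t in Ioo 0 (Tm + Tm), e j (x + t • u) := by
    intro x
    have hc : Continuous fun s : ℝ => x + s • u := by fun_prop
    have hB : MeasurableSet ((fun s : ℝ => x + s • u) ⁻¹' A) := hc.measurable hA
    have h1 : ∫⁻ s in Ioo 0 Tm, Φ (x + s • u) =
        ∫⁻ s in (fun s : ℝ => x + s • u) ⁻¹' A ∩ Ioo 0 Tm, ‖fderiv ℝ N (x + s • u) u‖ₑ := by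
      rw [← Measure.restrict_restrict hB, ← lintegral_indicator hB]
      rfl
    rw [h1]
    refine area_line (fun s => N (x + s • u)) (fun s => fderiv ℝ N (x + s • u) u) _ 0 Tm Tm
      (fun j => g0 d * R j) (fun j t => av h (x + t • u) (c0 d * R j)) (fun j t => e j (x + t • u))
      (hB.inter measurableSet_Ioo) inter_subset_right (fun j => mul_pos hg (hR j))
      (fun j => ((continuous_av hh (mul_pos (c0_pos hd) (hR j))).comp hc).measurable)
      (fun j => (hem j).comp hc.measurable) (fun s hs => ?_) (fun s hs => ?_) fun s hs => ?_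
    · have h2 : HasDerivAt (fun s : ℝ => x + s • u) u s := by
        simpa using ((hasDerivAt_id s).smul_const u).const_add x
      exact (H _ hs.1).1.1.hasFDerivAt.comp_hasDerivAt s h2
    · obtain ⟨h2, h3, -⟩ := H _ hs.1
      exact ((mul_pos hbe (norm_pos_iff.2 h2.2)).trans_le h3).ne'
    · obtain ⟨j, s0, h2, h3, h4, h5⟩ := (H _ hs.1).2.2
      have h6 : ∀ t : ℝ, x + s • u + (t - s) • u = x + t • u := fun t => by
        rw [add_assoc, ← add_smul]; congr 2; ring
      refine ⟨j, s + s0, by linarith, by linarith, fun t ht => ?_, fun s' hs' h7 h8 => ?_⟩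
      · have := h4 (t - s) ⟨by linarith [ht.1], by linarith [ht.2]⟩
        rwa [h6] at this
      · have := h5 (s' - s) (by linarith) (by rw [h6]; exact (H _ hs'.1).1) (by rw [h6]; exact h8)
        linarith
  have hsum : ENNReal.ofReal Tm * ∫⁻ x, Φ x ≤ ENNReal.ofReal Tm *
      (C * ENNReal.ofReal (4 * om d * 6 ^ d / g0 d) * ∑' j : ℕ, ∫⁻ y, w j y) := by
    have h1 := line_trick hΦm u 0 Tm
    rw [sub_zero] at h1
    rw [← h1]
    refine (lintegral_mono hline).trans (le_of_eq ?_)
    have h2 : ∀ j, Measurable fun x : E d => ∫⁻ t in Ioo 0 (Tm + Tm), e j (x + t • u) := fun j =>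
      Measurable.lintegral_prod_right (f := fun (x : E d) (t : ℝ) => e j (x + t • u))
        ((hem j).comp (by fun_prop))
    rw [lintegral_tsum fun j => ((h2 j).const_mul _).aemeasurable, ← ENNReal.tsum_mul_left,
      ← ENNReal.tsum_mul_left]
    refine tsum_congr fun j => ?_
    have hj := hR j
    rw [lintegral_const_mul _ (h2 j), line_trick (hem j), he,
      lintegral_const_mul _ (measurable_lintegral_ball (hw j) _),
      lintegral_ball_lintegral (hw j) (by positivity), ← ENNReal.ofReal_inv_of_pos (by positivity)]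
    have h3 : (2 : ℝ≥0∞) * ENNReal.ofReal (g0 d * R j)⁻¹ * ENNReal.ofReal (Tm + Tm - 0) *
        ENNReal.ofReal (R j / R j ^ d) * ENNReal.ofReal (om d * (6 * R j) ^ d) =
        ENNReal.ofReal Tm * ENNReal.ofReal (4 * om d * 6 ^ d / g0 d) := by
      rw [← ENNReal.ofReal_ofNat 2, ← ENNReal.ofReal_mul (by positivity),
        ← ENNReal.ofReal_mul (by positivity), ← ENNReal.ofReal_mul (by
          rw [sub_zero]; positivity), ← ENNReal.ofReal_mul (by rw [sub_zero]; positivity),
        ← ENNReal.ofReal_mul (by positivity)]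
      congr 1
      rw [mul_pow]
      field_simp
      ring
    calc _ = C * ((2 : ℝ≥0∞) * ENNReal.ofReal (g0 d * R j)⁻¹ * ENNReal.ofReal (Tm + Tm - 0) *
        ENNReal.ofReal (R j / R j ^ d) * ENNReal.ofReal (om d * (6 * R j) ^ d)) *
          ∫⁻ y, w j y := by ring
      _ = _ := by rw [h3]; ring
  have h1 := (ENNReal.mul_le_mul_iff_right (ENNReal.ofReal_pos.2 hT).ne' ENNReal.ofReal_ne_top).1 hsum
  have h2 : ∫⁻ x in A, ‖fderiv ℝ N x‖ₑ ≤ ENNReal.ofReal (be d)⁻¹ * ∫⁻ x, Φ x := by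
    rw [hΦ, lintegral_indicator hA,
      ← lintegral_const_mul _ (measurable_fderiv_apply_const ℝ N u).enorm]
    refine setLIntegral_mono' hA fun x hx => ?_
    rw [← ofReal_norm, ← ofReal_norm, ← ENNReal.ofReal_mul (by positivity)]
    refine ENNReal.ofReal_le_ofReal ?_
    rw [le_inv_mul_iff₀ hbe]
    exact (H x hx).2.1.trans (le_abs_self _)
  refine h2.trans ((mul_le_mul_right h1 _).trans (le_of_eq ?_))
  push_cast
  rw [← mul_assoc]
  rfl

end Vale.Agent.P137
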