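import Vale.Agent.P137.Vec

/-! P137 Field: estimates for the deformation field `fld`.

Notation: `I p = {σ ∈ [0,1] | p ∈ ball (pz σ) (pr σ)}`, `G σ p` the smooth factor, so
`fld p = ∫_{I p} G σ p dσ`. With `m = min r r' ≤ pr σ` on `[0,1]`: on the ball
`‖G σ p‖ ≤ (‖z'-z‖ + |r'-r|) / (om m^d)`, and `‖G σ p - G σ p'‖ ≤ |r'-r| ‖p-p'‖ / (om m^(d+1))`.
Hence `‖fld p‖ ≤ M0 vol (I p)` and
`‖fld p - fld p'‖ ≤ M0 (vol (I p \ I p') + vol (I p' \ I p)) + L0 ‖p - p'‖`.

* `measurable_fld`: `StronglyMeasurable.integral_prod_right` (the integrand is jointly measurable: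
  the set `{(p, σ) | ‖p - pz σ‖ < pr σ}` is open, the factor is measurable).
* nested case (`‖y - z‖ + gap ≤ r - r'`): `φ_p σ = ‖p - pz σ‖ - pr σ` satisfies
  `φ_p σ2 - φ_p σ1 ≥ gap (σ2 - σ1)` for `σ1 ≤ σ2`. So `I p ⊆ [0, (r - ‖p - z‖)/gap]` and
  `I p \ I p' ⊆ {σ | -ε ≤ φ_p σ < 0}` (`ε = ‖p - p'‖`) has diameter `≤ ε/gap` (`Real.volume_le_diam`).
  So `fld` is bounded by `C R/R^d` and Lipschitz with constant `C/R^d`; for the square root bound
  use `ε ≤ √(R ε)` if `ε ≤ R` and `R ≤ √(R ε)` otherwise.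
* translation case: `fld z r (z+w) r p = ((om r^d)⁻¹ th p) • w`.
  `th_holder`: `I p \ I p' ⊆ {σ | r - ε ≤ ‖a - σ w‖ < r}` with `a = p - z`;
  `‖a - σ w‖^2 = c + ‖w‖^2 (σ - σ0)^2`. Two points `σ1 ≤ σ2` of the set on the same side of `σ0` have
  `‖w‖^2 (σ2 - σ1)^2 ≤ |‖a - σ2 w‖^2 - ‖a - σ1 w‖^2| ≤ 2 r ε` (if `ε > r` use `r^2 ≤ r ε`). So the
  set is a union of two sets of diameter `≤ √(2 r ε)/‖w‖`, and `|th p - th p'|` is at most the
  larger of the volumes of `I p \ I p'`, `I p' \ I p`.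
-/

namespace Vale.Agent.P137

open MeasureTheory Metric Set Filter Topology
open scoped ENNReal NNReal RealInnerProductSpace

variable {d : ℕ}

/-- The smooth factor of the field. -/
noncomputable def fldG (z : E d) (r : ℝ) (z' : E d) (r' : ℝ) (σ : ℝ) (q : E d) : E d :=
  (om d * pr r r' σ ^ d)⁻¹ • ((z' - z) + ((r' - r) / pr r r' σ) • (q - pz z z' σ))

/-- The times at which `p` is inside the moving ball. -/
def fldI (z : E d) (r : ℝ) (z' : E d) (r' : ℝ) (p : E d) : Set ℝ :=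
  {σ | ‖p - pz z z' σ‖ < pr r r' σ}

/-- The integrand. -/
noncomputable def fldF (z : E d) (r : ℝ) (z' : E d) (r' : ℝ) (p : E d) (σ : ℝ) : E d :=
  (ball (pz z z' σ) (pr r r' σ)).indicator (fldG z r z' r' σ) p

theorem fld_def (z : E d) (r : ℝ) (z' : E d) (r' : ℝ) (p : E d) :
    fld z r z' r' p = ∫ σ in Icc (0 : ℝ) 1, fldF z r z' r' p σ := rfl

theorem fldF_of_mem {z : E d} {r : ℝ} {z' : E d} {r' : ℝ} {p : E d} {σ : ℝ}
    (h : σ ∈ fldI z r z' r' p) : fldF z r z' r' p σ = fldG z r z' r' σ p := by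
  unfold fldF
  rw [indicator_of_mem]
  rw [mem_ball, dist_eq_norm]
  exact h

theorem fldF_of_notMem {z : E d} {r : ℝ} {z' : E d} {r' : ℝ} {p : E d} {σ : ℝ}
    (h : σ ∉ fldI z r z' r' p) : fldF z r z' r' p σ = 0 := by
  unfold fldF
  rw [indicator_of_notMem]
  rw [mem_ball, dist_eq_norm]
  exact h

theorem field_cont_pz (z z' : E d) : Continuous (pz z z') := by
  unfold pz
  fun_prop

theorem field_cont_pr (r r' : ℝ) : Continuous (pr r r') := by
  unfold pr
  fun_prop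

theorem measurable_fldF (z : E d) (r : ℝ) (z' : E d) (r' : ℝ) :
    Measurable (Function.uncurry (fldF z r z' r')) := by
  have h1 : MeasurableSet {x : E d × ℝ | ‖x.1 - pz z z' x.2‖ < pr r r' x.2} := by
    have a := field_cont_pz z z'
    have b := field_cont_pr r r'
    exact (isOpen_lt (by fun_prop) (by fun_prop)).measurableSet
  have h2 : Measurable fun x : E d × ℝ => fldG z r z' r' x.2 x.1 := by
    have a := (field_cont_pz z z').measurable
    have b := (field_cont_pr r r').measurable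
    unfold fldG
    fun_prop
  have h3 : Function.uncurry (fldF z r z' r') =
      {x : E d × ℝ | ‖x.1 - pz z z' x.2‖ < pr r r' x.2}.indicator
        fun x : E d × ℝ => fldG z r z' r' x.2 x.1 := by
    funext x
    by_cases hx : x.2 ∈ fldI z r z' r' x.1
    · rw [indicator_of_mem (show x ∈ {x : E d × ℝ | ‖x.1 - pz z z' x.2‖ < pr r r' x.2} from hx)]
      exact fldF_of_mem hx
    · rw [indicator_of_notMem (show x ∉ {x : E d × ℝ | ‖x.1 - pz z z' x.2‖ < pr r r' x.2} from hx)]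
      exact fldF_of_notMem hx
  rw [h3]
  exact h2.indicator h1

theorem measurableSet_fldI (z : E d) (r : ℝ) (z' : E d) (r' : ℝ) (p : E d) :
    MeasurableSet (fldI z r z' r' p) := by
  have a := field_cont_pz z z'
  have b := field_cont_pr r r'
  exact (isOpen_lt (by fun_prop) (by fun_prop)).measurableSet

theorem measurable_fld (z : E d) (r : ℝ) (z' : E d) (r' : ℝ) : Measurable (fld z r z' r') := by
  have h := (measurable_fldF z r z' r').stronglyMeasurable.integral_prod_right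
    (ν := volume.restrict (Icc (0 : ℝ) 1))
  exact h.measurable

theorem field_min_le_pr {r r' σ : ℝ} (h : σ ∈ Icc (0 : ℝ) 1) : min r r' ≤ pr r r' σ := by
  unfold pr
  have h1 := min_le_left r r'
  have h2 := min_le_right r r'
  nlinarith [h.1, h.2, mul_nonneg h.1 (sub_nonneg.2 h2),
    mul_nonneg (sub_nonneg.2 h.2) (sub_nonneg.2 h1)]

theorem fldG_bound {z z' : E d} {r r' : ℝ} (hr : 0 < r) (hr' : 0 < r') {p : E d} {σ : ℝ}
    (hσ : σ ∈ Icc (0 : ℝ) 1) (h : σ ∈ fldI z r z' r' p) :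
    ‖fldG z r z' r' σ p‖ ≤ (‖z' - z‖ + |r' - r|) / (om d * min r r' ^ d) := by
  have hm : 0 < min r r' := lt_min hr hr'
  have h1 : min r r' ≤ pr r r' σ := field_min_le_pr hσ
  have hp : 0 < pr r r' σ := lt_of_lt_of_le hm h1
  have ho : 0 < om d := om_pos
  have h2 : ‖p - pz z z' σ‖ < pr r r' σ := h
  have h3 : ‖(z' - z) + ((r' - r) / pr r r' σ) • (p - pz z z' σ)‖ ≤ ‖z' - z‖ + |r' - r| := by
    refine (norm_add_le _ _).trans (add_le_add le_rfl ?_)
    rw [norm_smul, Real.norm_eq_abs, abs_div, abs_of_pos hp, div_mul_eq_mul_div, div_le_iff₀ hp]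
    exact mul_le_mul_of_nonneg_left h2.le (abs_nonneg _)
  unfold fldG
  rw [norm_smul, Real.norm_eq_abs, abs_of_pos (by positivity),
    div_eq_inv_mul (‖z' - z‖ + |r' - r|)]
  refine mul_le_mul ?_ h3 (norm_nonneg _) (by positivity)
  refine inv_anti₀ (by positivity) ?_
  exact mul_le_mul_of_nonneg_left (pow_le_pow_left₀ hm.le h1 d) ho.le

theorem fldG_lip {z z' : E d} {r r' : ℝ} (hr : 0 < r) (hr' : 0 < r') (p p' : E d) {σ : ℝ}
    (hσ : σ ∈ Icc (0 : ℝ) 1) :
    ‖fldG z r z' r' σ p - fldG z r z' r' σ p'‖ ≤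
      |r' - r| / (om d * min r r' ^ (d + 1)) * ‖p - p'‖ := by
  have hm : 0 < min r r' := lt_min hr hr'
  have h1 : min r r' ≤ pr r r' σ := field_min_le_pr hσ
  have hp : 0 < pr r r' σ := lt_of_lt_of_le hm h1
  have ho : 0 < om d := om_pos
  have e : fldG z r z' r' σ p - fldG z r z' r' σ p' =
      ((r' - r) / (om d * pr r r' σ ^ (d + 1))) • (p - p') := by
    unfold fldG
    rw [← smul_sub, add_sub_add_left_eq_sub, ← smul_sub, sub_sub_sub_cancel_right, smul_smul]
    congr 1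
    field_simp
    ring
  rw [e, norm_smul, Real.norm_eq_abs, abs_div, abs_of_pos (by positivity : 0 < om d * pr r r' σ ^ (d + 1))]
  refine mul_le_mul_of_nonneg_right ?_ (norm_nonneg _)
  refine div_le_div_of_nonneg_left (abs_nonneg _) (by positivity) ?_
  exact mul_le_mul_of_nonneg_left (pow_le_pow_left₀ hm.le h1 _) ho.le

theorem fldF_bound {z z' : E d} {r r' : ℝ} (hr : 0 < r) (hr' : 0 < r') (p : E d) {σ : ℝ}
    (hσ : σ ∈ Icc (0 : ℝ) 1) :
    ‖fldF z r z' r' p σ‖ ≤ (fldI z r z' r' p).indicator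
      (fun _ => (‖z' - z‖ + |r' - r|) / (om d * min r r' ^ d)) σ := by
  by_cases h : σ ∈ fldI z r z' r' p
  · rw [fldF_of_mem h, indicator_of_mem h]
    exact fldG_bound hr hr' hσ h
  · rw [fldF_of_notMem h, indicator_of_notMem h, norm_zero]

theorem field_M_nonneg {z z' : E d} {r r' : ℝ} (hr : 0 < r) (hr' : 0 < r') :
    0 ≤ (‖z' - z‖ + |r' - r|) / (om d * min r r' ^ d) := by
  have hm : 0 < min r r' := lt_min hr hr'
  have ho : 0 < om d := om_pos
  positivity

theorem fldF_bound' {z z' : E d} {r r' : ℝ} (hr : 0 < r) (hr' : 0 < r') (p : E d) {σ : ℝ}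
    (hσ : σ ∈ Icc (0 : ℝ) 1) :
    ‖fldF z r z' r' p σ‖ ≤ (‖z' - z‖ + |r' - r|) / (om d * min r r' ^ d) :=
  (fldF_bound hr hr' p hσ).trans
    (indicator_le_self' (fun _ _ => field_M_nonneg hr hr') σ)

theorem integrableOn_fldF {z z' : E d} {r r' : ℝ} (hr : 0 < r) (hr' : 0 < r') (p : E d) :
    IntegrableOn (fldF z r z' r' p) (Icc (0 : ℝ) 1) := by
  refine Measure.integrableOn_of_bounded (M := (‖z' - z‖ + |r' - r|) / (om d * min r r' ^ d))
    (by simp) ?_ ?_
  · exact ((measurable_fldF z r z' r').of_uncurry_left).aestronglyMeasurable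
  · rw [ae_restrict_iff' measurableSet_Icc]
    exact Eventually.of_forall fun σ hσ => fldF_bound' hr hr' p hσ

theorem field_int_ind {S : Set ℝ} (hS : MeasurableSet S) (c : ℝ) :
    ∫ σ in Icc (0 : ℝ) 1, S.indicator (fun _ => c) σ = (volume (S ∩ Icc 0 1)).toReal * c := by
  rw [integral_indicator_const c hS, Measure.real, Measure.restrict_apply hS, smul_eq_mul]

theorem field_intg_ind {S : Set ℝ} (hS : MeasurableSet S) (c : ℝ) :
    Integrable (S.indicator fun _ => c) (volume.restrict (Icc (0 : ℝ) 1)) :=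
  (integrable_const c).indicator hS

theorem fld_norm_le {z z' : E d} {r r' : ℝ} (hr : 0 < r) (hr' : 0 < r') (p : E d) :
    ‖fld z r z' r' p‖ ≤ (volume (fldI z r z' r' p ∩ Icc 0 1)).toReal *
      ((‖z' - z‖ + |r' - r|) / (om d * min r r' ^ d)) := by
  rw [fld_def, ← field_int_ind (measurableSet_fldI z r z' r' p)]
  refine norm_integral_le_of_norm_le (field_intg_ind (measurableSet_fldI z r z' r' p) _) ?_
  rw [ae_restrict_iff' measurableSet_Icc]
  exact Eventually.of_forall fun σ hσ => fldF_bound hr hr' p hσ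

theorem fld_sub_le {z z' : E d} {r r' : ℝ} (hr : 0 < r) (hr' : 0 < r') (p p' : E d) :
    ‖fld z r z' r' p - fld z r z' r' p'‖ ≤
      ((volume ((fldI z r z' r' p \ fldI z r z' r' p') ∩ Icc 0 1)).toReal +
        (volume ((fldI z r z' r' p' \ fldI z r z' r' p) ∩ Icc 0 1)).toReal) *
        ((‖z' - z‖ + |r' - r|) / (om d * min r r' ^ d)) +
      |r' - r| / (om d * min r r' ^ (d + 1)) * ‖p - p'‖ := by
  have m1 := (measurableSet_fldI z r z' r' p).diff (measurableSet_fldI z r z' r' p')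
  have m2 := (measurableSet_fldI z r z' r' p').diff (measurableSet_fldI z r z' r' p)
  have hM := field_M_nonneg (z := z) (z' := z') hr hr'
  have hm : 0 < min r r' := lt_min hr hr'
  have ho : 0 < om d := om_pos
  set M := (‖z' - z‖ + |r' - r|) / (om d * min r r' ^ d) with hMdef
  set L := |r' - r| / (om d * min r r' ^ (d + 1)) * ‖p - p'‖ with hLdef
  have hL : 0 ≤ L := by positivity
  rw [fld_def, fld_def, ← integral_sub (integrableOn_fldF hr hr' p) (integrableOn_fldF hr hr' p')]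
  have hi : Integrable (fun σ => (fldI z r z' r' p \ fldI z r z' r' p').indicator (fun _ => M) σ +
      (fldI z r z' r' p' \ fldI z r z' r' p).indicator (fun _ => M) σ + L)
      (volume.restrict (Icc (0 : ℝ) 1)) :=
    ((field_intg_ind m1 M).add (field_intg_ind m2 M)).add (integrable_const L)
  refine (norm_integral_le_of_norm_le hi ?_).trans (le_of_eq ?_)
  · rw [ae_restrict_iff' measurableSet_Icc]
    refine Eventually.of_forall fun σ hσ => ?_
    by_cases h : σ ∈ fldI z r z' r' p <;> by_cases h' : σ ∈ fldI z r z' r' p'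
    · rw [fldF_of_mem h, fldF_of_mem h', indicator_of_notMem (fun hh => hh.2 h'),
        indicator_of_notMem (fun hh => hh.2 h), zero_add, zero_add]
      exact fldG_lip hr hr' p p' hσ
    · rw [fldF_of_mem h, fldF_of_notMem h', indicator_of_mem (show σ ∈ _ \ _ from ⟨h, h'⟩),
        indicator_of_notMem (fun hh => hh.2 h), sub_zero]
      have := fldG_bound hr hr' hσ h
      linarith
    · rw [fldF_of_notMem h, fldF_of_mem h', indicator_of_notMem (fun hh => h hh.1),
        indicator_of_mem (show σ ∈ _ \ _ from ⟨h', h⟩), zero_sub, norm_neg]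
      have := fldG_bound hr hr' hσ h'
      linarith
    · rw [fldF_of_notMem h, fldF_of_notMem h', indicator_of_notMem (fun hh => h hh.1),
        indicator_of_notMem (fun hh => h' hh.1), sub_zero, norm_zero]
      linarith
  · have hi2 : Integrable (fun σ => (fldI z r z' r' p \ fldI z r z' r' p').indicator (fun _ => M) σ +
        (fldI z r z' r' p' \ fldI z r z' r' p).indicator (fun _ => M) σ)
        (volume.restrict (Icc (0 : ℝ) 1)) := (field_intg_ind m1 M).add (field_intg_ind m2 M)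
    rw [integral_add hi2 (integrable_const L),
      integral_add (field_intg_ind m1 M) (field_intg_ind m2 M), field_int_ind m1, field_int_ind m2]
    simp
    ring

theorem field_vol_le_one (S : Set ℝ) : (volume (S ∩ Icc 0 1)).toReal ≤ 1 := by
  have : volume (S ∩ Icc (0 : ℝ) 1) ≤ 1 := by
    refine (measure_mono inter_subset_right).trans ?_
    simp
  exact ENNReal.toReal_le_of_le_ofReal zero_le_one (by simpa using this)

theorem field_vol_le {S : Set ℝ} {D : ℝ} (h : ∀ x ∈ S, ∀ y ∈ S, x ≤ y → y - x ≤ D) :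
    volume S ≤ ENNReal.ofReal D := by
  refine (Real.volume_le_diam S).trans (Metric.ediam_le fun x hx y hy => ?_)
  rw [edist_dist, Real.dist_eq]
  refine ENNReal.ofReal_le_ofReal ?_
  rcases le_total x y with hxy | hxy
  · rw [abs_sub_comm, abs_of_nonneg (sub_nonneg.2 hxy)]
    exact h x hx y hy hxy
  · rw [abs_of_nonneg (sub_nonneg.2 hxy)]
    exact h y hy x hx hxy

theorem fld_bound {z z' : E d} {r r' : ℝ} (hr : 0 < r) (hr' : 0 < r') (p : E d) :
    ‖fld z r z' r' p‖ ≤ (‖z' - z‖ + |r' - r|) / (om d * min r r' ^ d) := by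
  refine (fld_norm_le hr hr' p).trans ?_
  exact mul_le_of_le_one_left (field_M_nonneg hr hr') (field_vol_le_one _)

theorem fld_eq_zero {z z' c : E d} {r r' ρ : ℝ} (h1 : ‖z - c‖ + r ≤ ρ) (h2 : ‖z' - c‖ + r' ≤ ρ)
    {p : E d} (hp : p ∉ ball c ρ) : fld z r z' r' p = 0 := by
  rw [fld_def]
  refine setIntegral_eq_zero_of_forall_eq_zero fun σ hσ => fldF_of_notMem fun h => hp ?_
  have h3 : ‖p - pz z z' σ‖ < pr r r' σ := h
  rw [mem_ball, dist_eq_norm]
  have e : p - c = (p - pz z z' σ) + ((1 - σ) • (z - c) + σ • (z' - c)) := by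
    unfold pz
    module
  have h4 : ‖(1 - σ) • (z - c) + σ • (z' - c)‖ ≤ (1 - σ) * ‖z - c‖ + σ * ‖z' - c‖ := by
    refine (norm_add_le _ _).trans (le_of_eq ?_)
    rw [norm_smul, norm_smul, Real.norm_eq_abs, Real.norm_eq_abs, abs_of_nonneg hσ.1,
      abs_of_nonneg (sub_nonneg.2 hσ.2)]
  have h5 := norm_add_le (p - pz z z' σ) ((1 - σ) • (z - c) + σ • (z' - c))
  rw [← e] at h5
  unfold pr at h3
  nlinarith [hσ.1, hσ.2, mul_le_mul_of_nonneg_left h1 (sub_nonneg.2 hσ.2),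
    mul_le_mul_of_nonneg_left h2 hσ.1]

theorem Pair.mono {h : E d → ℝ} {μ : E d → E d} {O O' : Set (E d)} (hP : Pair h μ O)
    (hO : O' ⊆ O) : Pair h μ O' :=
  ⟨hP.ih, hP.im, fun c ρ z r z' r' hb => hP.eq c ρ z r z' r' (hb.trans hO)⟩

theorem Pair.restrict {h : E d → ℝ} {μ : E d → E d} {O : Set (E d)} (hP : Pair h μ univ)
    (hO : MeasurableSet O) : Pair h (O.indicator μ) O := by
  refine ⟨hP.ih, hP.im.indicator hO, fun c ρ z r z' r' hb hr hr' h1 h2 => ?_⟩
  rw [hP.eq c ρ z r z' r' (subset_univ _) hr hr' h1 h2]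
  refine integral_congr_ae (Eventually.of_forall fun p => ?_)
  by_cases hp : p ∈ O
  · simp only [indicator_of_mem hp]
  · simp only [fld_eq_zero h1 h2 (fun hh => hp (hb hh)), inner_zero_left]

theorem Pair.eq_univ {h : E d → ℝ} {μ : E d → E d} (hP : Pair h μ univ) (z z' : E d) {r r' : ℝ}
    (hr : 0 < r) (hr' : 0 < r') : av h z' r' - av h z r = ∫ p, ⟪fld z r z' r' p, μ p⟫ := by
  refine hP.eq z (r + ‖z' - z‖ + r') z r z' r' (subset_univ _) hr hr' ?_ ?_
  · rw [sub_self, norm_zero]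
    linarith [norm_nonneg (z' - z)]
  · linarith

theorem field_phi_mono {z y : E d} {r r' γ : ℝ} (hg : ‖y - z‖ + γ ≤ r - r') (p : E d) {s t : ℝ}
    (hst : s ≤ t) :
    ‖p - pz z y s‖ - pr r r' s + γ * (t - s) ≤ ‖p - pz z y t‖ - pr r r' t := by
  have e : p - pz z y s = (p - pz z y t) + (t - s) • (y - z) := by
    unfold pz
    module
  have h1 := norm_add_le (p - pz z y t) ((t - s) • (y - z))
  rw [← e, norm_smul, Real.norm_eq_abs, abs_of_nonneg (sub_nonneg.2 hst)] at h1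
  unfold pr
  nlinarith [mul_le_mul_of_nonneg_left hg (sub_nonneg.2 hst)]

theorem field_nest_vol1 {z y : E d} {r r' γ : ℝ} (hγ : 0 < γ) (hg : ‖y - z‖ + γ ≤ r - r')
    (p : E d) : (volume (fldI z r y r' p ∩ Icc 0 1)).toReal ≤ max 0 (r - ‖p - z‖) / γ := by
  refine ENNReal.toReal_le_of_le_ofReal (by positivity) (field_vol_le fun s hs t ht hst => ?_)
  have h1 := field_phi_mono hg p ht.2.1
  have h2 : ‖p - pz z y t‖ < pr r r' t := ht.1
  have e1 : pz z y 0 = z := by simp [pz]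
  have e2 : pr r r' 0 = r := by simp [pr]
  rw [e1, e2] at h1
  rw [le_div_iff₀ hγ]
  have := le_max_right 0 (r - ‖p - z‖)
  nlinarith [mul_nonneg hγ.le hs.2.1]

theorem field_nest_vol2 {z y : E d} {r r' γ : ℝ} (hγ : 0 < γ) (hg : ‖y - z‖ + γ ≤ r - r')
    (p p' : E d) :
    (volume ((fldI z r y r' p \ fldI z r y r' p') ∩ Icc 0 1)).toReal ≤ ‖p - p'‖ / γ := by
  refine ENNReal.toReal_le_of_le_ofReal (by positivity) (field_vol_le fun s hs t ht hst => ?_)
  have h1 := field_phi_mono hg p hst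
  have h2 : ‖p - pz z y t‖ < pr r r' t := ht.1.1
  have h3 : ¬ ‖p' - pz z y s‖ < pr r r' s := hs.1.2
  have h4 : ‖p' - pz z y s‖ ≤ ‖p - pz z y s‖ + ‖p - p'‖ := by
    have e : p' - pz z y s = (p - pz z y s) - (p - p') := by abel
    rw [e]
    exact norm_sub_le _ _
  rw [le_div_iff₀ hγ]
  have h5 := not_lt.1 h3
  linarith

theorem nested_field (hd : 0 < d) : ∃ C : ℝ, 0 ≤ C ∧ ∀ (R : ℝ) (z y : E d) (r r' : ℝ), 0 < R →
    c0 d * R ≤ r' → r ≤ 6 * R → ‖y - z‖ + c0 d * R ≤ r - r' →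
    (∀ p, ‖fld z r y r' p‖ ≤ C / R ^ d * max 0 (r - ‖p - z‖)) ∧
    ∀ p p', ‖fld z r y r' p - fld z r y r' p'‖ ≤ C / R ^ d * √(R * ‖p - p'‖) := by
  have ho : 0 < om d := om_pos
  have hc : 0 < c0 d := c0_pos hd
  set K : ℝ := (om d * c0 d ^ (d + 1))⁻¹ with hK
  have hK0 : 0 < K := by positivity
  refine ⟨144 * K, by positivity, fun R z y r r' hR h1 h2 h3 => ?_⟩
  have hγ : 0 < c0 d * R := by positivity
  have hr' : 0 < r' := lt_of_lt_of_le hγ h1
  have hyz := norm_nonneg (y - z)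
  have hrr : r' ≤ r := by linarith
  have hr : 0 < r := lt_of_lt_of_le hr' hrr
  have hmin : min r r' = r' := min_eq_right hrr
  have habs : |r' - r| ≤ 6 * R := by
    rw [abs_sub_comm, abs_of_nonneg (sub_nonneg.2 hrr)]
    linarith
  have hRd : 0 < R ^ d := by positivity
  have hM : (‖y - z‖ + |r' - r|) / (om d * min r r' ^ d) ≤ 12 * K / R ^ d * (c0 d * R) := by
    rw [hmin]
    calc (‖y - z‖ + |r' - r|) / (om d * r' ^ d) ≤ (12 * R) / (om d * (c0 d * R) ^ d) := by
          refine div_le_div₀ (by positivity) (by linarith) (by positivity) ?_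
          exact mul_le_mul_of_nonneg_left (pow_le_pow_left₀ hγ.le h1 d) ho.le
      _ = 12 * K / R ^ d * (c0 d * R) := by
          rw [hK, mul_pow]
          field_simp
          ring
  have hL : |r' - r| / (om d * min r r' ^ (d + 1)) ≤ 6 * K / R ^ d := by
    rw [hmin]
    calc |r' - r| / (om d * r' ^ (d + 1)) ≤ (6 * R) / (om d * (c0 d * R) ^ (d + 1)) := by
          refine div_le_div₀ (by positivity) habs (by positivity) ?_
          exact mul_le_mul_of_nonneg_left (pow_le_pow_left₀ hγ.le h1 _) ho.le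
      _ = 6 * K / R ^ d := by
          rw [hK, mul_pow]
          field_simp
          ring
  have hB : ∀ p, ‖fld z r y r' p‖ ≤ 12 * K / R ^ d * max 0 (r - ‖p - z‖) := by
    intro p
    refine (fld_norm_le hr hr' p).trans ?_
    refine (mul_le_mul (field_nest_vol1 hγ h3 p) hM (field_M_nonneg hr hr')
      (by positivity)).trans (le_of_eq ?_)
    field_simp
  have hKR : 0 ≤ K / R ^ d := by positivity
  refine ⟨fun p => (hB p).trans ?_, fun p p' => ?_⟩
  · refine mul_le_mul_of_nonneg_right ?_ (le_max_left _ _)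
    refine div_le_div_of_nonneg_right (by linarith) hRd.le
  · have he := norm_nonneg (p - p')
    rcases le_total ‖p - p'‖ R with hε | hε
    · have hs : ‖p - p'‖ ≤ √(R * ‖p - p'‖) := by
        refine Real.le_sqrt_of_sq_le ?_
        nlinarith
      have v1 := field_nest_vol2 hγ h3 p p'
      have v2 := field_nest_vol2 hγ h3 p' p
      rw [norm_sub_rev p' p] at v2
      refine (fld_sub_le hr hr' p p').trans ?_
      have a1 := mul_le_mul (add_le_add v1 v2) hM (field_M_nonneg hr hr') (by positivity)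
      have a2 := mul_le_mul_of_nonneg_right hL he
      have e : (‖p - p'‖ / (c0 d * R) + ‖p - p'‖ / (c0 d * R)) * (12 * K / R ^ d * (c0 d * R)) =
          24 * (K / R ^ d) * ‖p - p'‖ := by
        field_simp
        ring
      rw [e] at a1
      have a3 := mul_le_mul_of_nonneg_left hs hKR
      have a4 := mul_nonneg hKR he
      have e2 : 6 * K / R ^ d * ‖p - p'‖ = 6 * (K / R ^ d * ‖p - p'‖) := by ring
      have e3 : 144 * K / R ^ d * √(R * ‖p - p'‖) = 144 * (K / R ^ d * √(R * ‖p - p'‖)) := by ring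
      rw [e3]
      linarith
    · have hs : R ≤ √(R * ‖p - p'‖) := by
        refine Real.le_sqrt_of_sq_le ?_
        nlinarith
      have b : ∀ q, ‖fld z r y r' q‖ ≤ 72 * (K / R ^ d * R) := by
        intro q
        refine (hB q).trans ?_
        have : max 0 (r - ‖q - z‖) ≤ 6 * R := max_le (by linarith) (by linarith [norm_nonneg (q - z)])
        calc 12 * K / R ^ d * max 0 (r - ‖q - z‖) ≤ 12 * K / R ^ d * (6 * R) :=
              mul_le_mul_of_nonneg_left this (by positivity)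
          _ = 72 * (K / R ^ d * R) := by ring
      have a3 := mul_le_mul_of_nonneg_left hs hKR
      have e3 : 144 * K / R ^ d * √(R * ‖p - p'‖) = 144 * (K / R ^ d * √(R * ‖p - p'‖)) := by ring
      rw [e3]
      have := norm_sub_le (fld z r y r' p) (fld z r y r' p')
      linarith [b p, b p']

/-- The time spent by `p` in the translated ball. -/
noncomputable def th (z : E d) (r : ℝ) (w p : E d) : ℝ :=
  (volume {σ ∈ Icc (0 : ℝ) 1 | p ∈ ball (z + σ • w) r}).toReal

theorem field_th_eq (z : E d) (r : ℝ) (w p : E d) :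
    th z r w p = (volume ({σ : ℝ | ‖p - (z + σ • w)‖ < r} ∩ Icc 0 1)).toReal := by
  unfold th
  congr 2
  ext σ
  simp only [mem_setOf_eq, mem_inter_iff, mem_ball, dist_eq_norm]
  tauto

theorem field_meas_S (z : E d) (r : ℝ) (w p : E d) :
    MeasurableSet {σ : ℝ | ‖p - (z + σ • w)‖ < r} :=
  (isOpen_lt (by fun_prop) (by fun_prop)).measurableSet

theorem fld_trans (z w : E d) {r : ℝ} (hr : 0 < r) (p : E d) :
    fld z r (z + w) r p = ((om d * r ^ d)⁻¹ * th z r w p) • w := by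
  have e : ∀ σ, fldF z r (z + w) r p σ =
      {σ : ℝ | ‖p - (z + σ • w)‖ < r}.indicator (fun _ => (om d * r ^ d)⁻¹ • w) σ := by
    intro σ
    have e1 : pz z (z + w) σ = z + σ • w := by simp [pz]
    have e2 : pr r r σ = r := by simp [pr]
    have e3 : σ ∈ fldI z r (z + w) r p ↔ σ ∈ {σ : ℝ | ‖p - (z + σ • w)‖ < r} := by
      simp only [fldI, mem_setOf_eq, e1, e2]
    by_cases h : σ ∈ fldI z r (z + w) r p
    · rw [fldF_of_mem h, indicator_of_mem (e3.1 h)]
      simp [fldG, e2]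
    · rw [fldF_of_notMem h, indicator_of_notMem (fun hh => h (e3.2 hh))]
  rw [fld_def]
  simp only [e]
  rw [integral_indicator_const _ (field_meas_S z r w p), Measure.real,
    Measure.restrict_apply (field_meas_S z r w p), field_th_eq, smul_smul, mul_comm]

theorem th_nonneg (z : E d) (r : ℝ) (w p : E d) : 0 ≤ th z r w p := ENNReal.toReal_nonneg

theorem th_le_one (z : E d) (r : ℝ) (w p : E d) : th z r w p ≤ 1 := by
  rw [field_th_eq]
  exact field_vol_le_one _

theorem th_lower {z w : E d} {r : ℝ} (hr : 0 < r) (hw : ‖w‖ ≤ r) (p : E d) :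
    max 0 (r - ‖p - z‖) ≤ r * th z r w p := by
  refine max_le (mul_nonneg hr.le (th_nonneg _ _ _ _)) ?_
  have hp := norm_nonneg (p - z)
  have hsub : Ico (0 : ℝ) ((r - ‖p - z‖) / r) ⊆ {σ : ℝ | ‖p - (z + σ • w)‖ < r} ∩ Icc 0 1 := by
    intro σ hσ
    have h1 : σ * r < r - ‖p - z‖ := (lt_div_iff₀ hr).1 hσ.2
    refine ⟨?_, hσ.1, ?_⟩
    · have e : p - (z + σ • w) = (p - z) - σ • w := by abel
      have h2 := norm_sub_le (p - z) (σ • w)
      rw [norm_smul, Real.norm_eq_abs, abs_of_nonneg hσ.1] at h2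
      have h3 := mul_le_mul_of_nonneg_left hw hσ.1
      show ‖p - (z + σ • w)‖ < r
      rw [e]
      linarith
    · by_contra hh
      have := not_le.1 hh
      nlinarith
  have hfin : volume ({σ : ℝ | ‖p - (z + σ • w)‖ < r} ∩ Icc 0 1) ≠ ∞ :=
    ((measure_mono inter_subset_right).trans_lt (by simp)).ne
  have h4 := ENNReal.toReal_mono hfin (measure_mono hsub)
  rw [Real.volume_Ico, sub_zero, ENNReal.toReal_ofReal', ← field_th_eq] at h4
  have h5 := (le_max_left _ _).trans h4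
  rw [div_le_iff₀ hr] at h5
  linarith

theorem field_sq_gap {a w : E d} {r ε s t : ℝ} (hε : 0 ≤ ε) (hs : r - ε ≤ ‖a - s • w‖)
    (ht : ‖a - t • w‖ < r) : ‖a - t • w‖ ^ 2 - ‖a - s • w‖ ^ 2 ≤ 2 * (r * ε) := by
  have h0 := norm_nonneg (a - s • w)
  have h1 := norm_nonneg (a - t • w)
  have hr : 0 < r := lt_of_le_of_lt h1 ht
  have h2 : ‖a - t • w‖ ^ 2 ≤ r ^ 2 := pow_le_pow_left₀ h1 ht.le 2
  rcases le_total ε r with h | h
  · have h3 : (r - ε) ^ 2 ≤ ‖a - s • w‖ ^ 2 := pow_le_pow_left₀ (sub_nonneg.2 h) hs 2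
    nlinarith [sq_nonneg ε]
  · nlinarith [sq_nonneg ‖a - s • w‖, mul_le_mul_of_nonneg_left h hr.le, mul_nonneg hr.le hε]

theorem field_sq_expand (a w : E d) (s : ℝ) :
    ‖a - s • w‖ ^ 2 = ‖a‖ ^ 2 - 2 * (s * ⟪a, w⟫) + s ^ 2 * ‖w‖ ^ 2 := by
  rw [norm_sub_sq_real, inner_smul_right, norm_smul, mul_pow, Real.norm_eq_abs, sq_abs]

theorem field_sq_fin {x w r ε : ℝ} (hw : 0 < w) (hrε : 0 ≤ r * ε)
    (h : x ^ 2 * w ^ 2 ≤ 2 * (r * ε)) : x ≤ 3 / 2 * √(r * ε) / w := by
  rw [le_div_iff₀ hw]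
  refine (le_abs_self _).trans (abs_le_of_sq_le_sq ?_ (by positivity))
  rw [mul_pow, mul_pow, Real.sq_sqrt hrε]
  nlinarith

theorem field_th_half {z w : E d} {r : ℝ} (hr : 0 < r) (hw : 0 < ‖w‖) (p p' : E d) :
    th z r w p - th z r w p' ≤ 3 * √(r * ‖p - p'‖) / ‖w‖ := by
  have hε := norm_nonneg (p - p')
  have hrε : 0 ≤ r * ‖p - p'‖ := by positivity
  set S := {σ : ℝ | ‖p - (z + σ • w)‖ < r} ∩ Icc 0 1 with hS
  set S' := {σ : ℝ | ‖p' - (z + σ • w)‖ < r} ∩ Icc 0 1 with hS'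
  set D := 3 / 2 * √(r * ‖p - p'‖) / ‖w‖ with hD
  have hD0 : 0 ≤ D := by positivity
  have key : ∀ σ ∈ S \ S', r - ‖p - p'‖ ≤ ‖(p - z) - σ • w‖ ∧ ‖(p - z) - σ • w‖ < r := by
    intro σ hσ
    have h1 : ‖p - (z + σ • w)‖ < r := hσ.1.1
    have h2 : ¬ ‖p' - (z + σ • w)‖ < r := fun hh => hσ.2 ⟨hh, hσ.1.2⟩
    have e : p - (z + σ • w) = (p - z) - σ • w := by abel
    have e' : p' - (z + σ • w) = ((p - z) - σ • w) - (p - p') := by abel
    rw [e] at h1
    rw [e'] at h2
    have h3 := norm_sub_le ((p - z) - σ • w) (p - p')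
    exact ⟨by linarith [not_lt.1 h2], h1⟩
  have v1 : volume ((S \ S') ∩ {σ | ⟪p - z, w⟫ ≤ σ * ‖w‖ ^ 2}) ≤ ENNReal.ofReal D := by
    refine field_vol_le fun s hs t ht hst => field_sq_fin hw hrε ?_
    have g := field_sq_gap hε (key s hs.1).1 (key t ht.1).2
    rw [field_sq_expand, field_sq_expand] at g
    have h1 : ⟪p - z, w⟫ ≤ s * ‖w‖ ^ 2 := hs.2
    nlinarith [mul_le_mul_of_nonneg_left h1 (sub_nonneg.2 hst)]
  have v2 : volume ((S \ S') ∩ {σ | σ * ‖w‖ ^ 2 ≤ ⟪p - z, w⟫}) ≤ ENNReal.ofReal D := by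
    refine field_vol_le fun s hs t ht hst => field_sq_fin hw hrε ?_
    have g := field_sq_gap hε (key t ht.1).1 (key s hs.1).2
    rw [field_sq_expand, field_sq_expand] at g
    have h1 : t * ‖w‖ ^ 2 ≤ ⟪p - z, w⟫ := ht.2
    nlinarith [mul_le_mul_of_nonneg_left h1 (sub_nonneg.2 hst)]
  have hsub : S ⊆ S' ∪ ((S \ S') ∩ {σ | ⟪p - z, w⟫ ≤ σ * ‖w‖ ^ 2} ∪
      (S \ S') ∩ {σ | σ * ‖w‖ ^ 2 ≤ ⟪p - z, w⟫}) := by
    intro σ hσ
    by_cases h : σ ∈ S'
    · exact Or.inl h
    · rcases le_total ⟪p - z, w⟫ (σ * ‖w‖ ^ 2) with h1 | h1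
      · exact Or.inr (Or.inl ⟨⟨hσ, h⟩, h1⟩)
      · exact Or.inr (Or.inr ⟨⟨hσ, h⟩, h1⟩)
  have hfin : volume S' ≠ ∞ := ((measure_mono inter_subset_right).trans_lt (by simp)).ne
  have h1 : volume S ≤ volume S' + (ENNReal.ofReal D + ENNReal.ofReal D) :=
    (measure_mono hsub).trans ((measure_union_le _ _).trans
      (add_le_add le_rfl ((measure_union_le _ _).trans (add_le_add v1 v2))))
  rw [← ENNReal.ofReal_toReal hfin, ← ENNReal.ofReal_add hD0 hD0,
    ← ENNReal.ofReal_add ENNReal.toReal_nonneg (by positivity)] at h1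
  have h2 := ENNReal.toReal_le_of_le_ofReal (by positivity) h1
  rw [field_th_eq, field_th_eq]
  have e : 3 * √(r * ‖p - p'‖) / ‖w‖ = D + D := by
    rw [hD]
    ring
  rw [e]
  linarith

theorem th_holder {z w : E d} {r : ℝ} (hr : 0 < r) (p p' : E d) :
    ‖w‖ * |th z r w p - th z r w p'| ≤ 3 * √(r * ‖p - p'‖) := by
  rcases (norm_nonneg w).eq_or_lt with hw | hw
  · rw [← hw, zero_mul]
    positivity
  · have h1 := field_th_half (z := z) hr hw p p'
    have h2 := field_th_half (z := z) hr hw p' p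
    rw [norm_sub_rev p' p] at h2
    have h3 : |th z r w p - th z r w p'| ≤ 3 * √(r * ‖p - p'‖) / ‖w‖ :=
      abs_le.2 ⟨by linarith, h1⟩
    rw [le_div_iff₀ hw] at h3
    linarith

end Vale.Agent.P137
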