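import Vale.Agent.P137.Defs

/-! P137 Loc: a Lipschitz function vanishing at infinity is locally controlled by its gradient.

Fix a unit vector `v` (`EuclideanSpace.single ⟨0, hd⟩ 1`), `F y = ‖lineDeriv ℝ N y v‖ₑ` (measurable,
`measurable_lineDeriv`). For every `x`, `s ↦ N (x + s v)` is Lipschitz with `deriv = lineDeriv ℝ N (x + s v) v`
(unfold `lineDeriv`, `deriv_comp_const_add`), so by `LipschitzOnWith.absolutelyContinuousOnInterval`,
`AbsolutelyContinuousOnInterval.integral_deriv_eq_sub` and `T → ∞`: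
`‖N x‖ₑ ≤ ∫⁻ s in Ioi 0, F (x + s v)`. Integrate over `x ∈ ball 0 S`; Tonelli, translate
(`lintegral_add_right_eq_self`), Tonelli again: `∫⁻ y, F y * vol {s | y - s v ∈ ball 0 S} ≤ 2 S ∫⁻ F`
(`Real.volume_le_diam` or the set lies in an interval of length `2 S`). Finally `F ≤ ‖fderiv N‖ₑ` a.e.
(`LipschitzWith.ae_differentiableAt`, `DifferentiableAt.lineDeriv_eq_fderiv`).
-/

namespace Vale.Agent.P137

open MeasureTheory Metric Set Filter Topology
open scoped ENNReal NNReal RealInnerProductSpace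

variable {d : ℕ}

theorem loc_ray {N : E d → ℝ} {L : ℝ≥0} (hN : LipschitzWith L N)
    (h0 : Tendsto N (cocompact (E d)) (𝓝 0)) {v : E d} (hv : ‖v‖ = 1) (x : E d) :
    ‖N x‖ₑ ≤ ∫⁻ s : ℝ, ‖lineDeriv ℝ N (x + s • v) v‖ₑ := by
  set g : ℝ → ℝ := fun s => N (x + s • v) with hg
  have hl : LipschitzWith 1 fun s : ℝ => x + s • v := by
    refine LipschitzWith.of_dist_le_mul fun s t => ?_
    rw [dist_add_left, dist_eq_norm, ← sub_smul, norm_smul, hv, dist_eq_norm]
    simp
  have hgl : LipschitzWith (L * 1) g := hN.comp hl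
  have hder : ∀ s, deriv g s = lineDeriv ℝ N (x + s • v) v := by
    intro s
    have h1 : (fun t : ℝ => N (x + s • v + t • v)) = fun t => g (s + t) := by
      funext t
      simp only [hg, add_smul, add_assoc]
    rw [lineDeriv, h1, deriv_comp_const_add, add_zero]
  have hb : ∀ T : ℝ, 0 ≤ T → ‖g T - g 0‖ₑ ≤ ∫⁻ s : ℝ, ‖lineDeriv ℝ N (x + s • v) v‖ₑ := by
    intro T hT
    rw [← (hgl.lipschitzOnWith.absolutelyContinuousOnInterval (a := 0)
      (b := T)).integral_deriv_eq_sub, intervalIntegral.integral_of_le hT]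
    refine (enorm_integral_le_lintegral_enorm _).trans ?_
    simp only [hder]
    exact setLIntegral_le_lintegral _ _
  have ht : Tendsto (fun s : ℝ => x + s • v) atTop (cocompact (E d)) := by
    refine tendsto_cocompact_of_tendsto_dist_comp_atTop x ?_
    refine tendsto_abs_atTop_atTop.congr fun s => ?_
    rw [dist_eq_norm, add_sub_cancel_left, norm_smul, hv, mul_one, Real.norm_eq_abs]
  have hlim : Tendsto (fun T => ‖g T - g 0‖ₑ) atTop (𝓝 ‖0 - g 0‖ₑ) :=
    ((h0.comp ht).sub_const (g 0)).enorm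
  have := le_of_tendsto hlim ((eventually_ge_atTop 0).mono hb)
  simpa [hg] using this

theorem loc_chord {v : E d} (hv : ‖v‖ = 1) (S : ℝ) (y : E d) :
    volume {s : ℝ | y - s • v ∈ ball (0 : E d) S} ≤ ENNReal.ofReal (2 * S) := by
  refine (Real.volume_le_diam _).trans (ediam_le fun s hs t ht => ?_)
  rw [edist_dist]
  refine ENNReal.ofReal_le_ofReal ?_
  have h1 : ‖y - s • v‖ < S := mem_ball_zero_iff.1 hs
  have h2 : ‖y - t • v‖ < S := mem_ball_zero_iff.1 ht
  have h3 : dist s t = ‖(y - t • v) - (y - s • v)‖ := by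
    rw [sub_sub_sub_cancel_left, ← sub_smul, norm_smul, hv, mul_one, dist_eq_norm]
  linarith [norm_sub_le (y - t • v) (y - s • v)]

theorem loc_tonelli {F : E d → ℝ≥0∞} (hF : Measurable F) {v : E d} (hv : ‖v‖ = 1) (S : ℝ) :
    ∫⁻ x in ball (0 : E d) S, ∫⁻ s : ℝ, F (x + s • v) ≤ ENNReal.ofReal (2 * S) * ∫⁻ x, F x := by
  let I : E d → ℝ≥0∞ := (ball (0 : E d) S).indicator 1
  have hI : Measurable I := measurable_one.indicator measurableSet_ball
  calc ∫⁻ x in ball (0 : E d) S, ∫⁻ s : ℝ, F (x + s • v)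
      = ∫⁻ x, ∫⁻ s : ℝ, I x * F (x + s • v) := by
        rw [← lintegral_indicator measurableSet_ball]
        refine lintegral_congr fun x => ?_
        by_cases hx : x ∈ ball (0 : E d) S
        · simp only [I, indicator_of_mem hx, Pi.one_apply, one_mul]
        · simp only [I, indicator_of_notMem hx, zero_mul, lintegral_zero]
    _ = ∫⁻ s : ℝ, ∫⁻ x, I x * F (x + s • v) := by
        refine lintegral_lintegral_swap (Measurable.aemeasurable ?_)
        exact (hI.comp measurable_fst).mul (hF.comp (by fun_prop))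
    _ = ∫⁻ s : ℝ, ∫⁻ y, I (y - s • v) * F y := by
        refine lintegral_congr fun s => ?_
        rw [← lintegral_add_right_eq_self (fun y => I (y - s • v) * F y) (s • v)]
        simp only [add_sub_cancel_right]
    _ = ∫⁻ y, ∫⁻ s : ℝ, I (y - s • v) * F y := by
        refine lintegral_lintegral_swap (Measurable.aemeasurable ?_)
        exact (hI.comp (by fun_prop)).mul (hF.comp measurable_snd)
    _ ≤ ∫⁻ y, ENNReal.ofReal (2 * S) * F y := by
        refine lintegral_mono fun y => ?_
        have hm : Measurable fun s : ℝ => I (y - s • v) := hI.comp (by fun_prop)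
        rw [lintegral_mul_const _ hm]
        refine mul_le_mul_left (le_trans (le_of_eq ?_) (loc_chord hv S y)) _
        have hs : MeasurableSet {s : ℝ | y - s • v ∈ ball (0 : E d) S} :=
          measurableSet_ball.preimage (f := fun s : ℝ => y - s • v) (by fun_prop)
        rw [← lintegral_indicator_one hs]
        rfl
    _ = _ := lintegral_const_mul _ hF

theorem lintegral_ball_le (hd : 0 < d) {N : E d → ℝ} {L : ℝ≥0} (hN : LipschitzWith L N)
    (h0 : Tendsto N (cocompact (E d)) (𝓝 0)) (S : ℝ) :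
    ∫⁻ x in ball (0 : E d) S, ‖N x‖ₑ ≤ ENNReal.ofReal (2 * S) * ∫⁻ x, ‖fderiv ℝ N x‖ₑ := by
  let v : E d := EuclideanSpace.single (⟨0, hd⟩ : Fin d) (1 : ℝ)
  have hv : ‖v‖ = 1 := by simp [v]
  have hF : Measurable fun y => ‖lineDeriv ℝ N y v‖ₑ := (measurable_lineDeriv hN.continuous).enorm
  refine (lintegral_mono fun x => loc_ray hN h0 hv x).trans ((loc_tonelli hF hv S).trans ?_)
  refine mul_le_mul_right (lintegral_mono_ae ?_) _
  filter_upwards [hN.ae_differentiableAt (μ := volume)] with y hy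
  rw [hy.lineDeriv_eq_fderiv]
  refine ((fderiv ℝ N y).le_opENorm v).trans (le_of_eq ?_)
  rw [← ofReal_norm v, hv, ENNReal.ofReal_one, mul_one]

end Vale.Agent.P137
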