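import Vale.Agent.P137.Defs

/-! P137 Pass: passing to the limit in the weak gradient identity.

* `tendsto_integral_ui` (Vitali type lemma): `D n → D0` a.e., uniformly integrable, `φ` bounded with
  compact support. Truncate with the `1`-Lipschitz clamp `T t = max (-Λ') (min Λ' t)`, `Λ' = max Λ 0 * ‖v‖`-like
  constant: `|t - T t| ≤ |t|` and it vanishes for `|t| ≤ Λ'`; so `∫ |D n v - T (D n v)| ≤ ‖v‖ ε` uniformly, the same
  for `D0` by Fatou, and `∫ T (D n v) φ → ∫ T (D0 v) φ` by dominated convergence. (Alternatively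
  `tendsto_Lp_finite_of_tendsto_ae` on the restriction of the volume to the support.)
* `pass_limit`: `⨆ n, ofReal (N n x)` has finite integral on balls (`lintegral_iSup`), so it is finite a.e.
  (`ae_lt_top`, countably many balls) and `M = toReal` is locally integrable, `N n → M` a.e., `0 ≤ N n ≤ M`.
  `D0 x = limUnder atTop (fderiv (N n) x)`, `G' x = (InnerProductSpace.toDual ℝ _).symm (D0 x)`, measurable by
  `aestronglyMeasurable_of_tendsto_ae`, bound by Fatou (`lintegral_liminf_le`). For a test function `φ`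
  (Lipschitz: `ContDiff.lipschitzWith_of_hasCompactSupport`): `LipschitzWith.integral_lineDeriv_mul_eq`,
  `LipschitzWith.ae_differentiableAt`, `DifferentiableAt.lineDeriv_eq_fderiv` give
  `∫ N n * fderiv φ v = -∫ fderiv (N n) v * φ`; the left side converges by dominated convergence.
-/

namespace Vale.Agent.P137

open MeasureTheory Metric Set Filter Topology
open scoped ENNReal NNReal RealInnerProductSpace

variable {d : ℕ}

theorem pass_int {D : E d → (E d →L[ℝ] ℝ)} (hi : Integrable D) {φ : E d → ℝ} (hφ : Continuous φ)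
    (hc : HasCompactSupport φ) (v : E d) : Integrable fun x => D x v * φ x :=
  (hi.apply_continuousLinearMap v).locallyIntegrable.integrable_smul_right_of_hasCompactSupport
    hφ hc

theorem tendsto_integral_ui {D : ℕ → E d → (E d →L[ℝ] ℝ)} {D0 : E d → (E d →L[ℝ] ℝ)}
    (hm : ∀ n, Measurable (D n)) (hi : ∀ n, Integrable (D n)) (hi0 : Integrable D0)
    (hae : ∀ᵐ x, Tendsto (fun n => D n x) atTop (𝓝 (D0 x)))
    (hUI : ∀ ε : ℝ≥0∞, ε ≠ 0 → ∃ Λ : ℝ, ∀ n, ∫⁻ x in {x | Λ < ‖D n x‖}, ‖D n x‖ₑ ≤ ε)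
    {φ : E d → ℝ} (hφ : Continuous φ) (hc : HasCompactSupport φ) (v : E d) :
    Tendsto (fun n => ∫ x, D n x v * φ x) atTop (𝓝 (∫ x, D0 x v * φ x)) := by
  have hK : IsCompact (tsupport φ) := hc
  have : IsFiniteMeasure (volume.restrict (tsupport φ)) :=
    isFiniteMeasure_restrict.2 hK.measure_lt_top.ne
  have h1 : UnifIntegrable D 1 (volume.restrict (tsupport φ)) := by
    refine unifIntegrable_of le_rfl ENNReal.one_ne_top (fun n => (hm n).aestronglyMeasurable)
      fun ε hε => ?_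
    obtain ⟨Λ, hΛ⟩ := hUI (ENNReal.ofReal ε) (ENNReal.ofReal_pos.2 hε).ne'
    refine ⟨(Λ + 1).toNNReal, fun n => (eLpNorm_mono_measure _ Measure.restrict_le_self).trans ?_⟩
    rw [eLpNorm_one_eq_lintegral_enorm]
    refine le_trans (lintegral_mono fun x => ?_)
      ((lintegral_indicator_le (fun x => ‖D n x‖ₑ) {x | Λ < ‖D n x‖}).trans (hΛ n))
    by_cases hx : x ∈ {x | (Λ + 1).toNNReal ≤ ‖D n x‖₊}
    swap
    · rw [indicator_of_notMem hx, ← ofReal_norm, norm_zero, ENNReal.ofReal_zero]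
      exact zero_le
    have h2 : Λ + 1 ≤ ‖D n x‖ := (Real.le_coe_toNNReal _).trans (NNReal.coe_le_coe.2 hx)
    rw [indicator_of_mem hx, indicator_of_mem (show x ∈ {x | Λ < ‖D n x‖} from
      (lt_add_one Λ).trans_le h2)]
  have h2 := tendsto_Lp_finite_of_tendsto_ae le_rfl ENNReal.one_ne_top
    (fun n => (hm n).aestronglyMeasurable) (memLp_one_iff_integrable.2 hi0.restrict) h1
    (ae_restrict_of_ae hae)
  simp only [eLpNorm_one_eq_lintegral_enorm] at h2
  obtain ⟨C, hC⟩ := hc.exists_bound_of_continuous hφ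
  have h3 := ENNReal.Tendsto.const_mul (a := ENNReal.ofReal (‖v‖ * C)) h2
    (Or.inr ENNReal.ofReal_ne_top)
  rw [mul_zero] at h3
  refine tendsto_integral_of_L1 _ (pass_int hi0 hφ hc v).1
    (Eventually.of_forall fun n => pass_int (hi n) hφ hc v)
    (tendsto_of_tendsto_of_tendsto_of_le_of_le tendsto_const_nhds h3 (fun _ => zero_le) fun n => ?_)
  rw [← lintegral_const_mul' _ _ ENNReal.ofReal_ne_top, ← lintegral_indicator hK.measurableSet]
  refine lintegral_mono fun x => ?_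
  by_cases hx : x ∈ tsupport φ
  · have hC0 : 0 ≤ C := (norm_nonneg _).trans (hC x)
    rw [indicator_of_mem hx, ← ofReal_norm, ← ofReal_norm, ← ENNReal.ofReal_mul (by positivity),
      ← sub_mul, norm_mul, ← sub_apply]
    refine ENNReal.ofReal_le_ofReal ((mul_le_mul (ContinuousLinearMap.le_opNorm _ _) (hC x)
      (norm_nonneg _) (by positivity)).trans (le_of_eq ?_))
    rw [Pi.sub_apply]
    ring
  · simp [image_eq_zero_of_notMem_tsupport hx]

theorem pass_limit (N : ℕ → E d → ℝ) (B : ℝ≥0∞) (hB : B ≠ ⊤)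
    (hL : ∀ n, ∃ L : ℝ≥0, LipschitzWith L (N n)) (h0 : ∀ n x, 0 ≤ N n x)
    (hmono : ∀ x, Monotone fun n => N n x)
    (hloc : ∀ S : ℝ, ∃ B' : ℝ≥0∞, B' ≠ ⊤ ∧ ∀ n, ∫⁻ x in ball (0 : E d) S, ‖N n x‖ₑ ≤ B')
    (hbd : ∀ n, ∫⁻ x, ‖fderiv ℝ (N n) x‖ₑ ≤ B)
    (hUI : ∀ ε : ℝ≥0∞, ε ≠ 0 → ∃ Λ : ℝ, ∀ n,
      ∫⁻ x in {x | Λ < ‖fderiv ℝ (N n) x‖}, ‖fderiv ℝ (N n) x‖ₑ ≤ ε)
    (hae : ∀ᵐ x, ∃ D : E d →L[ℝ] ℝ, Tendsto (fun n => fderiv ℝ (N n) x) atTop (𝓝 D)) :
    (∀ᵐ x, (⨆ n, ENNReal.ofReal (N n x)) < ⊤) ∧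
      LocallyIntegrable (fun x => (⨆ n, ENNReal.ofReal (N n x)).toReal) ∧
      ∃ G' : E d → E d, Integrable G' ∧
        IsWeakGrad (fun x => (⨆ n, ENNReal.ofReal (N n x)).toReal) G' ∧ ∫⁻ x, ‖G' x‖ₑ ≤ B := by
  have hc : ∀ n, Continuous (N n) := fun n => (hL n).choose_spec.continuous
  have hm : Measurable fun x => ⨆ n, ENNReal.ofReal (N n x) :=
    Measurable.iSup fun n => (hc n).measurable.ennreal_ofReal
  have hball : ∀ S : ℝ, ∫⁻ x in ball (0 : E d) S, ⨆ n, ENNReal.ofReal (N n x) ≠ ⊤ := by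
    intro S
    obtain ⟨B', h1, h2⟩ := hloc S
    rw [lintegral_iSup (fun n => (hc n).measurable.ennreal_ofReal)
      fun m n hmn x => ENNReal.ofReal_le_ofReal (hmono x hmn)]
    refine ne_top_of_le_ne_top h1 (iSup_le fun n => le_trans (le_of_eq ?_) (h2 n))
    exact lintegral_congr fun x => (Real.enorm_of_nonneg (h0 n x)).symm
  have hfin : ∀ᵐ x, (⨆ n, ENNReal.ofReal (N n x)) < ⊤ := by
    have h1 : ∀ᵐ x : E d, ∀ k : ℕ, x ∈ ball (0 : E d) k → (⨆ n, ENNReal.ofReal (N n x)) < ⊤ :=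
      ae_all_iff.2 fun k => (ae_restrict_iff' measurableSet_ball).1 (ae_lt_top hm (hball k))
    filter_upwards [h1] with x hx
    obtain ⟨k, hk⟩ := exists_nat_gt ‖x‖
    exact hx k (mem_ball_zero_iff.2 hk)
  have hli : LocallyIntegrable fun x => (⨆ n, ENNReal.ofReal (N n x)).toReal := fun x =>
    ⟨ball 0 (‖x‖ + 1), isOpen_ball.mem_nhds (mem_ball_zero_iff.2 (lt_add_one _)),
      integrable_toReal_of_lintegral_ne_top hm.aemeasurable (hball _)⟩
  refine ⟨hfin, hli, ?_⟩
  obtain ⟨D0, hD0⟩ : ∃ D0 : E d → E d →L[ℝ] ℝ,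
      ∀ᵐ x, Tendsto (fun n => fderiv ℝ (N n) x) atTop (𝓝 (D0 x)) :=
    ⟨fun x => limUnder atTop fun n => fderiv ℝ (N n) x,
      hae.mono fun x hx => tendsto_nhds_limUnder hx⟩
  have hDm : ∀ n, Measurable (fderiv ℝ (N n)) := fun n => measurable_fderiv ℝ (N n)
  have hD1 : AEStronglyMeasurable D0 volume :=
    aestronglyMeasurable_of_tendsto_ae atTop (fun n => (hDm n).aestronglyMeasurable) hD0
  have hD2 : ∫⁻ x, ‖D0 x‖ₑ ≤ B := by
    rw [lintegral_congr_ae (hD0.mono fun x hx => hx.enorm.liminf_eq.symm)]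
    exact (lintegral_liminf_le fun n => (hDm n).enorm).trans
      (liminf_le_of_frequently_le' (Frequently.of_forall hbd))
  have hD3 : Integrable D0 := ⟨hD1, hD2.trans_lt hB.lt_top⟩
  have hDi : ∀ n, Integrable (fderiv ℝ (N n)) := fun n =>
    ⟨(hDm n).aestronglyMeasurable, (hbd n).trans_lt hB.lt_top⟩
  have hG : ∫⁻ x, ‖(InnerProductSpace.toDual ℝ (E d)).symm (D0 x)‖ₑ ≤ B := by
    simpa only [LinearIsometryEquiv.enorm_map] using hD2
  refine ⟨fun x => (InnerProductSpace.toDual ℝ (E d)).symm (D0 x),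
    ⟨(InnerProductSpace.toDual ℝ (E d)).symm.continuous.comp_aestronglyMeasurable hD1,
      hG.trans_lt hB.lt_top⟩, fun φ hφ hφc v => ?_, hG⟩
  simp only [InnerProductSpace.toDual_symm_apply]
  have hψ : Continuous fun x => fderiv ℝ φ x v :=
    (hφ.continuous_fderiv (by simp)).clm_apply continuous_const
  have hψc : HasCompactSupport fun x => fderiv ℝ φ x v := hφc.fderiv_apply ℝ v
  obtain ⟨Lφ, hLφ⟩ := hφ.lipschitzWith_of_hasCompactSupport hφc (by simp)
  have h1 : ∀ n, ∫ x, N n x * fderiv ℝ φ x v = -∫ x, fderiv ℝ (N n) x v * φ x := by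
    intro n
    obtain ⟨L, hL⟩ := hL n
    have h2 := hL.integral_lineDeriv_mul_eq (μ := volume) hLφ hφc v
    rw [integral_congr_ae (g := fun x => fderiv ℝ (N n) x v * φ x)
      (hL.ae_differentiableAt.mono fun x hx => by simp only [hx.lineDeriv_eq_fderiv])] at h2
    rw [h2, ← integral_neg]
    refine integral_congr_ae (Eventually.of_forall fun x => ?_)
    simp only [(hφ.differentiable (by simp)).differentiableAt.lineDeriv_eq_fderiv, map_neg]
    ring
  have h2 := (tendsto_integral_ui hDm hDi hD3 hD0 hUI hφ.continuous hφc v).neg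
  simp only [← h1] at h2
  refine tendsto_nhds_unique (tendsto_integral_of_dominated_convergence _
    (fun n => ((hc n).mul hψ).aestronglyMeasurable)
    (hli.integrable_smul_right_of_hasCompactSupport hψ hψc).norm (fun n => ?_) ?_) h2
  · filter_upwards [hfin] with x hx
    rw [Pi.mul_apply, smul_eq_mul, norm_mul, norm_mul, Real.norm_of_nonneg (h0 n x),
      Real.norm_of_nonneg ENNReal.toReal_nonneg]
    exact mul_le_mul_of_nonneg_right ((ENNReal.ofReal_le_iff_le_toReal hx.ne).1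
      (le_iSup (fun n => ENNReal.ofReal (N n x)) n)) (norm_nonneg _)
  · filter_upwards [hfin] with x hx
    have h3 := (ENNReal.tendsto_toReal hx.ne).comp (tendsto_atTop_iSup
      (f := fun n => ENNReal.ofReal (N n x)) fun m n hmn => ENNReal.ofReal_le_ofReal (hmono x hmn))
    exact (h3.congr fun n => ENNReal.toReal_ofReal (h0 n x)).mul_const _

end Vale.Agent.P137
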