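import Vale.Agent.P137.Nmax
import Vale.Agent.P137.Field

/-! P137 Nreg: regularity of `Nm` for a global pair.

* `lipschitz_Nm`: `|av (z+v) r - av z r| ≤ ‖v‖ (om δ^d)⁻¹ ∫ ‖μ‖` (`Pair.eq_univ`, `fld_bound`); with an optimal
  ball `(z, r)` of `x`, `Nm (x + v) ≥ av (z+v) r`.
* `av_trans_sub`: `Pair.eq_univ`, `fld_trans`, unfold `th` as an integral of an indicator and use Fubini
  (or unfold `fld` directly): the difference is `∫_0^1 ⟪av μ (z + σ w) r, w⟫ dσ`.
* `fderiv_Nm`: `s ↦ av h (z + s v) r` has derivative `⟪av μ z r, v⟫` at `0` (by `av_trans_sub`, the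
  difference quotient is `∫_0^1 ⟪av μ (z + σ s v) r, v⟫ dσ`, and `continuous_av`), and
  `s ↦ Nm (x + s v) - av h (z + s v) r` has a minimum at `0` (`le_Nm`; `IsLocalMin.hasDerivAt_eq_zero`).
* `tendsto_Nm`: `|av h z r| ≤ (om δ^d)⁻¹ ∫_{‖y‖ ≥ ‖x‖ - 2η} |h|` for the optimal ball; the tail integral
  tends to `0` (`tendsto_setIntegral_of_antitone` or dominated convergence).
* `av_norm_le`: enlarging a ball by the factor `A`.
-/

namespace Vale.Agent.P137

open MeasureTheory Metric Set Filter Topology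
open scoped ENNReal NNReal RealInnerProductSpace

variable {d : ℕ}

variable {h : E d → ℝ} {μ : E d → E d} {δ η : ℝ}

theorem norm_av_le_set_Nreg {F : Type} [NormedAddCommGroup F] [NormedSpace ℝ F] {H : E d → F}
    (hH : Integrable H) (hδ : 0 < δ) {z : E d} {r : ℝ} (hr : δ ≤ r) {S : Set (E d)}
    (hS : ball z r ⊆ S) : ‖av H z r‖ ≤ (om d * δ ^ d)⁻¹ * ∫ y in S, ‖H y‖ := by
  have hr0 : 0 < r := hδ.trans_le hr
  have ho := om_pos (d := d)
  rw [av_eq H z hr0, norm_smul, Real.norm_of_nonneg (by positivity)]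
  refine mul_le_mul ?_ ((norm_integral_le_integral_norm _).trans ?_) (norm_nonneg _)
    (by positivity)
  · exact inv_anti₀ (by positivity) (by gcongr)
  · exact setIntegral_mono_set hH.norm.integrableOn (Eventually.of_forall fun _ => norm_nonneg _)
      hS.eventuallyLE

theorem av_trans_sub (hP : Pair h μ univ) (z w : E d) {r : ℝ} (hr : 0 < r) :
    av h (z + w) r - av h z r = ∫ σ in Icc (0 : ℝ) 1, ⟪av μ (z + σ • w) r, w⟫ := by
  set c : ℝ := (om d * r ^ d)⁻¹ with hc
  set U : Set (E d × ℝ) := {q | q.1 ∈ ball (z + q.2 • w) r} with hU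
  have hUm : MeasurableSet U := by
    refine IsOpen.measurableSet ?_
    simp only [hU, mem_ball]
    exact isOpen_lt (by fun_prop) continuous_const
  have hi : Integrable fun p => c * ⟪w, μ p⟫ := (hP.im.const_inner w).const_mul c
  have hint : Integrable (U.indicator fun q : E d × ℝ => c * ⟪w, μ q.1⟫)
      (volume.prod (volume.restrict (Icc (0 : ℝ) 1))) := (hi.comp_fst _).indicator hUm
  have hsw := integral_integral_swap
    (f := fun (p : E d) (σ : ℝ) => U.indicator (fun q : E d × ℝ => c * ⟪w, μ q.1⟫) (p, σ)) hint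
  rw [hP.eq_univ z (z + w) hr hr]
  refine Eq.trans ?_ (hsw.trans ?_)
  · refine integral_congr_ae (Eventually.of_forall fun p => ?_)
    have hm : MeasurableSet {σ : ℝ | p ∈ ball (z + σ • w) r} := measurable_prodMk_left hUm
    have e : (fun σ : ℝ => U.indicator (fun q : E d × ℝ => c * ⟪w, μ q.1⟫) (p, σ)) =
        {σ : ℝ | p ∈ ball (z + σ • w) r}.indicator fun _ => c * ⟪w, μ p⟫ := by
      funext σ
      rfl
    have e2 : {σ : ℝ | p ∈ ball (z + σ • w) r} ∩ Icc (0 : ℝ) 1 =
        {σ ∈ Icc (0 : ℝ) 1 | p ∈ ball (z + σ • w) r} := by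
      ext σ
      exact and_comm
    simp only
    rw [e, integral_indicator_const _ hm, fld_trans z w hr, real_inner_smul_left, Measure.real,
      Measure.restrict_apply hm, e2, th, smul_eq_mul]
    ring
  · refine integral_congr_ae (Eventually.of_forall fun σ => ?_)
    have e : (fun p : E d => U.indicator (fun q : E d × ℝ => c * ⟪w, μ q.1⟫) (p, σ)) =
        (ball (z + σ • w) r).indicator fun p => c * ⟪w, μ p⟫ := by
      funext p
      rfl
    simp only
    rw [e, integral_indicator measurableSet_ball, integral_const_mul,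
      integral_inner hP.im.integrableOn, av_eq μ _ hr, real_inner_smul_left, real_inner_comm]

theorem lipschitz_Nm (hP : Pair h μ univ) (hδ : 0 < δ) (hδη : δ ≤ η) :
    ∃ L : ℝ≥0, LipschitzWith L (Nm h δ η) := by
  have ho := om_pos (d := d)
  have hL : 0 ≤ (om d * δ ^ d)⁻¹ * ∫ y in univ, ‖μ y‖ :=
    mul_nonneg (by positivity) (integral_nonneg fun _ => norm_nonneg _)
  refine ⟨Real.toNNReal ((om d * δ ^ d)⁻¹ * ∫ y in univ, ‖μ y‖),
    LipschitzWith.of_le_add_mul _ fun x y => ?_⟩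
  obtain ⟨z, r, h1, h2, h3, h4⟩ := exists_opt hP.ih hδ hδη x
  have h5 := le_Nm hP.ih hδ (x := y) (z := z + (y - x)) h1 h2
    (by rwa [show y - (z + (y - x)) = x - z by abel])
  have h6 := av_trans_sub hP z (y - x) (hδ.trans_le h1)
  have h7 : ‖∫ σ in Icc (0 : ℝ) 1, ⟪av μ (z + σ • (y - x)) r, y - x⟫‖ ≤
      ((om d * δ ^ d)⁻¹ * ∫ y in univ, ‖μ y‖) * ‖y - x‖ * volume.real (Icc (0 : ℝ) 1) := by
    refine norm_setIntegral_le_of_norm_le_const (by simp) fun σ _ => ?_
    exact (norm_inner_le_norm _ _).trans (mul_le_mul_of_nonneg_right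
      (norm_av_le_set_Nreg hP.im hδ h1 (subset_univ _)) (norm_nonneg _))
  rw [← h6, Real.norm_eq_abs, Real.volume_real_Icc_of_le zero_le_one] at h7
  rw [dist_comm, dist_eq_norm]
  have h8 := (abs_le.1 h7).1
  rw [Real.coe_toNNReal _ hL]
  linarith

theorem fderiv_Nm (hP : Pair h μ univ) (hδ : 0 < δ) {x z : E d} {r : ℝ}
    (hx : DifferentiableAt ℝ (Nm h δ η) x) (ho : Opt h δ η x z r) :
    fderiv ℝ (Nm h δ η) x = innerSL ℝ (av μ z r) := by
  obtain ⟨h1, h2, h3, h4⟩ := ho
  have hr : 0 < r := hδ.trans_le h1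
  ext v
  set G : ℝ → ℝ := fun t => ⟪av μ (z + t • v) r, v⟫ with hG
  have hGc : Continuous G :=
    ((continuous_av hP.im hr).comp (by fun_prop)).inner continuous_const
  have hA : ∀ s : ℝ, av h (z + s • v) r = av h z r + ∫ t in (0 : ℝ)..s, G t := fun s => by
    have e := av_trans_sub hP z (s • v) hr
    have e2 := intervalIntegral.mul_integral_comp_mul_right (f := G) (a := 0) (b := 1) s
    rw [zero_mul, one_mul] at e2
    rw [← e2, ← intervalIntegral.integral_const_mul, intervalIntegral.integral_of_le zero_le_one,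
      ← integral_Icc_eq_integral_Ioc, ← sub_eq_iff_eq_add', e]
    congr 1
    funext σ
    rw [hG, real_inner_smul_right, smul_smul]
  have hD : HasDerivAt (fun s : ℝ => av h (z + s • v) r) (G 0) 0 := by
    simp only [hA]
    exact (intervalIntegral.integral_hasDerivAt_right (hGc.intervalIntegrable _ _)
      (hGc.stronglyMeasurableAtFilter _ _) hGc.continuousAt).const_add _
  have hl : HasDerivAt (fun s : ℝ => x + s • v) v 0 := by
    simpa using ((hasDerivAt_id (0 : ℝ)).smul_const v).const_add x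
  have hN : HasDerivAt (fun s : ℝ => Nm h δ η (x + s • v)) (fderiv ℝ (Nm h δ η) x v) 0 :=
    hx.hasFDerivAt.comp_hasDerivAt_of_eq 0 hl (by simp)
  have hmin : IsLocalMin (fun s : ℝ => Nm h δ η (x + s • v) - av h (z + s • v) r) 0 := by
    refine Eventually.of_forall fun s => ?_
    have h5 := le_Nm hP.ih hδ (x := x + s • v) (z := z + s • v) h1 h2
      (by rwa [show x + s • v - (z + s • v) = x - z by abel])
    simp only [zero_smul, add_zero]
    linarith
  have h6 := hmin.hasDerivAt_eq_zero (hN.sub hD)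
  rw [sub_eq_zero] at h6
  rw [h6, hG]
  simp

theorem tendsto_Nm (hh : Integrable h) (hδ : 0 < δ) (hδη : δ ≤ η) :
    Tendsto (Nm h δ η) (cocompact (E d)) (𝓝 0) := by
  have ht : Tendsto (fun t : ℝ => ∫ y in (ball (0 : E d) t)ᶜ, ‖h y‖) atTop (𝓝 0) := by
    have h1 := tendsto_setIntegral_of_antitone (μ := volume) (f := fun y => ‖h y‖)
      (s := fun t : ℝ => (ball (0 : E d) t)ᶜ) (fun _ => measurableSet_ball.compl)
      (fun a b hab => compl_subset_compl.2 (ball_subset_ball hab)) ⟨0, hh.norm.integrableOn⟩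
    have h2 : ⋂ t : ℝ, (ball (0 : E d) t)ᶜ = ∅ := by
      refine eq_empty_of_forall_notMem fun y hy => ?_
      exact mem_iInter.1 hy (‖y‖ + 1) (by simp)
    simpa [h2] using h1
  have hn : Tendsto (fun x : E d => ‖x‖ + -(2 * η)) (cocompact (E d)) atTop :=
    tendsto_atTop_add_const_right _ _ (tendsto_norm_cocompact_atTop (E := E d))
  have h3 := (ht.comp hn).const_mul (om d * δ ^ d)⁻¹
  rw [mul_zero] at h3
  refine squeeze_zero_norm (fun x => ?_) h3
  obtain ⟨z, r, h4, h5, h6, h7⟩ := exists_opt hh hδ hδη x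
  rw [← h7]
  refine norm_av_le_set_Nreg hh hδ h4 fun y hy hy' => ?_
  rw [mem_ball_zero_iff] at hy'
  rw [mem_ball, dist_eq_norm] at hy
  have h8 : ‖x‖ ≤ ‖x - z‖ + ‖z - y‖ + ‖y‖ := by
    have := norm_add₃_le (a := x - z) (b := z - y) (c := y)
    rwa [show x - z + (z - y) + y = x by abel] at this
  rw [norm_sub_rev] at hy
  linarith

theorem norm_av_le (μ : E d → E d) (z : E d) (r : ℝ) : ‖av μ z r‖ ≤ av (fun x => ‖μ x‖) z r := by
  exact norm_integral_le_integral_norm _

theorem av_le_enlarge {w : E d → ℝ} (hw : Integrable w) (h0 : ∀ x, 0 ≤ w x) (z : E d) {r A : ℝ}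
    (hr : 0 < r) (hA : 1 ≤ A) : av w z r ≤ A ^ d * av w z (A * r) := by
  have ho := om_pos (d := d)
  have hA0 : 0 < A := by linarith
  rw [av_eq w z hr, av_eq w z (mul_pos hA0 hr), smul_eq_mul, smul_eq_mul, ← mul_assoc]
  have e : A ^ d * (om d * (A * r) ^ d)⁻¹ = (om d * r ^ d)⁻¹ := by
    rw [mul_pow]
    field_simp
  rw [e]
  refine mul_le_mul_of_nonneg_left ?_ (by positivity)
  exact setIntegral_mono_set hw.integrableOn (Eventually.of_forall h0)
    (ball_subset_ball (by nlinarith)).eventuallyLE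

theorem Nm_nonneg (hh : Integrable h) (h0 : ∀ x, 0 ≤ h x) (hδ : 0 < δ) (hδη : δ ≤ η) (x : E d) :
    0 ≤ Nm h δ η x := by
  obtain ⟨z, r, -, -, -, h4⟩ := exists_opt hh hδ hδη x
  rw [← h4]
  exact integral_nonneg h0

theorem Nm_mono (hh : Integrable h) {δ' η' : ℝ} (hδ' : 0 < δ') (h1 : δ' ≤ δ) (hδη : δ ≤ η)
    (h2 : η ≤ η') (x : E d) : Nm h δ η x ≤ Nm h δ' η' x := by
  obtain ⟨z, r, h3, h4, h5, h6⟩ := exists_opt hh (hδ'.trans_le h1) hδη x
  rw [← h6]
  exact le_Nm hh hδ' (h1.trans h3) (h4.trans h2) h5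

end Vale.Agent.P137
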