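import Vale.Agent.P137.Vec

/-! P137 Weak: weak type (1,1) bound for the uncentered maximal function.

`Om w Λ` is the union of the balls `ball z r` with `Λ < av w z r`. Such a ball has
`Λ om r^d < ∫_{ball} w ≤ ∫ w`, so the radii are bounded. `Vitali.exists_disjoint_subfamily_covering_enlargement_ball`
(`τ = 4`) gives a disjoint subfamily, countable (`Set.PairwiseDisjoint.countable_of_isOpen`), with
`vol (Om) ≤ ∑ 4^d vol (ball) ≤ 4^d/Λ ∑ ∫_{ball} w ≤ 4^d/Λ ∫ w` (work with `∫⁻ ofReal w`,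
`lintegral_biUnion` / `measure_biUnion_le`). `exists_Om_small`: `exists_pos_setLIntegral_lt_of_measure_lt`;
`Om ≠ univ` because it has finite volume and `volume univ = ⊤` for `0 < d`.
-/

namespace Vale.Agent.P137

open MeasureTheory Metric Set Filter Topology
open scoped ENNReal NNReal RealInnerProductSpace

variable {d : ℕ}

/-- Superlevel set of the uncentered maximal function. -/
def Om (w : E d → ℝ) (Λ : ℝ) : Set (E d) := {x | ∃ z r, x ∈ ball z r ∧ Λ < av w z r}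

theorem isOpen_Om (w : E d → ℝ) (Λ : ℝ) : IsOpen (Om w Λ) := by
  refine isOpen_iff_mem_nhds.2 fun x ⟨z, r, hx, h⟩ => ?_
  filter_upwards [isOpen_ball.mem_nhds hx] with y hy
  exact ⟨z, r, hy, h⟩

theorem ball_lt_wk {w : E d → ℝ} {Λ : ℝ} {z : E d} {r : ℝ} (hr : 0 < r) (h : Λ < av w z r) :
    Λ * (om d * r ^ d) < ∫ y in ball z r, w y := by
  have h1 : 0 < om d * r ^ d := mul_pos om_pos (pow_pos hr d)
  rw [av_eq w z hr, smul_eq_mul, ← div_eq_inv_mul, lt_div_iff₀ h1] at h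
  exact h

theorem volume_Om_le (hd : 0 < d) {w : E d → ℝ} (hw : Integrable w) (h0 : ∀ x, 0 ≤ w x) {Λ : ℝ}
    (hΛ : 0 < Λ) : volume (Om w Λ) ≤ ENNReal.ofReal (4 ^ d / Λ * ∫ x, w x) := by
  set t : Set (E d × ℝ) := {p | 0 < p.2 ∧ Λ < av w p.1 p.2} with ht
  have hom : 0 < om d := om_pos
  have hR : ∀ p ∈ t, p.2 ≤ max 1 ((∫ x, w x) / (Λ * om d)) := by
    intro p hp
    rcases le_total p.2 1 with h1 | h1
    · exact h1.trans (le_max_left _ _)
    refine le_trans ?_ (le_max_right _ _)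
    rw [le_div_iff₀ (by positivity)]
    have h2 := ball_lt_wk hp.1 hp.2
    have h3 : ∫ y in ball p.1 p.2, w y ≤ ∫ y, w y :=
      setIntegral_le_integral hw (Eventually.of_forall h0)
    have h4 : p.2 ≤ p.2 ^ d := le_self_pow₀ h1 hd.ne'
    have h5 := mul_le_mul_of_nonneg_left h4 (show 0 ≤ Λ * om d by positivity)
    linarith
  obtain ⟨u, hut, hdisj, hcov⟩ := Vitali.exists_disjoint_subfamily_covering_enlargement_ball t
    (fun p => p.1) (fun p => p.2) _ hR 4 (by norm_num)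
  have hcount : u.Countable := hdisj.countable_of_isOpen (fun _ _ => isOpen_ball)
    fun p hp => nonempty_ball.2 (hut hp).1
  have hsub : Om w Λ ⊆ ⋃ p ∈ u, ball p.1 (4 * p.2) := by
    rintro x ⟨z, r, hx, h⟩
    obtain ⟨b, hb, hb'⟩ := hcov (z, r) ⟨pos_of_mem_ball hx, h⟩
    exact mem_biUnion hb (hb' hx)
  have hc : 0 ≤ (4 : ℝ) ^ d / Λ := by positivity
  have hone : ∀ p ∈ u, volume (ball p.1 (4 * p.2)) ≤
      ENNReal.ofReal (4 ^ d / Λ) * ∫⁻ y in ball p.1 p.2, ENNReal.ofReal (w y) := by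
    intro p hp
    have hp0 := (hut hp).1
    rw [volume_ball_eq _ (by positivity), ← ofReal_integral_eq_lintegral_ofReal hw.integrableOn
      (Eventually.of_forall h0), ← ENNReal.ofReal_mul hc]
    refine ENNReal.ofReal_le_ofReal ?_
    refine le_trans (le_of_eq ?_) (mul_le_mul_of_nonneg_left (ball_lt_wk hp0 (hut hp).2).le hc)
    rw [mul_pow]
    field_simp
  calc volume (Om w Λ) ≤ ∑' p : u, volume (ball p.1.1 (4 * p.1.2)) :=
        (measure_mono hsub).trans (measure_biUnion_le _ hcount _)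
    _ ≤ ∑' p : u, ENNReal.ofReal (4 ^ d / Λ) * ∫⁻ y in ball p.1.1 p.1.2, ENNReal.ofReal (w y) :=
        ENNReal.tsum_le_tsum fun p => hone p.1 p.2
    _ = ENNReal.ofReal (4 ^ d / Λ) * ∫⁻ y in ⋃ p ∈ u, ball p.1 p.2, ENNReal.ofReal (w y) := by
        rw [ENNReal.tsum_mul_left, lintegral_biUnion hcount (fun _ _ => measurableSet_ball) hdisj]
    _ ≤ ENNReal.ofReal (4 ^ d / Λ) * ∫⁻ y, ENNReal.ofReal (w y) := by
        gcongr
        exact Measure.restrict_le_self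
    _ = _ := by
        rw [← ofReal_integral_eq_lintegral_ofReal hw (Eventually.of_forall h0),
          ← ENNReal.ofReal_mul hc]

theorem exists_Om_small (hd : 0 < d) {μ : E d → E d} (hμ : Integrable μ) {ε : ℝ≥0∞} (hε : ε ≠ 0) :
    ∃ Λ : ℝ, 0 < Λ ∧ (Om (fun x => ‖μ x‖) Λ)ᶜ.Nonempty ∧
      ∫⁻ x in Om (fun x => ‖μ x‖) Λ, ‖μ x‖ₑ ≤ ε := by
  obtain ⟨δ, hδ, hs⟩ := exists_pos_setLIntegral_lt_of_measure_lt (f := fun x => ‖μ x‖ₑ)
    hμ.2.ne hε
  have ht : Tendsto (fun Λ : ℝ => ENNReal.ofReal (4 ^ d / Λ * ∫ x, ‖μ x‖)) atTop (𝓝 0) := by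
    have := ENNReal.tendsto_ofReal
      ((tendsto_const_nhds.div_atTop (a := (4 : ℝ) ^ d) tendsto_id).mul_const (∫ x, ‖μ x‖))
    simpa using this
  obtain ⟨Λ, h1, h2⟩ := ((ht.eventually (gt_mem_nhds hδ)).and (eventually_gt_atTop 0)).exists
  have hv := volume_Om_le hd hμ.norm (fun x => norm_nonneg _) h2
  refine ⟨Λ, h2, nonempty_compl.2 fun h => ?_, (hs _ (hv.trans_lt h1)).le⟩
  have : Nonempty (Fin d) := ⟨⟨0, hd⟩⟩
  rw [h, measure_univ_of_isAddLeftInvariant] at hv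
  exact ENNReal.ofReal_ne_top (top_le_iff.1 hv)

end Vale.Agent.P137
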