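import Vale.Agent.P137.ME
import Vale.Agent.P137.Nreg
import Vale.Agent.P137.Weak

/-! P137 UI: uniform integrability of the gradients.

`C, C'` from `me_set`, `A = 4 C' + 1`, `Λ0` from `exists_Om_small` with `ε / (3 C + 1)`, `Ω = Om ‖μ‖ Λ0`,
`ρ x = infDist x Ωᶜ`, `Λ = A^d Λ0`, `N = Nm h δ η`. Let `Λ < ‖fderiv N x‖` (so `N` is differentiable at `x`)
with optimal ball `(z, r)`. Then `Λ < av ‖μ‖ z r ≤ A^d av ‖μ‖ z (A r)` (`fderiv_Nm`, `norm_av_le`,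
`av_le_enlarge`), so `ball z (A r) ⊆ Ω`, hence `4 C' r ≤ ρ x` (`le_infDist`), in particular `ρ x > 0`.
Take `i : ℤ` with `2^i ≤ ρ x < 2^(i+1)` (`exists_mem_Ico_zpow`), `η i = min η (2^(i+1) / (4 C'))`; then
`δ ≤ r ≤ η i` and `(z, r)` is also optimal for `N i = Nm h δ (η i)` (`le_Nm`, `Nm_mono`). For a.e. `x` all `N i` with
`δ ≤ η i` are differentiable (`lipschitz_Nm`), and then `fderiv N x = fderiv (N i) x` (`fderiv_Nm`). With
`X i = {2^i ≤ ρ < 2^(i+1)}` the integral is at most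
`∑' i, (if δ ≤ η i then ∫_{X i} ‖fderiv (N i)‖ₑ else 0) ≤ C ∑' i, ∫_{Y i} ‖μ‖ₑ`,
`thickening (C' η i) (X i) ⊆ Y i = {2^(i-1) < ρ < 2^(i+2)} ⊆ Ω` (`infDist_le_infDist_add_dist`), and each point lies in
at most three `Y i` (write `Y i ⊆ X (i-1) ∪ X i ∪ X (i+1)`, the `X i` are disjoint subsets of `Ω`).
-/

namespace Vale.Agent.P137

open MeasureTheory Metric Set Filter Topology
open scoped ENNReal NNReal RealInnerProductSpace

variable {d : ℕ}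

/-- Whitney layers. -/
def uiX (F : Set (E d)) (i : ℤ) : Set (E d) := {x | infDist x F ∈ Ico ((2 : ℝ) ^ i) (2 ^ (i + 1))}

theorem measurableSet_uiX (F : Set (E d)) (i : ℤ) : MeasurableSet (uiX F i) :=
  (continuous_infDist_pt F).measurable measurableSet_Ico

theorem uiX_tsum (F : Set (E d)) (w : E d → ℝ≥0∞) :
    ∑' i, ∫⁻ x in uiX F i, w x ≤ ∫⁻ x in Fᶜ, w x := by
  rw [← lintegral_iUnion (measurableSet_uiX F)]
  · refine lintegral_mono_set (iUnion_subset fun i x hx hF => ?_)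
    have h1 : (2 : ℝ) ^ i ≤ infDist x F := hx.1
    rw [infDist_zero_of_mem hF] at h1
    exact absurd h1 (not_le.2 (by positivity))
  · refine (pairwise_disjoint_on _).2 fun i j hij => disjoint_left.2 fun x h1 h2 => ?_
    have h3 : (2 : ℝ) ^ (i + 1) ≤ 2 ^ j := zpow_le_zpow_right₀ one_le_two hij
    exact absurd (h1.2.trans_le (h3.trans h2.1)) (lt_irrefl _)

theorem uiX_thick (F : Set (E d)) (i : ℤ) {t : ℝ} (ht : t ≤ 2 ^ (i + 1) / 4) :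
    thickening t (uiX F i) ⊆ uiX F (i - 1) ∪ uiX F i ∪ uiX F (i + 1) := by
  intro y hy
  obtain ⟨x, ⟨h1, h2⟩, h3⟩ := mem_thickening_iff.1 hy
  have h4 : infDist x F ≤ infDist y F + dist x y := infDist_le_infDist_add_dist
  have h5 : infDist y F ≤ infDist x F + dist y x := infDist_le_infDist_add_dist
  have e1 : (2 : ℝ) ^ (i + 1) = 2 ^ i * 2 := zpow_add_one₀ two_ne_zero i
  have e2 : (2 : ℝ) ^ (i + 1 + 1) = 2 ^ (i + 1) * 2 := zpow_add_one₀ two_ne_zero _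
  have e3 : (2 : ℝ) ^ (i - 1 + 1) = 2 ^ (i - 1) * 2 := zpow_add_one₀ two_ne_zero _
  have e4 : (0 : ℝ) < 2 ^ i := by positivity
  rw [dist_comm] at h4
  have e5 : (2 : ℝ) ^ (i - 1 + 1) = 2 ^ i := by rw [sub_add_cancel]
  by_cases c1 : infDist y F < 2 ^ i
  · exact Or.inl (Or.inl ⟨by linarith, by linarith⟩)
  by_cases c2 : infDist y F < 2 ^ (i + 1)
  · exact Or.inl (Or.inr ⟨by linarith, c2⟩)
  · exact Or.inr ⟨by linarith, by linarith⟩

theorem ui_point {h : E d → ℝ} {μ : E d → E d} (hP : Pair h μ univ) {δ η C' Λ0 : ℝ} (hδ : 0 < δ)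
    (hδη : δ ≤ η) (hC' : 1 ≤ C') (hΛ0 : 0 < Λ0) (hne : (Om (fun x => ‖μ x‖) Λ0)ᶜ.Nonempty) {x : E d}
    (hx : (4 * C' + 1) ^ d * Λ0 < ‖fderiv ℝ (Nm h δ η) x‖) :
    ∃ i : ℤ, x ∈ uiX (Om (fun x => ‖μ x‖) Λ0)ᶜ i ∧ δ ≤ min η (2 ^ (i + 1) / (4 * C')) ∧
      (DifferentiableAt ℝ (Nm h δ (min η (2 ^ (i + 1) / (4 * C')))) x →
        fderiv ℝ (Nm h δ η) x = fderiv ℝ (Nm h δ (min η (2 ^ (i + 1) / (4 * C')))) x) := by
  have hA : (0 : ℝ) < (4 * C' + 1) ^ d := by positivity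
  have hdiff : DifferentiableAt ℝ (Nm h δ η) x := by
    by_contra hn
    rw [fderiv_zero_of_not_differentiableAt hn, norm_zero] at hx
    exact absurd hx (not_lt.2 (by positivity))
  obtain ⟨z, r, ho⟩ := exists_opt hP.ih hδ hδη x
  have hr : 0 < r := hδ.trans_le ho.1
  rw [fderiv_Nm hP hδ hdiff ho, innerSL_apply_norm] at hx
  have h1 : Λ0 < av (fun x => ‖μ x‖) z ((4 * C' + 1) * r) :=
    lt_of_mul_lt_mul_left (hx.trans_le ((norm_av_le μ z r).trans (av_le_enlarge hP.im.norm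
      (fun _ => norm_nonneg _) z hr (by linarith)))) hA.le
  have h2 : 4 * C' * r ≤ infDist x (Om (fun x => ‖μ x‖) Λ0)ᶜ := by
    refine (le_infDist hne).2 fun y hy => ?_
    have h3 : (4 * C' + 1) * r ≤ dist y z := not_lt.1 fun h3 => hy ⟨z, _, h3, h1⟩
    have h4 := dist_triangle y x z
    have h5 : dist x z ≤ r := by rw [dist_eq_norm]; exact ho.2.2.1
    rw [dist_comm y x] at h4
    linarith
  obtain ⟨i, hi⟩ := exists_mem_Ico_zpow (lt_of_lt_of_le (by positivity) h2) one_lt_two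
  have h3 : r ≤ min η (2 ^ (i + 1) / (4 * C')) :=
    le_min ho.2.1 (by rw [le_div_iff₀ (by positivity)]; linarith [hi.2])
  refine ⟨i, hi, ho.1.trans h3, fun hd => ?_⟩
  rw [fderiv_Nm hP hδ hdiff ho, fderiv_Nm hP hδ hd (z := z) (r := r) ⟨ho.1, h3, ho.2.2.1,
    le_antisymm (le_Nm hP.ih hδ ho.1 h3 ho.2.2.1) ((Nm_mono hP.ih hδ le_rfl (ho.1.trans h3)
      (min_le_left _ _) x).trans ho.2.2.2.ge)⟩]

theorem unif_int (hd : 0 < d) {h : E d → ℝ} {μ : E d → E d} (hP : Pair h μ univ) (ε : ℝ≥0∞)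
    (hε : ε ≠ 0) : ∃ Λ : ℝ, ∀ δ η : ℝ, 0 < δ → δ ≤ η →
    ∫⁻ x in {x | Λ < ‖fderiv ℝ (Nm h δ η) x‖}, ‖fderiv ℝ (Nm h δ η) x‖ₑ ≤ ε := by
  obtain ⟨C, C', hC', hme⟩ := me_set hd
  obtain ⟨Λ0, hΛ0, hne, hΩ⟩ := exists_Om_small hd hP.im (ε := ε / (3 * C + 1))
    (ENNReal.div_ne_zero.2 ⟨hε, by finiteness⟩)
  refine ⟨(4 * C' + 1) ^ d * Λ0, fun δ η hδ hδη => ?_⟩
  have key := fun x => ui_point hP hδ hδη hC' hΛ0 hne (x := x)
  rw [← compl_compl (Om (fun x => ‖μ x‖) Λ0)] at hΩ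
  have hs := (uiX_tsum (Om (fun x => ‖μ x‖) Λ0)ᶜ fun x => ‖μ x‖ₑ).trans hΩ
  generalize (Om (fun x => ‖μ x‖) Λ0)ᶜ = F at key hs
  have hη : ∀ i : ℤ, C' * min η (2 ^ (i + 1) / (4 * C')) ≤ 2 ^ (i + 1) / 4 := fun i =>
    (mul_le_mul_of_nonneg_left (min_le_right _ _) (by linarith)).trans
      (le_of_eq (by field_simp))
  generalize hη' : (fun i : ℤ => min η (2 ^ (i + 1) / (4 * C'))) = η'
  simp only [congrFun hη'] at key hη
  have hae : ∀ᵐ x, ∀ i, δ ≤ η' i → DifferentiableAt ℝ (Nm h δ (η' i)) x := by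
    refine ae_all_iff.2 fun i => ?_
    by_cases hi : δ ≤ η' i
    · obtain ⟨L, hL⟩ := lipschitz_Nm hP hδ hi
      exact hL.ae_differentiableAt.mono fun x hx _ => hx
    · exact Eventually.of_forall fun x hx => absurd hx hi
  have h1 : {x | (4 * C' + 1) ^ d * Λ0 < ‖fderiv ℝ (Nm h δ η) x‖} ≤ᵐ[volume]
      (⋃ i, {x | δ ≤ η' i} ∩ (uiX F i ∩
        {x | ‖fderiv ℝ (Nm h δ η) x‖ₑ ≤ ‖fderiv ℝ (Nm h δ (η' i)) x‖ₑ}) : Set (E d)) := by
    filter_upwards [hae] with x hx hx'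
    obtain ⟨i, h1, h2, h3⟩ := key x hx'
    exact mem_iUnion.2 ⟨i, h2, h1, (congrArg enorm (h3 (hx i h2))).le⟩
  refine (lintegral_mono_set' h1).trans ((lintegral_iUnion_le _ _).trans ?_)
  refine (ENNReal.tsum_le_tsum (g := fun i => C * ((∫⁻ x in uiX F (i - 1), ‖μ x‖ₑ) +
    (∫⁻ x in uiX F i, ‖μ x‖ₑ) + ∫⁻ x in uiX F (i + 1), ‖μ x‖ₑ)) fun i => ?_).trans ?_
  · by_cases hi : δ ≤ η' i
    swap
    · simp [hi]
    refine (lintegral_mono_set inter_subset_right).trans ((setLIntegral_mono'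
      ((measurableSet_uiX F i).inter (measurableSet_le (measurable_fderiv ℝ _).enorm
        (measurable_fderiv ℝ _).enorm)) fun x hx => hx.2).trans
      ((lintegral_mono_set inter_subset_left).trans
        ((hme h μ δ _ _ hP hδ hi (measurableSet_uiX F i)).trans ?_)))
    refine mul_le_mul_right ((lintegral_mono_set (uiX_thick F i (hη i))).trans
      ((lintegral_union_le _ _ _).trans ?_)) _
    exact add_le_add_left (lintegral_union_le _ _ _) _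
  · rw [ENNReal.tsum_mul_left, ENNReal.tsum_add, ENNReal.tsum_add]
    have e1 : ∑' i : ℤ, ∫⁻ x in uiX F (i - 1), ‖μ x‖ₑ = ∑' i, ∫⁻ x in uiX F i, ‖μ x‖ₑ :=
      (Equiv.subRight (1 : ℤ)).tsum_eq fun i => ∫⁻ x in uiX F i, ‖μ x‖ₑ
    have e2 : ∑' i : ℤ, ∫⁻ x in uiX F (i + 1), ‖μ x‖ₑ = ∑' i, ∫⁻ x in uiX F i, ‖μ x‖ₑ :=
      (Equiv.addRight (1 : ℤ)).tsum_eq fun i => ∫⁻ x in uiX F i, ‖μ x‖ₑ
    rw [e1, e2]
    calc _ ≤ (C : ℝ≥0∞) * (ε / (3 * C + 1) + ε / (3 * C + 1) + ε / (3 * C + 1)) := by gcongr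
      _ = (3 * C) * (ε / (3 * C + 1)) := by ring
      _ ≤ (3 * C + 1) * (ε / (3 * C + 1)) := by gcongr; exact le_self_add
      _ ≤ ε := ENNReal.mul_div_le

end Vale.Agent.P137
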