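import Vale.Agent.P137.Mart

/-! P137 KL: testing `μ` against Hoelder fields (key lemma).

Notation: `s m = √(len (k+m))`, so `s (m+1) ≤ (3/4) s m`; `Ψ m y = Ψ (g.cor (k+m) y)` (a `Cst (k+m)`
function with `‖Ψ m y - Ψ y‖ ≤ Λ √d s m` and `‖Ψ (m+1) y - Ψ m y‖ ≤ Λ √d s m`, by `norm_cor_sub`,
`norm_sub_le_of_idx` and `√(√d) ≤ √d`); `v m = g.vk μ (k+m)`; `B = 8 √d`.
For an increasing sequence `D m` of `Sat (k+m)` sets inside `S` put
`Π m = ∫_{D m} ⟪Ψ m - B Λ s m • ν, v m⟫`. By `setIntegral_inner_vk`,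
`Π (m+1) - Π m = ∫_{D m} ⟪Ψ (m+1) - Ψ m + B Λ (s m - s (m+1)) • ν, v (m+1)⟫
   + ∫_{D (m+1) \ D m} ⟪Ψ (m+1) - B Λ s (m+1) • ν, v (m+1)⟫`.
The first integrand is `≥ 0` where `v (m+1) ∈ Gd` (as `B (s m - s (m+1))/2 ≥ √d s m`) and always
`≥ -(√d + B) Λ s m ‖v (m+1)‖`. Moreover
`|∫ ⟪Ψ, μ⟫ - Π m| ≤ (sup_{(D m)ᶜ} ‖Ψ‖ + (√d + B) Λ s m) ∫ ‖μ‖` (`setIntegral_inner_vk_mu`).
It is convenient to prove one core lemma in this form and let `m → ∞`.

* `kl_cone`: `D m = {y | ∃ m' ≤ m, Ψ m' y ≠ 0 ∧ B Λ s m' ≤ κ ‖Ψ m' y‖} ⊆ ball z (ρ + √d len k)`. On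
  `D (m+1) \ D m` (and on `D 0`) the integrand is `≥ 0` on `Gd` (cone hypothesis at the corner) and
  `≥ -(‖Ψ (m+1)‖ + B Λ s (m+1)) ‖v‖` always, where `‖Ψ (m+1) y‖ ≤ B Λ s m / κ + √d Λ s m` because
  `y ∉ D m` (and `‖Ψ 0 y‖ ≤ M`). Off `D m`: `‖Ψ y‖ ≤ (B/κ + √d) Λ s m → 0`.
  Finally `s m ≤ (3/4)^m s 0` and `lintegral_BD`.
* `kl_osc`: `D m = D = {y | ∃ u ∈ ball z ρ, idx k u = idx k y}` for all `m`; `Ψ = 0` off `D`;
  `Π 0 ≥ -(M + B Λ s 0) ∫_D ‖v 0‖`. Apply to `Ψ` and `-Ψ`.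
-/

namespace Vale.Agent.P137

open MeasureTheory Metric Set Filter Topology
open scoped ENNReal NNReal RealInnerProductSpace

variable {d : ℕ}

theorem kl_ofReal_integral_le {f : E d → ℝ} (hf : Integrable f) :
    ENNReal.ofReal (∫ y, f y) ≤ ∫⁻ y, ENNReal.ofReal (f y) := by
  have h1 : ∫ y, f y ≤ ∫ y, max (f y) 0 :=
    integral_mono hf hf.pos_part fun y => le_max_left _ _
  refine (ENNReal.ofReal_le_ofReal h1).trans ?_
  rw [ofReal_integral_eq_lintegral_ofReal hf.pos_part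
    (Eventually.of_forall fun y => le_max_right _ _)]
  refine lintegral_mono fun y => le_of_eq ?_
  rcases le_total (f y) 0 with h | h
  · rw [max_eq_right h, ENNReal.ofReal_zero, ENNReal.ofReal_of_nonpos h]
  · rw [max_eq_left h]

theorem kl_pt0 {a ξ : E d} {c : ℝ} (hc : ‖a‖ ≤ c) :
    ENNReal.ofReal (-⟪a, ξ⟫) ≤ ENNReal.ofReal c * ‖ξ‖ₑ := by
  have h0 : 0 ≤ c := (norm_nonneg _).trans hc
  rw [← ofReal_norm, ← ENNReal.ofReal_mul h0]
  refine ENNReal.ofReal_le_ofReal ?_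
  have h1 := abs_real_inner_le_norm a ξ
  have h2 := neg_abs_le ⟪a, ξ⟫
  have h3 := mul_le_mul_of_nonneg_right hc (norm_nonneg ξ)
  linarith

theorem kl_pt (g : Grid d) (μ : E d → E d) {Gd : Set (E d)} (k : ℕ) (y : E d) {a : E d} {c : ℝ}
    (hc : ‖a‖ ≤ c) (h : g.vk μ k y ∈ Gd → 0 ≤ ⟪a, g.vk μ k y⟫) :
    ENNReal.ofReal (-⟪a, g.vk μ k y⟫) ≤ ENNReal.ofReal c * g.bd μ Gd k y := by
  by_cases hm : g.vk μ k y ∈ Gd
  · rw [ENNReal.ofReal_of_nonpos (by linarith [h hm])]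
    exact zero_le
  · rw [g.bd_of_notMem hm]
    exact kl_pt0 hc

theorem kl_core (g : Grid d) {μ : E d → E d} (hμ : Integrable μ) (k : ℕ) (φ : ℕ → E d → E d)
    (Ψ : E d → E d) {M : ℝ} (hM : ∀ y, ‖Ψ y‖ ≤ M) (e : ℕ → ℝ) (he : Tendsto e atTop (𝓝 0))
    (hφ : ∀ m, g.Cst (k + m) (φ m)) (hcl : ∀ m y, ‖φ m y - Ψ y‖ ≤ e m)
    (W : ℕ → E d → ℝ≥0∞)
    (h0 : ∀ y, ENNReal.ofReal (-⟪φ 0 y, g.vk μ k y⟫) ≤ W 0 y)
    (hs : ∀ m y, ENNReal.ofReal (-⟪φ (m + 1) y - φ m y, g.vk μ (k + (m + 1)) y⟫) ≤ W (m + 1) y) :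
    ENNReal.ofReal (-∫ y, ⟪Ψ y, μ y⟫) ≤ ∑' m, ∫⁻ y, W m y := by
  have hb : ∀ m y, ‖φ m y‖ ≤ M + e m := by
    intro m y
    have h1 := norm_add_le (φ m y - Ψ y) (Ψ y)
    rw [sub_add_cancel] at h1
    linarith [hcl m y, hM y]
  have hme : ∀ m, Measurable (φ m) := fun m => (hφ m).measurable
  have hΨ : Measurable Ψ := by
    refine measurable_of_tendsto_metrizable hme (tendsto_pi_nhds.2 fun y => ?_)
    rw [tendsto_iff_norm_sub_tendsto_zero]
    exact squeeze_zero (fun m => norm_nonneg _) (fun m => hcl m y) he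
  have hi : ∀ m, Integrable fun y => ⟪φ m y, μ y⟫ := fun m =>
    Grid.integrable_inner_of_bdd (hme m).aestronglyMeasurable (hb m) hμ
  have hiΨ : Integrable fun y => ⟪Ψ y, μ y⟫ :=
    Grid.integrable_inner_of_bdd hΨ.aestronglyMeasurable hM hμ
  have hind : ∀ m, ENNReal.ofReal (-∫ y, ⟪φ m y, μ y⟫) ≤
      ∑ i ∈ Finset.range (m + 1), ∫⁻ y, W i y := by
    intro m
    induction m with
    | zero =>
      rw [Finset.sum_range_one, ← g.integral_inner_vk hμ (hφ 0) (hb 0), ← integral_neg]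
      refine (kl_ofReal_integral_le (Grid.integrable_inner_of_bdd (hme 0).aestronglyMeasurable
        (hb 0) (g.integrable_vk hμ _)).neg).trans ?_
      exact lintegral_mono h0
    | succ m ih =>
      have hc : g.Cst (k + (m + 1)) fun y => φ (m + 1) y - φ m y := by
        intro y u hyu
        have h1 := hφ (m + 1) y u hyu
        have h2 := (hφ m).mono (show k + m ≤ k + (m + 1) by omega) y u hyu
        simp only [h1, h2]
      have hbb : ∀ y, ‖φ (m + 1) y - φ m y‖ ≤ (M + e (m + 1)) + (M + e m) := fun y =>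
        (norm_sub_le _ _).trans (add_le_add (hb _ y) (hb _ y))
      have hsp : -∫ y, ⟪φ (m + 1) y, μ y⟫ = (-∫ y, ⟪φ m y, μ y⟫) +
          ∫ y, -⟪φ (m + 1) y - φ m y, g.vk μ (k + (m + 1)) y⟫ := by
        rw [integral_neg, g.integral_inner_vk hμ hc hbb]
        simp only [inner_sub_left]
        rw [integral_sub (hi _) (hi _)]
        ring
      rw [hsp, Finset.sum_range_succ]
      refine ENNReal.ofReal_add_le.trans (add_le_add ih ?_)
      refine (kl_ofReal_integral_le (Grid.integrable_inner_of_bdd hc.measurable.aestronglyMeasurable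
        hbb (g.integrable_vk hμ _)).neg).trans ?_
      exact lintegral_mono (hs m)
  have hlim : Tendsto (fun m => ∫ y, ⟪φ m y, μ y⟫) atTop (𝓝 (∫ y, ⟪Ψ y, μ y⟫)) := by
    rw [tendsto_iff_norm_sub_tendsto_zero]
    have h1 : Tendsto (fun m => e m * ∫ y, ‖μ y‖) atTop (𝓝 0) := by
      simpa using he.mul_const (∫ y, ‖μ y‖)
    refine squeeze_zero (fun m => norm_nonneg _) (fun m => ?_) h1
    rw [← integral_sub (hi m) hiΨ, ← integral_const_mul]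
    refine norm_integral_le_of_norm_le (hμ.norm.const_mul _) (Eventually.of_forall fun y => ?_)
    rw [← inner_sub_left]
    exact (norm_inner_le_norm _ _).trans (mul_le_mul_of_nonneg_right (hcl m y) (norm_nonneg _))
  refine le_of_tendsto' (ENNReal.tendsto_ofReal hlim.neg) fun m => (hind m).trans ?_
  exact ENNReal.sum_le_tsum _

theorem kl_sqrt_len (g : Grid d) (k m : ℕ) : √(g.len (k + m)) ≤ (3 / 4) ^ m * √(g.len k) := by
  induction m with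
  | zero => simp
  | succ m ih =>
    have h1 : g.len (k + (m + 1)) = g.len (k + m) / 2 := g.len_succ (k + m)
    have h2 := (g.len_pos (k + m)).le
    have h3 : √(g.len (k + (m + 1))) ≤ 3 / 4 * √(g.len (k + m)) := by
      rw [h1]
      refine Real.sqrt_le_iff.2 ⟨by positivity, ?_⟩
      rw [mul_pow, Real.sq_sqrt h2]
      linarith
    rw [pow_succ]
    nlinarith

theorem kl_hol (hd : 0 < d) (g : Grid d) {Ψ : E d → E d} {Λ : ℝ} (hΛ : 0 ≤ Λ)
    (hH : ∀ y y', ‖Ψ y - Ψ y'‖ ≤ Λ * √‖y - y'‖) (k m : ℕ) {y u : E d}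
    (h : g.idx (k + m) y = g.idx (k + m) u) :
    ‖Ψ y - Ψ u‖ ≤ Λ * √(d : ℝ) * √(g.len k) * (3 / 4) ^ m := by
  have hq := one_le_sqrt hd
  have h1 : √‖y - u‖ ≤ √(d : ℝ) * √(g.len (k + m)) := by
    refine Real.sqrt_le_iff.2 ⟨by positivity, ?_⟩
    rw [mul_pow, Real.sq_sqrt (g.len_pos _).le]
    refine (g.norm_sub_le_of_idx h).trans (mul_le_mul_of_nonneg_right ?_ (g.len_pos _).le)
    nlinarith
  have h2 := mul_le_mul_of_nonneg_left (kl_sqrt_len g k m) (Real.sqrt_nonneg (d : ℝ))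
  calc ‖Ψ y - Ψ u‖ ≤ Λ * √‖y - u‖ := hH y u
    _ ≤ Λ * (√(d : ℝ) * ((3 / 4) ^ m * √(g.len k))) := mul_le_mul_of_nonneg_left (h1.trans h2) hΛ
    _ = _ := by ring

theorem kl_main (g : Grid d) {μ : E d → E d} (hμ : Integrable μ) {ν : E d} {Gd : Set (E d)}
    (hG : Cone ν Gd) (k : ℕ) {Ψ : E d → E d} {M l K c : ℝ} (hM : ∀ y, ‖Ψ y‖ ≤ M) (hl : 0 ≤ l)
    (hK : 0 ≤ K) (hH : ∀ m y u, g.idx (k + m) y = g.idx (k + m) u → ‖Ψ y - Ψ u‖ ≤ l * (3 / 4) ^ m)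
    (hc : 4 / 3 * (K + 7) * l ≤ c) {S : Set (E d)} (hS : MeasurableSet S)
    (D : ℕ → Set (E d)) (hD : ∀ m, g.Sat (k + m) (D m)) (hmono : ∀ m, D m ⊆ D (m + 1))
    (hDS : ∀ m, D m ⊆ S)
    (hnew : ∀ m y, y ∈ D (m + 1) → y ∉ D m → ∀ ξ ∈ Gd,
      0 ≤ ⟪Ψ (g.cor (k + (m + 1)) y) - (8 * (l * (3 / 4) ^ (m + 1))) • ν, ξ⟫)
    (hoff : ∀ m y, y ∉ D m → ‖Ψ (g.cor (k + m) y)‖ ≤ K * (l * (3 / 4) ^ m))
    (X : E d → ℝ≥0∞) (hX : Measurable X)
    (h0 : ∀ y ∈ D 0, ENNReal.ofReal (-⟪Ψ (g.cor k y) - (8 * l) • ν, g.vk μ k y⟫) ≤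
      ENNReal.ofReal c * (X y + g.bd μ Gd k y)) :
    ENNReal.ofReal (-∫ y, ⟪Ψ y, μ y⟫) ≤
      ENNReal.ofReal c * ∫⁻ y in S, (X y + g.BD μ Gd k y) := by
  classical
  have hlam : ∀ m : ℕ, 0 ≤ l * (3 / 4 : ℝ) ^ m := fun m => by positivity
  have hν : ∀ t : ℝ, 0 ≤ t → ‖t • ν‖ ≤ t := fun t ht => by
    rw [norm_smul, Real.norm_of_nonneg ht]
    exact mul_le_of_le_one_right ht hG.norm_le
  have hc0 : 0 ≤ c := le_trans (by positivity) hc
  have key := kl_core g hμ k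
    (fun m => (D m).indicator fun y => Ψ (g.cor (k + m) y) - (8 * (l * (3 / 4) ^ m)) • ν) Ψ hM
    (fun m => (K + 9) * (l * (3 / 4) ^ m)) ?_ ?_ ?_
    (fun m y => ENNReal.ofReal c * (S.indicator (fun y => (if m = 0 then X y else 0) +
      (3 / 4 : ℝ≥0∞) ^ m * g.bd μ Gd (k + m) y) y)) ?_ ?_
  · refine key.trans (le_of_eq ?_)
    have h1 : ∀ m : ℕ, ∫⁻ y, ENNReal.ofReal c * (S.indicator (fun y => (if m = 0 then X y else 0) +
        (3 / 4 : ℝ≥0∞) ^ m * g.bd μ Gd (k + m) y) y) =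
        ENNReal.ofReal c * ((if m = 0 then ∫⁻ y in S, X y else 0) +
          (3 / 4 : ℝ≥0∞) ^ m * ∫⁻ y in S, g.bd μ Gd (k + m) y) := by
      intro m
      rw [lintegral_const_mul' _ _ ENNReal.ofReal_ne_top, lintegral_indicator hS,
        lintegral_add_right _ ((g.measurable_bd Gd _).const_mul _),
        lintegral_const_mul _ (g.measurable_bd Gd _)]
      by_cases hm : m = 0
      · simp only [hm, if_true]
      · simp only [hm, if_false, lintegral_zero]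
    simp only [h1]
    rw [ENNReal.tsum_mul_left, ENNReal.tsum_add, tsum_ite_eq, ← g.lintegral_BD,
      lintegral_add_left hX]
  · have h1 : Tendsto (fun m : ℕ => (3 / 4 : ℝ) ^ m) atTop (𝓝 0) :=
      tendsto_pow_atTop_nhds_zero_of_lt_one (by norm_num) (by norm_num)
    simpa using (h1.const_mul l).const_mul (K + 9)
  · intro m
    refine Grid.Cst.indicator (fun y u hyu => ?_) (hD m)
    simp only [g.cst_cor (k + m) y u hyu]
  · intro m y
    have h1 := hH m _ _ (g.idx_cor (k + m) y)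
    have h3 := hlam m
    by_cases hy : y ∈ D m
    · rw [indicator_of_mem hy, sub_right_comm]
      refine (norm_sub_le _ _).trans ?_
      have h2 := hν (8 * (l * (3 / 4) ^ m)) (by positivity)
      nlinarith
    · rw [indicator_of_notMem hy, zero_sub, norm_neg]
      have h2 := norm_sub_norm_le (Ψ y) (Ψ (g.cor (k + m) y))
      rw [norm_sub_rev] at h2
      have h4 := hoff m y hy
      nlinarith
  · intro y
    by_cases hy : y ∈ D 0
    · rw [indicator_of_mem hy, indicator_of_mem (hDS 0 hy)]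
      simpa using h0 y hy
    · rw [indicator_of_notMem hy]
      simp
  · intro m y
    have h3 := hlam m
    have hp : l * (3 / 4 : ℝ) ^ (m + 1) = 3 / 4 * (l * (3 / 4) ^ m) := by ring
    have hcc : (K + 7) * (l * (3 / 4 : ℝ) ^ m) ≤ c * (3 / 4) ^ (m + 1) := by
      have h5 := mul_le_mul_of_nonneg_right hc (show (0 : ℝ) ≤ (3 / 4) ^ (m + 1) by positivity)
      refine le_trans (le_of_eq ?_) h5
      ring
    have hconv : ENNReal.ofReal (c * (3 / 4) ^ (m + 1)) * g.bd μ Gd (k + (m + 1)) y =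
        ENNReal.ofReal c * ((if m + 1 = 0 then X y else 0) +
          (3 / 4 : ℝ≥0∞) ^ (m + 1) * g.bd μ Gd (k + (m + 1)) y) := by
      rw [if_neg (Nat.succ_ne_zero m), zero_add, ENNReal.ofReal_mul hc0,
        ENNReal.ofReal_pow (by norm_num), ENNReal.ofReal_div_of_pos (by norm_num), mul_assoc]
      simp
    have hδ : ‖Ψ (g.cor (k + (m + 1)) y) - Ψ (g.cor (k + m) y)‖ ≤ l * (3 / 4) ^ m := by
      refine hH m _ _ ?_
      rw [g.idx_cor, g.idx_mono (show k + m ≤ k + (m + 1) by omega) (g.idx_cor _ y)]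
    by_cases hy : y ∈ D m
    · rw [indicator_of_mem hy, indicator_of_mem (hmono m hy), indicator_of_mem (hDS m hy), ← hconv]
      have he : Ψ (g.cor (k + (m + 1)) y) - (8 * (l * (3 / 4) ^ (m + 1))) • ν -
          (Ψ (g.cor (k + m) y) - (8 * (l * (3 / 4) ^ m)) • ν) =
          (Ψ (g.cor (k + (m + 1)) y) - Ψ (g.cor (k + m) y)) + (2 * (l * (3 / 4) ^ m)) • ν := by
        rw [hp]
        module
      rw [he]
      refine kl_pt g μ _ y ?_ fun hm => ?_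
      · refine (norm_add_le _ _).trans (le_trans ?_ hcc)
        have h2 := hν (2 * (l * (3 / 4) ^ m)) (by positivity)
        nlinarith
      · rw [inner_add_left, real_inner_smul_left]
        have h4 := hG.le _ hm
        have h5 := abs_real_inner_le_norm (Ψ (g.cor (k + (m + 1)) y) - Ψ (g.cor (k + m) y))
          (g.vk μ (k + (m + 1)) y)
        have h6 := neg_abs_le ⟪Ψ (g.cor (k + (m + 1)) y) - Ψ (g.cor (k + m) y),
          g.vk μ (k + (m + 1)) y⟫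
        have h7 := mul_le_mul_of_nonneg_right hδ (norm_nonneg (g.vk μ (k + (m + 1)) y))
        have h8 := mul_le_mul_of_nonneg_left h4 h3
        nlinarith
    · rw [indicator_of_notMem hy, sub_zero]
      by_cases hy' : y ∈ D (m + 1)
      · rw [indicator_of_mem hy', indicator_of_mem (hDS _ hy'), ← hconv]
        refine kl_pt g μ _ y ?_ fun hm => hnew m y hy' hy _ hm
        refine (norm_sub_le _ _).trans (le_trans ?_ hcc)
        have h2 := hν (8 * (l * (3 / 4) ^ (m + 1))) (by positivity)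
        have h4 := hoff m y hy
        have h5 := norm_sub_norm_le (Ψ (g.cor (k + (m + 1)) y)) (Ψ (g.cor (k + m) y))
        nlinarith
      · rw [indicator_of_notMem hy']
        simp

theorem kl_cone (hd : 0 < d) {κ : ℝ} (hκ : 0 < κ) : ∃ C : ℝ≥0, ∀ (g : Grid d) (μ : E d → E d)
    (ν : E d) (Gd : Set (E d)) (Ψ : E d → E d) (M Λ : ℝ) (z : E d) (ρ : ℝ) (k : ℕ),
    Integrable μ → Cone ν Gd → 0 ≤ Λ → (∀ y, ‖Ψ y‖ ≤ M) →
    (∀ y y', ‖Ψ y - Ψ y'‖ ≤ Λ * √‖y - y'‖) → (∀ y, y ∉ ball z ρ → Ψ y = 0) →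
    (∀ y, ∀ ξ ∈ Gd, κ * (‖Ψ y‖ * ‖ξ‖) ≤ ⟪Ψ y, ξ⟫) →
    ENNReal.ofReal (-∫ y, ⟪Ψ y, μ y⟫) ≤ C * ENNReal.ofReal (M + Λ * √(g.len k)) *
      ∫⁻ y in ball z (ρ + √(d : ℝ) * g.len k), g.BD μ Gd k y := by
  have hq := one_le_sqrt hd
  have hK : 0 ≤ 8 / κ := by positivity
  refine ⟨Real.toNNReal ((4 / 3 * (8 / κ + 7) + 8) * √(d : ℝ)), ?_⟩
  intro g μ ν Gd Ψ M Λ z ρ k hμ hG hΛ hM hH hz hcone
  have hM0 : 0 ≤ M := (norm_nonneg _).trans (hM 0)
  have hs : 0 ≤ Λ * √(g.len k) := by positivity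
  have hl : 0 ≤ Λ * √(d : ℝ) * √(g.len k) := by positivity
  have hC : 0 ≤ (4 / 3 * (8 / κ + 7) + 8) * √(d : ℝ) := by positivity
  have hpos : ∀ (y : E d) (t : ℝ), 0 ≤ t → t ≤ κ * ‖Ψ y‖ → ∀ ξ ∈ Gd, 0 ≤ ⟪Ψ y - t • ν, ξ⟫ := by
    intro y t ht h ξ hξ
    rw [inner_sub_left, real_inner_smul_left]
    have h1 := hcone y ξ hξ
    have h2 : ⟪ν, ξ⟫ ≤ ‖ξ‖ := (real_inner_le_norm _ _).trans
      (mul_le_of_le_one_left (norm_nonneg _) hG.norm_le)
    have h3 := mul_le_mul_of_nonneg_left h2 ht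
    have h4 := mul_le_mul_of_nonneg_right h (norm_nonneg ξ)
    nlinarith
  have key := kl_main g hμ hG k (l := Λ * √(d : ℝ) * √(g.len k)) (K := 8 / κ)
    (c := (4 / 3 * (8 / κ + 7) + 8) * √(d : ℝ) * (M + Λ * √(g.len k))) hM hl hK
    (fun m y u h => kl_hol hd g hΛ hH k m h) ?_
    (measurableSet_ball (x := z) (ε := ρ + √(d : ℝ) * g.len k))
    (fun m => {y | ∃ m' ≤ m, Ψ (g.cor (k + m') y) ≠ 0 ∧
      8 * (Λ * √(d : ℝ) * √(g.len k) * (3 / 4) ^ m') ≤ κ * ‖Ψ (g.cor (k + m') y)‖})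
    ?_ ?_ ?_ ?_ ?_ (fun _ => 0) measurable_const ?_
  · rw [ENNReal.ofReal_mul hC] at key
    simp only [zero_add] at key
    exact key
  · nlinarith [mul_nonneg hC hM0]
  · rintro m y u hyu ⟨m', hm', h⟩
    refine ⟨m', hm', ?_⟩
    rw [← g.cst_cor (k + m') y u (g.idx_mono (by omega) hyu)]
    exact h
  · rintro m y ⟨m', hm', h⟩
    exact ⟨m', by omega, h⟩
  · rintro m y ⟨m', -, h, -⟩
    have h1 : g.cor (k + m') y ∈ ball z ρ := by
      by_contra h1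
      exact h (hz _ h1)
    have h2 := g.norm_cor_sub (k + m') y
    have h3 := mul_le_mul_of_nonneg_left (g.len_anti (show k ≤ k + m' by omega))
      (Real.sqrt_nonneg (d : ℝ))
    rw [mem_ball, dist_eq_norm] at h1 ⊢
    have h4 := norm_sub_le_norm_sub_add_norm_sub y (g.cor (k + m') y) z
    rw [norm_sub_rev y (g.cor (k + m') y)] at h4
    linarith
  · rintro m y ⟨m', hm', h⟩ hy
    have h1 : m' = m + 1 := by
      by_contra h1
      exact hy ⟨m', by omega, h⟩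
    rw [h1] at h
    exact hpos _ _ (by positivity) h.2
  · intro m y hy
    by_cases h : Ψ (g.cor (k + m) y) = 0
    · rw [h, norm_zero]
      positivity
    · have h1 : κ * ‖Ψ (g.cor (k + m) y)‖ ≤ 8 * (Λ * √(d : ℝ) * √(g.len k) * (3 / 4) ^ m) := by
        by_contra h1
        exact hy ⟨m, le_rfl, h, (not_le.1 h1).le⟩
      rw [div_mul_eq_mul_div, le_div_iff₀ hκ]
      linarith
  · rintro y ⟨m', hm', h⟩
    have h1 : m' = 0 := by omega
    rw [h1, pow_zero, mul_one, add_zero] at h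
    rw [zero_add]
    refine kl_pt g μ k y ?_ (hpos _ _ (by positivity) h.2 _)
    refine (norm_sub_le _ _).trans ?_
    have h2 : ‖(8 * (Λ * √(d : ℝ) * √(g.len k))) • ν‖ ≤ 8 * (Λ * √(d : ℝ) * √(g.len k)) := by
      rw [norm_smul, Real.norm_of_nonneg (by positivity)]
      exact mul_le_of_le_one_right (by positivity) hG.norm_le
    have h3 := hM (g.cor k y)
    have h4 : M ≤ (4 / 3 * (8 / κ + 7) + 8) * √(d : ℝ) * M :=
      le_mul_of_one_le_left hM0 (by nlinarith)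
    nlinarith [mul_nonneg hK hl]

theorem kl_osc_aux (hd : 0 < d) (g : Grid d) (μ : E d → E d)
    (ν : E d) (Gd : Set (E d)) (Ψ : E d → E d) (M Λ : ℝ) (z : E d) (ρ : ℝ) (k : ℕ)
    (hμ : Integrable μ) (hG : Cone ν Gd) (hΛ : 0 ≤ Λ) (hM : ∀ y, ‖Ψ y‖ ≤ M)
    (hH : ∀ y y', ‖Ψ y - Ψ y'‖ ≤ Λ * √‖y - y'‖) (hz : ∀ y, y ∉ ball z ρ → Ψ y = 0) :
    ENNReal.ofReal (-∫ y, ⟪Ψ y, μ y⟫) ≤ ENNReal.ofReal (10 * √(d : ℝ) * (M + Λ * √(g.len k))) *
      ∫⁻ y in ball z (ρ + √(d : ℝ) * g.len k), (‖g.vk μ k y‖ₑ + g.BD μ Gd k y) := by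
  have hq := one_le_sqrt hd
  have hM0 : 0 ≤ M := (norm_nonneg _).trans (hM 0)
  have hs : 0 ≤ Λ * √(g.len k) := by positivity
  have hl : 0 ≤ Λ * √(d : ℝ) * √(g.len k) := by positivity
  refine kl_main g hμ hG k (l := Λ * √(d : ℝ) * √(g.len k)) (K := 0) hM hl le_rfl
    (fun m y u h => kl_hol hd g hΛ hH k m h) ?_ measurableSet_ball
    (fun _ => {y | ∃ u ∈ ball z ρ, g.idx k u = g.idx k y})
    ?_ (fun _ => subset_rfl) ?_ (fun m y h h' => absurd h h') ?_ _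
    (g.measurable_vk μ k).enorm ?_
  · nlinarith [mul_nonneg (Real.sqrt_nonneg (d : ℝ)) hM0]
  · rintro m y u hyu ⟨w, hw, h⟩
    exact ⟨w, hw, h.trans (g.idx_mono (Nat.le_add_right k m) hyu)⟩
  · rintro m y ⟨w, hw, h⟩
    have h2 := g.norm_sub_le_of_idx h
    rw [mem_ball, dist_eq_norm] at hw ⊢
    have h4 := norm_sub_le_norm_sub_add_norm_sub y w z
    rw [norm_sub_rev y w] at h4
    linarith
  · intro m y hy
    rw [hz (g.cor (k + m) y) fun h =>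
      hy ⟨_, h, g.idx_mono (Nat.le_add_right k m) (g.idx_cor (k + m) y)⟩, norm_zero, zero_mul]
  · intro y _
    refine le_trans (kl_pt0 ?_) (mul_le_mul_right le_self_add _)
    refine (norm_sub_le _ _).trans ?_
    have h2 : ‖(8 * (Λ * √(d : ℝ) * √(g.len k))) • ν‖ ≤ 8 * (Λ * √(d : ℝ) * √(g.len k)) := by
      rw [norm_smul, Real.norm_of_nonneg (by positivity)]
      exact mul_le_of_le_one_right (by positivity) hG.norm_le
    have h3 := hM (g.cor k y)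
    have h4 : M ≤ 10 * √(d : ℝ) * M := le_mul_of_one_le_left hM0 (by nlinarith)
    nlinarith

theorem kl_osc (hd : 0 < d) : ∃ C : ℝ≥0, ∀ (g : Grid d) (μ : E d → E d)
    (ν : E d) (Gd : Set (E d)) (Ψ : E d → E d) (M Λ : ℝ) (z : E d) (ρ : ℝ) (k : ℕ),
    Integrable μ → Cone ν Gd → 0 ≤ Λ → (∀ y, ‖Ψ y‖ ≤ M) →
    (∀ y y', ‖Ψ y - Ψ y'‖ ≤ Λ * √‖y - y'‖) → (∀ y, y ∉ ball z ρ → Ψ y = 0) →
    ENNReal.ofReal |∫ y, ⟪Ψ y, μ y⟫| ≤ C * ENNReal.ofReal (M + Λ * √(g.len k)) *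
      ∫⁻ y in ball z (ρ + √(d : ℝ) * g.len k), (‖g.vk μ k y‖ₑ + g.BD μ Gd k y) := by
  refine ⟨Real.toNNReal (10 * √(d : ℝ)), ?_⟩
  intro g μ ν Gd Ψ M Λ z ρ k hμ hG hΛ hM hH hz
  have hC : 0 ≤ 10 * √(d : ℝ) := by positivity
  have h1 := kl_osc_aux hd g μ ν Gd Ψ M Λ z ρ k hμ hG hΛ hM hH hz
  have h2 := kl_osc_aux hd g μ ν Gd (fun y => -Ψ y) M Λ z ρ k hμ hG hΛ
    (fun y => by rw [norm_neg]; exact hM y)
    (fun y y' => by rw [neg_sub_neg, norm_sub_rev]; exact hH y y')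
    (fun y hy => by rw [hz y hy, neg_zero])
  simp only [inner_neg_left, integral_neg, neg_neg] at h2
  rw [ENNReal.ofReal_mul hC] at h1 h2
  rcases abs_choice (∫ y, ⟪Ψ y, μ y⟫) with h | h
  · rw [h]
    exact h2
  · rw [h]
    exact h1

end Vale.Agent.P137
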