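import Vale.Agent.P137.Field
import Vale.Agent.P137.KL

/-! P137 Flat: flatness and oscillation estimates. `R = g.R j`, `k = j + aa d`, `r0 = c0 d * R`;
`√d len k ≤ R / 2000` (`len_aa_le`), `len k ≤ R`.

* `flat`: `T = fld z r (z+w) r = ((om r^d)⁻¹ th) • w` (`fld_trans`), `Nf = fld z r y r0`
  (`nested_field`, constant `C1`). With `κ0 = be d / 16`: `⟪T p, ξ⟫ ≥ (om r^d)⁻¹ th κ0 R ‖ξ‖` on `Gd`,
  `‖T p‖ ≤ (om r^d)⁻¹ th R`, `‖Nf p‖ ≤ C1/R^d * r * th ≤ C1 R th / R^d` (`th_lower`), and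
  `(om r^d)⁻¹ ≥ (om R^d)⁻¹`. For `A = 2 C1 om / κ0` the fields `A • T ± Nf` satisfy the cone condition
  of `kl_cone` with `κ = κ0 / 4` (`‖Nf‖ ≤ (κ0/2) A (om r^d)⁻¹ th R`, `κ0 ≤ 1`), so does `T`. All vanish
  off `ball z (2 r)` (`fld_eq_zero`), are bounded by `C R/R^d` and Hoelder with `Λ = C √R / R^d`
  (`th_holder`, `r^d ≥ R^d/2^d`). `Pair.eq` with `c = y`, `ρ = 6 R` gives
  `∫⟪T, μ⟫ = av (z+w) r - av z r ≤ 0` and `∫⟪Nf, μ⟫ = av y r0 - av z r`. Hence
  `|av y r0 - av z r| ≤ err` and `0 ≤ av z r - lam ≤ av z r - av (z+w) r ≤ err`; and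
  `ball z (2 r + √d len k) ⊆ ball y (6 R)`.
* `osc`: each of the balls `(z1,r1)`, `(z2,r2)`, `(y,r0)` is nested in `(y, 5 R)` with gap `≥ R`;
  `kl_osc` for `fld y (5R) · ·` bounds the three differences `|av · - av y (5R)|` by `err`, so
  `|lam - av y r0| ≤ 2 err`.
-/

namespace Vale.Agent.P137

open MeasureTheory Metric Set Filter Topology
open scoped ENNReal NNReal RealInnerProductSpace

variable {d : ℕ}

theorem Near.mono {h : E d → ℝ} {C C' : ℝ≥0} {R : ℝ} {w w' : E d → ℝ≥0∞} {lam : ℝ} {y : E d}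
    (hN : Near h C R w lam y) (hC : C ≤ C') (hw : ∀ u ∈ ball y (6 * R), w u ≤ w' u) :
    Near h C' R w' lam y := by
  unfold Near at hN ⊢
  refine hN.trans (mul_le_mul' (mul_le_mul' (ENNReal.coe_le_coe.2 hC) le_rfl) ?_)
  exact setLIntegral_mono' measurableSet_ball hw

theorem flat_scale (hd : 0 < d) (g : Grid d) (j : ℕ) :
    √(d : ℝ) * g.len (j + aa d) ≤ g.R j ∧ g.len (j + aa d) ≤ g.R j := by
  have h1 := g.len_aa_le j
  have h2 := one_le_sqrt hd
  have h3 := g.len_pos (j + aa d)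
  have h4 : g.len (j + aa d) ≤ √(d : ℝ) * g.len (j + aa d) := le_mul_of_one_le_left h3.le h2
  constructor <;> nlinarith

theorem flat_holder {R D : ℝ} (hR : 0 < R) (ε : ℝ) :
    D / R ^ d * √(R * ε) = D / R ^ d * √R * √ε := by
  rw [Real.sqrt_mul hR.le, mul_assoc]

theorem flat_total (hd : 0 < d) (g : Grid d) (j : ℕ) {D : ℝ} (hD : 0 ≤ D) :
    ENNReal.ofReal (D * (g.R j / g.R j ^ d) + D / g.R j ^ d * √(g.R j) * √(g.len (j + aa d))) ≤
      2 * ENNReal.ofReal D * ENNReal.ofReal (g.R j / g.R j ^ d) := by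
  have hR := g.R_pos j
  have h1 : √(g.R j) * √(g.len (j + aa d)) ≤ g.R j := by
    calc √(g.R j) * √(g.len (j + aa d)) ≤ √(g.R j) * √(g.R j) :=
          mul_le_mul_of_nonneg_left (Real.sqrt_le_sqrt (flat_scale hd g j).2) (Real.sqrt_nonneg _)
      _ = g.R j := Real.mul_self_sqrt hR.le
  have h2 : D / g.R j ^ d * √(g.R j) * √(g.len (j + aa d)) ≤ D * (g.R j / g.R j ^ d) := by
    rw [mul_assoc]
    refine (mul_le_mul_of_nonneg_left h1 (by positivity)).trans (le_of_eq ?_)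
    ring
  rw [← ENNReal.ofReal_ofNat 2, ← ENNReal.ofReal_mul (by norm_num),
    ← ENNReal.ofReal_mul (by positivity)]
  exact ENNReal.ofReal_le_ofReal (by linarith)

theorem flat_ball (hd : 0 < d) (g : Grid d) (j : ℕ) (y : E d) :
    ball y (5 * g.R j + √(d : ℝ) * g.len (j + aa d)) ⊆ ball y (6 * g.R j) :=
  ball_subset_ball (by linarith [(flat_scale hd g j).1])

theorem flat_kc (hd : 0 < d) {κ : ℝ} (hκ : 0 < κ) : ∃ C : ℝ≥0, ∀ (g : Grid d) (μ : E d → E d)
    (ν : E d) (Gd : Set (E d)) (Ψ : E d → E d) (D : ℝ) (y : E d) (j : ℕ),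
    Integrable μ → Cone ν Gd → 0 ≤ D → (∀ p, ‖Ψ p‖ ≤ D * (g.R j / g.R j ^ d)) →
    (∀ p p', ‖Ψ p - Ψ p'‖ ≤ D / g.R j ^ d * √(g.R j * ‖p - p'‖)) →
    (∀ p, p ∉ ball y (5 * g.R j) → Ψ p = 0) →
    (∀ p, ∀ ξ ∈ Gd, κ * (‖Ψ p‖ * ‖ξ‖) ≤ ⟪Ψ p, ξ⟫) →
    ENNReal.ofReal (-∫ p, ⟪Ψ p, μ p⟫) ≤ C * ENNReal.ofReal D * ENNReal.ofReal (g.R j / g.R j ^ d) *
      ∫⁻ u in ball y (6 * g.R j), g.BD μ Gd (j + aa d) u := by
  obtain ⟨C, hC⟩ := kl_cone hd hκ
  refine ⟨C * 2, fun g μ ν Gd Ψ D y j hμ hG hD h1 h2 h3 h4 => ?_⟩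
  have hR := g.R_pos j
  refine (hC g μ ν Gd Ψ (D * (g.R j / g.R j ^ d)) (D / g.R j ^ d * √(g.R j)) y (5 * g.R j)
    (j + aa d) hμ hG (by positivity) h1 (fun p p' => ?_) h3 h4).trans ?_
  · rw [← flat_holder hR]
    exact h2 p p'
  · refine mul_le_mul' ?_ (lintegral_mono_set (flat_ball hd g j y))
    refine (mul_le_mul' le_rfl (flat_total hd g j hD)).trans (le_of_eq ?_)
    push_cast
    ring

theorem flat_ko (hd : 0 < d) : ∃ C : ℝ≥0, ∀ (g : Grid d) (μ : E d → E d)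
    (ν : E d) (Gd : Set (E d)) (Ψ : E d → E d) (D : ℝ) (y : E d) (j : ℕ),
    Integrable μ → Cone ν Gd → 0 ≤ D → (∀ p, ‖Ψ p‖ ≤ D * (g.R j / g.R j ^ d)) →
    (∀ p p', ‖Ψ p - Ψ p'‖ ≤ D / g.R j ^ d * √(g.R j * ‖p - p'‖)) →
    (∀ p, p ∉ ball y (5 * g.R j) → Ψ p = 0) →
    ENNReal.ofReal |∫ p, ⟪Ψ p, μ p⟫| ≤ C * ENNReal.ofReal D * ENNReal.ofReal (g.R j / g.R j ^ d) *
      ∫⁻ u in ball y (6 * g.R j), (‖g.vk μ (j + aa d) u‖ₑ + g.BD μ Gd (j + aa d) u) := by
  obtain ⟨C, hC⟩ := kl_osc hd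
  refine ⟨C * 2, fun g μ ν Gd Ψ D y j hμ hG hD h1 h2 h3 => ?_⟩
  have hR := g.R_pos j
  refine (hC g μ ν Gd Ψ (D * (g.R j / g.R j ^ d)) (D / g.R j ^ d * √(g.R j)) y (5 * g.R j)
    (j + aa d) hμ hG (by positivity) h1 (fun p p' => ?_) h3).trans ?_
  · rw [← flat_holder hR]
    exact h2 p p'
  · refine mul_le_mul' ?_ (lintegral_mono_set (flat_ball hd g j y))
    refine (mul_le_mul' le_rfl (flat_total hd g j hD)).trans (le_of_eq ?_)
    push_cast
    ring

theorem flat_cone {w N ξ : E d} {b R κ : ℝ} (hb : 0 ≤ b) (hκ : 0 ≤ κ) (hκ1 : κ ≤ 1) (hw : ‖w‖ ≤ R)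
    (hξ : κ * R * ‖ξ‖ ≤ ⟪w, ξ⟫) (hN : ‖N‖ ≤ κ / 2 * (b * R)) :
    κ / 4 * (‖b • w + N‖ * ‖ξ‖) ≤ ⟪b • w + N, ξ⟫ := by
  have hR : 0 ≤ R := (norm_nonneg w).trans hw
  have hX : 0 ≤ b * R := mul_nonneg hb hR
  have hx := norm_nonneg ξ
  have h1 : ‖b • w + N‖ ≤ 2 * (b * R) := by
    refine (norm_add_le _ _).trans ?_
    rw [norm_smul, Real.norm_eq_abs, abs_of_nonneg hb]
    have := mul_le_mul_of_nonneg_left hw hb
    nlinarith
  have h2 : -(κ / 2 * (b * R) * ‖ξ‖) ≤ ⟪N, ξ⟫ := by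
    have a := abs_real_inner_le_norm N ξ
    have b' := mul_le_mul_of_nonneg_right hN hx
    linarith [neg_abs_le ⟪N, ξ⟫]
  rw [inner_add_left, real_inner_smul_left]
  have h3 := mul_le_mul_of_nonneg_left hξ hb
  have h4 := mul_le_mul_of_nonneg_left (mul_le_mul_of_nonneg_right h1 hx)
    (show 0 ≤ κ / 4 by positivity)
  nlinarith

theorem flat_int {μ : E d → E d} (hμ : Integrable μ) {z z' : E d} {r r' : ℝ} (hr : 0 < r)
    (hr' : 0 < r') : Integrable fun p => ⟪fld z r z' r' p, μ p⟫ :=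
  Grid.integrable_inner_of_bdd (measurable_fld z r z' r').aestronglyMeasurable
    (fld_bound hr hr') hμ

theorem flat (hd : 0 < d) : ∃ C : ℝ≥0, ∀ (h : E d → ℝ) (μ : E d → E d) (O : Set (E d))
    (g : Grid d) (ν : E d) (Gd : Set (E d)) (j : ℕ) (z w y : E d) (r lam : ℝ),
    Pair h μ O → Cone ν Gd → g.R j / 2 ≤ r → r ≤ g.R j → ‖w‖ ≤ r →
    (∀ ξ ∈ Gd, be d / 16 * g.R j * ‖ξ‖ ≤ ⟪w, ξ⟫) →
    ball y (6 * g.R j) ⊆ O → ‖y - z‖ + 2 * (c0 d * g.R j) ≤ r →
    av h (z + w) r ≤ lam → lam ≤ av h z r →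
    Near h C (g.R j) (g.BD μ Gd (j + aa d)) lam y := by
  have hbe := be_pos hd
  have hbe1 := be_le hd
  have hc := c0_pos hd
  have hc1 := c0_le hd
  have ho : 0 < om d := om_pos
  set κ : ℝ := be d / 16 with hκ
  have hκ0 : 0 < κ := by positivity
  have hκ1 : κ ≤ 1 := by linarith
  obtain ⟨C, hC⟩ := flat_kc hd (show 0 < κ / 4 by positivity)
  obtain ⟨C1, hC1, hN⟩ := nested_field hd
  set A : ℝ := 2 * C1 * om d / κ with hA
  have hA0 : 0 ≤ A := by positivity
  set P : ℝ := 3 * 2 ^ d / om d with hP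
  have hP0 : 0 ≤ P := by positivity
  set D : ℝ := (A + 1) * P + C1 with hD
  have hD0 : 0 ≤ D := by positivity
  refine ⟨2 * C * D.toNNReal, fun h μ O g ν Gd j z w y r lam hPair hG h1 h2 hw hξ hO hy hl1 hl2 => ?_⟩
  have hR := g.R_pos j
  set R := g.R j with hRdef
  have hr : 0 < r := by linarith
  have hr0 : 0 < c0 d * R := by positivity
  have hcR : c0 d * R ≤ R := by nlinarith
  have hRd : 0 < R ^ d := by positivity
  have hyz := norm_nonneg (y - z)
  have hzy : ‖z - y‖ ≤ R := by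
    rw [norm_sub_rev]
    linarith
  have hzw : ‖z + w - y‖ ≤ 2 * R := by
    have e : z + w - y = (z - y) + w := by abel
    rw [e]
    linarith [norm_add_le (z - y) w]
  have hyy : ‖y - y‖ = 0 := by simp
  obtain ⟨hN1, hN2⟩ := hN R z y r (c0 d * R) hR le_rfl (by linarith) (by linarith)
  set a : ℝ := (om d * r ^ d)⁻¹ with ha
  have ha0 : 0 < a := by positivity
  have ha1 : (om d * R ^ d)⁻¹ ≤ a :=
    inv_anti₀ (by positivity) (mul_le_mul_of_nonneg_left (pow_le_pow_left₀ hr.le h2 d) ho.le)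
  have ha2 : 3 * a ≤ P / R ^ d := by
    have : a ≤ (om d * (R / 2) ^ d)⁻¹ :=
      inv_anti₀ (by positivity)
        (mul_le_mul_of_nonneg_left (pow_le_pow_left₀ (by positivity) h1 d) ho.le)
    refine (mul_le_mul_of_nonneg_left this (by norm_num)).trans (le_of_eq ?_)
    rw [hP, div_pow]
    field_simp
  have hT : ∀ p, fld z r (z + w) r p = (a * th z r w p) • w := fun p => fld_trans z w hr p
  have hT1 : ∀ p, ‖fld z r (z + w) r p‖ ≤ P * (R / R ^ d) := by
    intro p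
    have t0 := th_nonneg z r w p
    have t1 := th_le_one z r w p
    rw [hT, norm_smul, Real.norm_eq_abs, abs_of_nonneg (by positivity)]
    calc a * th z r w p * ‖w‖ ≤ a * 1 * R :=
          mul_le_mul (mul_le_mul_of_nonneg_left t1 ha0.le) (hw.trans h2) (norm_nonneg _)
            (by positivity)
      _ ≤ P / R ^ d * R := mul_le_mul_of_nonneg_right (by linarith) hR.le
      _ = P * (R / R ^ d) := by ring
  have hT2 : ∀ p p', ‖fld z r (z + w) r p - fld z r (z + w) r p'‖ ≤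
      P / R ^ d * √(R * ‖p - p'‖) := by
    intro p p'
    rw [hT, hT, ← sub_smul, ← mul_sub, norm_smul, Real.norm_eq_abs, abs_mul, abs_of_pos ha0]
    have t := th_holder (z := z) (w := w) hr p p'
    have s : √(r * ‖p - p'‖) ≤ √(R * ‖p - p'‖) :=
      Real.sqrt_le_sqrt (mul_le_mul_of_nonneg_right h2 (norm_nonneg _))
    calc a * |th z r w p - th z r w p'| * ‖w‖ = a * (‖w‖ * |th z r w p - th z r w p'|) := by ring
      _ ≤ a * (3 * √(R * ‖p - p'‖)) := mul_le_mul_of_nonneg_left (by linarith) ha0.le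
      _ = 3 * a * √(R * ‖p - p'‖) := by ring
      _ ≤ _ := mul_le_mul_of_nonneg_right ha2 (Real.sqrt_nonneg _)
  have hT3 : ∀ p, p ∉ ball y (5 * R) → fld z r (z + w) r p = 0 := fun p hp =>
    fld_eq_zero (by linarith) (by linarith) hp
  have hN3 : ∀ p, p ∉ ball y (5 * R) → fld z r y (c0 d * R) p = 0 := fun p hp =>
    fld_eq_zero (by linarith) (by linarith) hp
  have hN4 : ∀ p, ‖fld z r y (c0 d * R) p‖ ≤ C1 / R ^ d * (R * th z r w p) := by
    intro p
    refine (hN1 p).trans (mul_le_mul_of_nonneg_left ?_ (by positivity))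
    exact (th_lower hr hw p).trans (mul_le_mul_of_nonneg_right h2 (th_nonneg _ _ _ _))
  have hN5 : ∀ p, ‖fld z r y (c0 d * R) p‖ ≤ C1 * (R / R ^ d) := by
    intro p
    refine (hN4 p).trans ?_
    calc C1 / R ^ d * (R * th z r w p) ≤ C1 / R ^ d * (R * 1) :=
          mul_le_mul_of_nonneg_left (mul_le_mul_of_nonneg_left (th_le_one _ _ _ _) hR.le)
            (by positivity)
      _ = C1 * (R / R ^ d) := by ring
  have hN6 : ∀ p, ‖fld z r y (c0 d * R) p‖ ≤ κ / 2 * (A * (a * th z r w p) * R) := by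
    intro p
    refine (hN4 p).trans ?_
    have t0 := th_nonneg z r w p
    calc C1 / R ^ d * (R * th z r w p)
        = C1 * om d * (R * th z r w p) * (om d * R ^ d)⁻¹ := by field_simp
      _ ≤ C1 * om d * (R * th z r w p) * a := mul_le_mul_of_nonneg_left ha1 (by positivity)
      _ = κ / 2 * (A * (a * th z r w p) * R) := by
          rw [hA]
          field_simp
  have key : ∀ B s : ℝ, 0 ≤ B → B ≤ A + 1 → |s| ≤ 1 →
      (∀ p, |s| * ‖fld z r y (c0 d * R) p‖ ≤ κ / 2 * (B * (a * th z r w p) * R)) →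
      ENNReal.ofReal (-(B * (av h (z + w) r - av h z r) + s * (av h y (c0 d * R) - av h z r))) ≤
        C * ENNReal.ofReal D * ENNReal.ofReal (R / R ^ d) *
          ∫⁻ u in ball y (6 * R), g.BD μ Gd (j + aa d) u := by
    intro B s hB0 hB1 hs hsN
    have hBP : B * P + C1 ≤ D := by nlinarith
    have hs0 := abs_nonneg s
    have hint : ∫ p, ⟪B • fld z r (z + w) r p + s • fld z r y (c0 d * R) p, μ p⟫ =
        B * (av h (z + w) r - av h z r) + s * (av h y (c0 d * R) - av h z r) := by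
      simp only [inner_add_left, real_inner_smul_left]
      rw [integral_add ((flat_int hPair.im hr hr).const_mul B)
        ((flat_int hPair.im hr hr0).const_mul s), integral_const_mul, integral_const_mul,
        hPair.eq y (6 * R) z r (z + w) r hO hr hr (by linarith) (by linarith),
        hPair.eq y (6 * R) z r y (c0 d * R) hO hr hr0 (by linarith) (by linarith)]
    rw [← hint]
    refine hC g μ ν Gd (fun p => B • fld z r (z + w) r p + s • fld z r y (c0 d * R) p) D y j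
      hPair.im hG hD0 (fun p => ?_) (fun p p' => ?_) (fun p hp => ?_) (fun p ξ hx => ?_)
    · refine (norm_add_le _ _).trans ?_
      rw [norm_smul, norm_smul, Real.norm_eq_abs, Real.norm_eq_abs, abs_of_nonneg hB0]
      have q : 0 ≤ R / R ^ d := by positivity
      have a1 := mul_le_mul_of_nonneg_left (hT1 p) hB0
      have a2 := mul_le_mul hs (hN5 p) (norm_nonneg _) zero_le_one
      have a3 := mul_le_mul_of_nonneg_right hBP q
      linarith
    · have e : B • fld z r (z + w) r p + s • fld z r y (c0 d * R) p -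
          (B • fld z r (z + w) r p' + s • fld z r y (c0 d * R) p') =
          B • (fld z r (z + w) r p - fld z r (z + w) r p') +
            s • (fld z r y (c0 d * R) p - fld z r y (c0 d * R) p') := by module
      rw [e]
      refine (norm_add_le _ _).trans ?_
      rw [norm_smul, norm_smul, Real.norm_eq_abs, Real.norm_eq_abs, abs_of_nonneg hB0]
      have q : 0 ≤ √(R * ‖p - p'‖) / R ^ d := by positivity
      have a1 := mul_le_mul_of_nonneg_left (hT2 p p') hB0
      have a2 := mul_le_mul hs (hN2 p p') (norm_nonneg _) zero_le_one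
      have a3 := mul_le_mul_of_nonneg_right hBP q
      have e1 : D / R ^ d * √(R * ‖p - p'‖) = D * (√(R * ‖p - p'‖) / R ^ d) := by ring
      have e2 : B * (P / R ^ d * √(R * ‖p - p'‖)) + 1 * (C1 / R ^ d * √(R * ‖p - p'‖)) =
          (B * P + C1) * (√(R * ‖p - p'‖) / R ^ d) := by ring
      linarith
    · simp only [hT3 p hp, hN3 p hp, smul_zero, add_zero]
    · have t0 := th_nonneg z r w p
      rw [hT, smul_smul]
      refine flat_cone (by positivity) hκ0.le hκ1 (hw.trans h2) (hξ ξ hx) ?_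
      rw [norm_smul, Real.norm_eq_abs]
      exact hsN p
  have k1 := key 1 0 zero_le_one (by linarith) (by simp) (fun p => by
    have t0 := th_nonneg z r w p
    rw [abs_zero, zero_mul]
    positivity)
  have k2 := key A 1 hA0 (by linarith) (by simp) (fun p => by
    rw [abs_one, one_mul]
    exact hN6 p)
  have k3 := key A (-1) hA0 (by linarith) (by simp) (fun p => by
    rw [abs_neg, abs_one, one_mul]
    exact hN6 p)
  have ht : A * (av h (z + w) r - av h z r) ≤ 0 :=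
    mul_nonpos_of_nonneg_of_nonpos hA0 (by linarith)
  have k4 : ENNReal.ofReal |av h y (c0 d * R) - av h z r| ≤
      C * ENNReal.ofReal D * ENNReal.ofReal (R / R ^ d) *
        ∫⁻ u in ball y (6 * R), g.BD μ Gd (j + aa d) u := by
    rcases abs_choice (av h y (c0 d * R) - av h z r) with e | e <;> rw [e]
    · exact (ENNReal.ofReal_le_ofReal (by linarith)).trans k3
    · exact (ENNReal.ofReal_le_ofReal (by linarith)).trans k2
  unfold Near
  rw [edist_dist, Real.dist_eq]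
  calc ENNReal.ofReal |lam - av h y (c0 d * R)|
      ≤ ENNReal.ofReal (-(1 * (av h (z + w) r - av h z r) + 0 * (av h y (c0 d * R) - av h z r)) +
          |av h y (c0 d * R) - av h z r|) := by
        refine ENNReal.ofReal_le_ofReal (abs_le.2 ⟨?_, ?_⟩)
        · linarith [le_abs_self (av h y (c0 d * R) - av h z r)]
        · linarith [neg_abs_le (av h y (c0 d * R) - av h z r)]
    _ ≤ _ := ENNReal.ofReal_add_le
    _ ≤ _ := add_le_add k1 k4
    _ = _ := by
        rw [ENNReal.ofReal]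
        push_cast
        ring

theorem osc (hd : 0 < d) : ∃ C : ℝ≥0, ∀ (h : E d → ℝ) (μ : E d → E d) (O : Set (E d))
    (g : Grid d) (ν : E d) (Gd : Set (E d)) (j : ℕ) (z1 z2 y : E d) (r1 r2 lam : ℝ),
    Pair h μ O → Cone ν Gd → ball y (6 * g.R j) ⊆ O →
    c0 d * g.R j ≤ r1 → c0 d * g.R j ≤ r2 →
    ‖z1 - y‖ + r1 ≤ 4 * g.R j → ‖z2 - y‖ + r2 ≤ 4 * g.R j →
    av h z1 r1 ≤ lam → lam ≤ av h z2 r2 →
    Near h C (g.R j) (fun u => ‖g.vk μ (j + aa d) u‖ₑ + g.BD μ Gd (j + aa d) u) lam y := by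
  have hc := c0_pos hd
  have hc1 := c0_le hd
  obtain ⟨C, hC⟩ := flat_ko hd
  obtain ⟨C1, hC1, hN⟩ := nested_field hd
  refine ⟨3 * C * (5 * C1).toNNReal,
    fun h μ O g ν Gd j z1 z2 y r1 r2 lam hPair hG hO h1 h2 h3 h4 hl1 hl2 => ?_⟩
  have hR := g.R_pos j
  set R := g.R j with hRdef
  have hr0 : 0 < c0 d * R := by positivity
  have hcR : c0 d * R ≤ R := by nlinarith
  have hRd : 0 < R ^ d := by positivity
  have hyy : ‖y - y‖ = 0 := by simp
  have key : ∀ (z : E d) (r : ℝ), c0 d * R ≤ r → ‖z - y‖ + r ≤ 4 * R →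
      ENNReal.ofReal |av h z r - av h y (5 * R)| ≤
        C * ENNReal.ofReal (5 * C1) * ENNReal.ofReal (R / R ^ d) *
          ∫⁻ u in ball y (6 * R), (‖g.vk μ (j + aa d) u‖ₑ + g.BD μ Gd (j + aa d) u) := by
    intro z r a1 a2
    have hr : 0 < r := by linarith
    obtain ⟨hN1, hN2⟩ := hN R y z (5 * R) r hR a1 (by linarith) (by linarith)
    rw [hPair.eq y (6 * R) y (5 * R) z r hO (by linarith) hr (by linarith) (by linarith)]
    refine hC g μ ν Gd (fld y (5 * R) z r) (5 * C1) y j hPair.im hG (by positivity) (fun p => ?_)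
      (fun p p' => ?_) (fun p hp => fld_eq_zero (by linarith) (by linarith) hp)
    · refine (hN1 p).trans ?_
      have : max 0 (5 * R - ‖p - y‖) ≤ 5 * R :=
        max_le (by linarith) (by linarith [norm_nonneg (p - y)])
      refine (mul_le_mul_of_nonneg_left this (by positivity)).trans (le_of_eq ?_)
      ring
    · refine (hN2 p p').trans (mul_le_mul_of_nonneg_right ?_ (Real.sqrt_nonneg _))
      exact div_le_div_of_nonneg_right (by linarith) hRd.le
  have k1 := key z1 r1 h1 h3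
  have k2 := key z2 r2 h2 h4
  have k3 := key y (c0 d * R) le_rfl (by linarith)
  unfold Near
  rw [edist_dist, Real.dist_eq]
  calc ENNReal.ofReal |lam - av h y (c0 d * R)|
      ≤ ENNReal.ofReal (|av h z1 r1 - av h y (5 * R)| + |av h z2 r2 - av h y (5 * R)| +
          |av h y (c0 d * R) - av h y (5 * R)|) := by
        refine ENNReal.ofReal_le_ofReal (abs_le.2 ⟨?_, ?_⟩)
        · linarith [le_abs_self (av h y (c0 d * R) - av h y (5 * R)),
            neg_abs_le (av h z1 r1 - av h y (5 * R)), abs_nonneg (av h z2 r2 - av h y (5 * R))]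
        · linarith [neg_abs_le (av h y (c0 d * R) - av h y (5 * R)),
            abs_nonneg (av h z1 r1 - av h y (5 * R)), le_abs_self (av h z2 r2 - av h y (5 * R))]
    _ ≤ _ := ENNReal.ofReal_add_le
    _ ≤ _ := add_le_add (ENNReal.ofReal_add_le.trans (add_le_add k1 k2)) k3
    _ = _ := by
        rw [ENNReal.ofReal]
        push_cast
        ring

end Vale.Agent.P137
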