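import Vale.Agent.P137.Grid

/-! P137 Geo: the depth function `tt`, index neighbourhoods `Nb`, and the zones of a tree.

Plan. `tt` is a finite infimum (`ciInf_le` with `Finite.bddBelow_range`,
`exists_eq_ciInf_of_finite`, `Fin d` nonempty from `hd`) of the `2 d` affine functions
`± (z i - const)`. `chord_depth`: pick the face attaining `tt (x + s ν)`; `tt` is everywhere at most
that affine function, whose slope along `ν` is `± ν i` with `|ν i| ≥ c`.
`Nb`: `idx_near`, `idx_succ` with `omega`. `Zr_overlap`: `Nb 4 j' ⊆ Nb 2 (j'-1) ⊆ Nb 1 (j'-2) ⊆ Nb 1 j`.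
`Zs_overlap`: `tt u ≥ 3 R j - R j/2000` and `tt u ≤ 49 R j' ≤ 49 R j / 32` (`norm_cor_sub`,
`len_aa_le`, `tt_le_add`). All sets are empty for `j < j0` because `T j = ∅`.
-/

namespace Vale.Agent.P137

open MeasureTheory Metric Set Filter Topology
open scoped ENNReal NNReal RealInnerProductSpace

variable {d : ℕ}

namespace Grid

variable (g : Grid d) (j0 : ℕ) (y0 : E d)

theorem abs_sub_le_geo (z z' : E d) (i : Fin d) : |z i - z' i| ≤ ‖z - z'‖ := by
  have h := PiLp.norm_apply_le (z - z') i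
  rwa [PiLp.sub_apply, Real.norm_eq_abs] at h

theorem tt_le_geo (z : E d) (i : Fin d) : g.tt j0 y0 z ≤ z i - g.cor j0 y0 i ∧
    g.tt j0 y0 z ≤ g.cor j0 y0 i + g.len j0 - z i :=
  le_min_iff.1 (ciInf_le (Finite.bddBelow_range _) i)

theorem tt_eq_geo (hd : 0 < d) (z : E d) : ∃ i, g.tt j0 y0 z =
    min (z i - g.cor j0 y0 i) (g.cor j0 y0 i + g.len j0 - z i) := by
  have : Nonempty (Fin d) := ⟨⟨0, hd⟩⟩
  obtain ⟨i, hi⟩ := exists_eq_ciInf_of_finite
    (f := fun i => min (z i - g.cor j0 y0 i) (g.cor j0 y0 i + g.len j0 - z i))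
  exact ⟨i, hi.symm⟩

theorem tt_le_add (hd : 0 < d) (z z' : E d) : g.tt j0 y0 z ≤ g.tt j0 y0 z' + ‖z - z'‖ := by
  obtain ⟨i, hi⟩ := g.tt_eq_geo j0 y0 hd z'
  have h1 := g.tt_le_geo j0 y0 z i
  have h2 := abs_le.1 (abs_sub_le_geo z z' i)
  rw [hi, ← min_add_add_right]
  exact le_min (by linarith [h1.1, h2.2]) (by linarith [h1.2, h2.1])

theorem continuous_tt (hd : 0 < d) : Continuous (g.tt j0 y0) := by
  refine (LipschitzWith.of_le_add fun z z' => ?_).continuous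
  rw [dist_eq_norm]
  exact g.tt_le_add j0 y0 hd z z'

theorem ball_tt_subset (hd : 0 < d) (z : E d) : ball z (g.tt j0 y0 z) ⊆ g.cube j0 y0 := by
  intro u hu
  refine (g.mem_cube_iff j0 y0 u).2 fun i => ?_
  have h1 := g.tt_le_geo j0 y0 z i
  have h2 := abs_lt.1 ((abs_sub_le_geo u z i).trans_lt (mem_ball_iff_norm.1 hu))
  constructor <;> linarith [h1.1, h1.2, h2.1, h2.2]

theorem mem_cube_of_tt (hd : 0 < d) {z : E d} (hz : 0 < g.tt j0 y0 z) : z ∈ g.cube j0 y0 := by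
  exact g.ball_tt_subset j0 y0 hd z (mem_ball_self hz)

theorem le_tt (hd : 0 < d) {z : E d} {ρ : ℝ} (hρ : 0 < ρ) (hz : ball z ρ ⊆ g.cube j0 y0) :
    ρ ≤ g.tt j0 y0 z := by
  obtain ⟨i, hi⟩ := g.tt_eq_geo j0 y0 hd z
  have key : ∀ t : ℝ, |t| < ρ →
      g.cor j0 y0 i ≤ z i + t ∧ z i + t < g.cor j0 y0 i + g.len j0 := by
    intro t ht
    have h1 : z + EuclideanSpace.single i t ∈ ball z ρ := by
      rw [mem_ball_iff_norm, add_sub_cancel_left, PiLp.norm_single, Real.norm_eq_abs]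
      exact ht
    have h2 := (g.mem_cube_iff j0 y0 _).1 (hz h1) i
    simpa using h2
  have h0 := key 0 (by simpa using hρ)
  rw [hi]
  refine le_min (le_of_not_gt fun h => ?_) (le_of_not_gt fun h => ?_)
  · have h3 := key (-((z i - g.cor j0 y0 i + ρ) / 2))
      (abs_lt.2 ⟨by linarith, by linarith [h0.1]⟩)
    linarith [h3.1]
  · have h3 := key ((g.cor j0 y0 i + g.len j0 - z i + ρ) / 2)
      (abs_lt.2 ⟨by linarith [h0.2], by linarith⟩)
    linarith [h3.2]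

theorem chord_depth (hd : 0 < d) {ν : E d} {c : ℝ} (hν : ∀ i, c ≤ |ν i|) (x : E d)
    {s1 s s2 : ℝ} (h1 : s1 ≤ s) (h2 : s ≤ s2) :
    g.tt j0 y0 (x + s1 • ν) + c * (s - s1) ≤ g.tt j0 y0 (x + s • ν) ∨
      g.tt j0 y0 (x + s2 • ν) + c * (s2 - s) ≤ g.tt j0 y0 (x + s • ν) := by
  obtain ⟨i, hi⟩ := g.tt_eq_geo j0 y0 hd (x + s • ν)
  have a1 := g.tt_le_geo j0 y0 (x + s1 • ν) i
  have a2 := g.tt_le_geo j0 y0 (x + s2 • ν) i
  simp only [PiLp.add_apply, PiLp.smul_apply, smul_eq_mul] at hi a1 a2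
  have b1 := sub_nonneg.2 h1
  have b2 := sub_nonneg.2 h2
  rw [hi]
  rcases le_abs.1 (hν i) with hc | hc
  · have c1 := mul_le_mul_of_nonneg_right hc b1
    have c2 := mul_le_mul_of_nonneg_right hc b2
    rcases min_choice (x i + s * ν i - g.cor j0 y0 i) (g.cor j0 y0 i + g.len j0 - (x i + s * ν i))
      with h | h <;> rw [h]
    · exact Or.inl (by linarith [a1.1])
    · exact Or.inr (by linarith [a2.2])
  · have c1 := mul_le_mul_of_nonneg_right hc b1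
    have c2 := mul_le_mul_of_nonneg_right hc b2
    rcases min_choice (x i + s * ν i - g.cor j0 y0 i) (g.cor j0 y0 i + g.len j0 - (x i + s * ν i))
      with h | h <;> rw [h]
    · exact Or.inr (by linarith [a2.1])
    · exact Or.inl (by linarith [a1.2])

variable {g} {T : ℕ → Set (E d)}

theorem Nb_mono {n n' : ℕ} (h : n ≤ n') (j : ℕ) : g.Nb T n j ⊆ g.Nb T n' j := by
  rintro u ⟨y, hy, hu⟩
  exact ⟨y, hy, fun i => (hu i).trans (by exact_mod_cast h)⟩

theorem subset_Nb (n j : ℕ) : T j ⊆ g.Nb T n j := by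
  exact fun u hu => ⟨u, hu, fun i => by simp⟩

theorem sat_Nb (n j : ℕ) : g.Sat j (g.Nb T n j) := by
  rintro y u e ⟨z, hz, h⟩
  exact ⟨z, hz, e ▸ h⟩

theorem Nb_near {n j : ℕ} {y u : E d} (hy : y ∈ g.Nb T n j) (hu : ‖u - y‖ ≤ g.len j) :
    u ∈ g.Nb T (n + 1) j := by
  obtain ⟨z, hz, h⟩ := hy
  refine ⟨z, hz, fun i => ?_⟩
  have h1 := abs_le.1 (g.idx_near j hu i)
  have h2 := abs_le.1 (h i)
  rw [abs_le]
  push_cast
  constructor <;> linarith [h1.1, h1.2, h2.1, h2.2]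

theorem Nb_succ {n j : ℕ} (hT : T (j + 1) ⊆ T j) : g.Nb T (2 * n) (j + 1) ⊆ g.Nb T n j := by
  rintro u ⟨y, hy, h⟩
  refine ⟨y, hT hy, fun i => ?_⟩
  have h2 := abs_le.1 (h i)
  rw [abs_le, g.idx_succ j u, g.idx_succ j y]
  push_cast at h2
  omega

end Grid

variable {g : Grid d} {j0 : ℕ} {y0 : E d} {T : ℕ → Set (E d)}

theorem IsTree.subset_cube (hT : IsTree g j0 y0 T) (j : ℕ) : T j ⊆ g.cube j0 y0 := by
  rcases lt_or_ge j j0 with h | h
  · rw [hT.low j h]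
    exact empty_subset _
  · induction j, h using Nat.le_induction with
    | base => exact hT.top.subset
    | succ j hj ih => exact (hT.anti j hj).trans ih

theorem IsTree.le_of_mem (hT : IsTree g j0 y0 T) {j : ℕ} {z : E d} (hz : z ∈ T j) : j0 ≤ j := by
  refine le_of_not_gt fun h => ?_
  rw [hT.low j h] at hz
  exact hz

theorem IsTree.le_of_mem_Nb (hT : IsTree g j0 y0 T) {n j : ℕ} {z : E d} (hz : z ∈ g.Nb T n j) :
    j0 ≤ j := by
  obtain ⟨y, hy, -⟩ := hz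
  exact hT.le_of_mem hy

theorem IsTree.Nb_anti (hT : IsTree g j0 y0 T) (n : ℕ) {j j' : ℕ} (h0 : j0 ≤ j) (h : j ≤ j') :
    g.Nb T n j' ⊆ g.Nb T n j := by
  induction j', h using Nat.le_induction with
  | base => exact subset_rfl
  | succ k hk ih =>
    exact ((Grid.Nb_mono (by omega) _).trans (Grid.Nb_succ (hT.anti k (h0.trans hk)))).trans ih

theorem IsTree.cube_subset_of_mem (hT : IsTree g j0 y0 T) {j : ℕ} {z : E d} (hz : z ∈ T j) :
    g.cube j z ⊆ T j := by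
  exact fun u hu => hT.sat j z u (Eq.symm hu) hz

theorem IsTree.HH_top (hT : IsTree g j0 y0 T) : HH g j0 y0 T j0 = g.cube j0 y0 := by
  refine inter_eq_left.2 ?_
  rw [← hT.top]
  exact Grid.subset_Nb 6 j0

theorem IsTree.HH_low (hT : IsTree g j0 y0 T) {j : ℕ} (hj : j < j0) : HH g j0 y0 T j = ∅ := by
  exact eq_empty_of_forall_notMem fun u hu => (hT.le_of_mem_Nb hu.2).not_gt hj

theorem IsTree.HH_anti (hT : IsTree g j0 y0 T) {j : ℕ} (hj : j0 ≤ j) :
    HH g j0 y0 T (j + 1) ⊆ HH g j0 y0 T j := by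
  exact inter_subset_inter_right _ (hT.Nb_anti 6 hj (Nat.le_succ j))

theorem IsTree.sat_HH (hT : IsTree g j0 y0 T) (j : ℕ) : g.Sat j (HH g j0 y0 T j) := by
  intro y u e hy
  exact (((g.sat_cube j0 y0).mono (hT.le_of_mem_Nb hy.2)).inter (Grid.sat_Nb 6 j)) y u e hy

theorem IsTree.sat_Zr (hT : IsTree g j0 y0 T) (j : ℕ) : g.Sat (j + aa d) (Zr g j0 y0 T j) := by
  intro y u e hy
  exact ((((g.sat_cube j0 y0).mono (hT.le_of_mem_Nb hy.2.1)).inter
    ((Grid.sat_Nb 4 j).diff (Grid.sat_Nb 1 j))).mono (Nat.le_add_right j (aa d))) y u e hy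

theorem IsTree.sat_Zs (hT : IsTree g j0 y0 T) (j : ℕ) : g.Sat (j + aa d) (Zs g j0 y0 T j) := by
  intro y u e hy
  refine ⟨(hT.sat_HH j).mono (Nat.le_add_right j (aa d)) y u e hy.1, ?_⟩
  rw [← g.cst_cor _ y u e]
  exact hy.2

theorem sat_Zt (j : ℕ) : g.Sat (j + aa d) (Zt g j0 y0 j) := by
  rintro y u e ⟨rfl, hy⟩
  exact ⟨rfl, (g.sat_cube j y0).mono (Nat.le_add_right j (aa d)) y u e hy⟩

theorem IsTree.Zr_subset (hT : IsTree g j0 y0 T) (j : ℕ) : Zr g j0 y0 T j ⊆ HH g j0 y0 T j := by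
  exact fun u hu => ⟨hu.1, Grid.Nb_mono (by norm_num) j hu.2.1⟩

theorem Zs_subset (j : ℕ) : Zs g j0 y0 T j ⊆ HH g j0 y0 T j := by
  exact fun u hu => hu.1

theorem IsTree.Zt_subset (hT : IsTree g j0 y0 T) (j : ℕ) : Zt g j0 y0 j ⊆ HH g j0 y0 T j := by
  rintro u ⟨rfl, hu⟩
  rw [hT.HH_top]
  exact hu

theorem IsTree.Zr_overlap (hT : IsTree g j0 y0 T) {j j' : ℕ} {u : E d} (h : u ∈ Zr g j0 y0 T j)
    (h' : u ∈ Zr g j0 y0 T j') : j' < j + 5 := by
  refine lt_of_not_ge fun hj => h.2.2 ?_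
  have h0 := hT.le_of_mem_Nb h.2.1
  have h1 := hT.Nb_anti 4 (j := j + 1 + 1) (j' := j') (by omega) (by omega) h'.2.1
  exact Grid.Nb_succ (n := 1) (hT.anti j h0)
    (Grid.Nb_succ (n := 2) (hT.anti (j + 1) (by omega)) h1)

theorem Zs_overlap (hd : 0 < d) {j j' : ℕ} {u : E d} (h : u ∈ Zs g j0 y0 T j)
    (h' : u ∈ Zs g j0 y0 T j') : j' < j + 5 := by
  refine lt_of_not_ge fun hj => ?_
  have a1 := g.tt_le_add j0 y0 hd (g.cor (j + aa d) u) u
  have a2 := g.tt_le_add j0 y0 hd u (g.cor (j' + aa d) u)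
  rw [norm_sub_rev] at a2
  have b1 := g.norm_cor_sub (j + aa d) u
  have b2 := g.norm_cor_sub (j' + aa d) u
  have c1 := g.len_aa_le j
  have c2 := g.len_aa_le j'
  have e1 := g.R_anti hj
  rw [g.R_add] at e1
  linarith [h.2.1, h'.2.2, g.R_pos j]

theorem Zt_overlap {j j' : ℕ} {u : E d} (h : u ∈ Zt g j0 y0 j) (h' : u ∈ Zt g j0 y0 j') :
    j' < j + 5 := by
  rw [h.1, h'.1]
  omega

theorem IsTree.measurable_wT (hT : IsTree g j0 y0 T) (μ : E d → E d) (Gd : Set (E d))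
    (hBD : ∀ k, Measurable (g.BD μ Gd k)) (hv : ∀ k, Measurable (g.vk μ k)) (j : ℕ) :
    Measurable (wT g μ Gd j0 y0 T j) := by
  exact ((hBD _).indicator (hT.sat_HH j).measurableSet).add ((hv _).enorm.indicator
    (((hT.sat_Zr j).union (hT.sat_Zs j)).union (sat_Zt j)).measurableSet)

end Vale.Agent.P137
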