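import Vale.Agent.P137.Vec

/-! P137 Grid: geometry of dyadic grids (floors, cubes, saturation, measurability).

Plan.
* `idx_succ`: `(y - o)/len (k+1) = 2 * ((y - o)/len k)` and `⌊2 t⌋ / 2 = ⌊t⌋` (`Int.floor_div_natCast`
  or directly); `idx_add` by induction, or directly with `2^m`.
* `cube k y` is the preimage of the box `Set.pi univ (Ico (cor i) (cor i + len))` under
  `WithLp.ofLp` (`PiLp.volume_preserving_ofLp` / `EuclideanSpace.volume_preserving_symm_measurableEquiv_toLp`,
  `Real.volume_pi_Ico`).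
* a `Cst` function factors through the countable discrete type `Fin d → ℤ`:
  `φ = (fun n => φ (rep k n)) ∘ idx k`, `measurable_from_top` / `Measurable.of_discrete`.
* `third`: put `t = (z i - o i)/len j`, `2^j = 3 q + ρ` with `ρ ∈ {1,2}`; moving by `L/3` replaces
  `t` by `t - q - ρ/3`. If `fract t ∈ [1/6, 5/6]` take `ε i = false`; otherwise `ε i = true`.
-/

namespace Vale.Agent.P137

open MeasureTheory Metric Set Filter Topology
open scoped ENNReal NNReal RealInnerProductSpace

variable {d : ℕ}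

namespace Grid

variable (g : Grid d)

theorem len_pos (k : ℕ) : 0 < g.len k := by
  exact div_pos g.hL (by positivity)

theorem len_succ (k : ℕ) : g.len (k + 1) = g.len k / 2 := by
  rw [len, len, pow_succ, div_div]

theorem len_add (k m : ℕ) : g.len (k + m) = g.len k / 2 ^ m := by
  rw [len, len, pow_add, div_div]

theorem len_anti {j k : ℕ} (h : j ≤ k) : g.len k ≤ g.len j := by
  exact div_le_div_of_nonneg_left g.hL.le (by positivity) (pow_le_pow_right₀ one_le_two h)

theorem R_pos (j : ℕ) : 0 < g.R j := by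
  exact g.len_pos _

theorem R_succ (j : ℕ) : g.R (j + 1) = g.R j / 2 := by
  rw [R, R, add_right_comm, len_succ]

theorem R_add (j m : ℕ) : g.R (j + m) = g.R j / 2 ^ m := by
  rw [R, R, add_right_comm, len_add]

theorem R_anti {j k : ℕ} (h : j ≤ k) : g.R k ≤ g.R j := by
  exact g.len_anti (Nat.add_le_add_right h _)

theorem grid_len_eq_R (j : ℕ) : g.len j = 2 ^ bb d * g.R j := by
  rw [R, len_add]
  field_simp

theorem R_le_len (j : ℕ) : 2000 * √(d : ℝ) * g.R j ≤ g.len j := by
  rw [g.grid_len_eq_R j]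
  exact mul_le_mul_of_nonneg_right sqrt_le_two_pow_bb (g.R_pos j).le

theorem len_aa_le (j : ℕ) : 2000 * √(d : ℝ) * g.len (j + aa d) ≤ g.R j := by
  have h := g.R_le_len (j + bb d)
  rwa [R, add_assoc, ← two_mul] at h

theorem len_eq_R (j : ℕ) : g.len j = 2 ^ bb d * g.R j := by
  exact g.grid_len_eq_R j

/-- Every radius between two scales has a level in between. -/
theorem exists_level {ρ : ℝ} {j0 j : ℕ} (hj : j0 ≤ j) (h1 : g.R j / 2 ≤ ρ) (h2 : ρ ≤ g.R j0) :
    ∃ j', j0 ≤ j' ∧ j' ≤ j ∧ g.R j' / 2 ≤ ρ ∧ ρ ≤ g.R j' := by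
  induction j, hj using Nat.le_induction with
  | base => exact ⟨j0, le_rfl, le_rfl, h1, h2⟩
  | succ j hj ih =>
    rcases le_total ρ (g.R (j + 1)) with h | h
    · exact ⟨j + 1, by omega, le_rfl, h1, h⟩
    · obtain ⟨j', a, b, c⟩ := ih (by rwa [← g.R_succ])
      exact ⟨j', a, by omega, c⟩

theorem exists_R_lt {ρ : ℝ} (hρ : 0 < ρ) : ∃ K, g.R K < ρ := by
  obtain ⟨K, hK⟩ := pow_unbounded_of_one_lt (g.R 0 / ρ) (one_lt_two (α := ℝ))
  refine ⟨0 + K, ?_⟩
  rw [R_add, div_lt_iff₀ (by positivity), mul_comm]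
  exact (div_lt_iff₀ hρ).1 hK

theorem idx_eq_iff (k : ℕ) (y : E d) (n : Fin d → ℤ) :
    g.idx k y = n ↔ ∀ i, g.o i + g.len k * n i ≤ y i ∧ y i < g.o i + g.len k * n i + g.len k := by
  rw [funext_iff]
  refine forall_congr' fun i => ?_
  rw [idx, Int.floor_eq_iff, le_div_iff₀ (g.len_pos k), div_lt_iff₀ (g.len_pos k)]
  constructor <;> rintro ⟨a, b⟩ <;> constructor <;> linarith

theorem idx_rep (k : ℕ) (n : Fin d → ℤ) : g.idx k (g.rep k n) = n := by
  refine (g.idx_eq_iff k _ n).2 fun i => ⟨le_rfl, ?_⟩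
  exact lt_add_of_pos_right _ (g.len_pos k)

theorem idx_cor (k : ℕ) (y : E d) : g.idx k (g.cor k y) = g.idx k y := by
  exact g.idx_rep k _

theorem mem_cube_self (k : ℕ) (y : E d) : y ∈ g.cube k y := rfl

theorem mem_cube_iff (k : ℕ) (y u : E d) :
    u ∈ g.cube k y ↔ ∀ i, g.cor k y i ≤ u i ∧ u i < g.cor k y i + g.len k := by
  exact g.idx_eq_iff k u _

theorem cube_eq {k : ℕ} {y u : E d} (h : g.idx k y = g.idx k u) : g.cube k y = g.cube k u := by
  rw [cube, cube, h]

theorem grid_idx_add (k m : ℕ) (y : E d) (i : Fin d) :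
    g.idx k y i = g.idx (k + m) y i / 2 ^ m := by
  have h := Int.floor_div_natCast ((y i - g.o i) / g.len (k + m)) (2 ^ m)
  have e : (y i - g.o i) / g.len (k + m) / ((2 ^ m : ℕ) : ℝ) = (y i - g.o i) / g.len k := by
    have := (g.len_pos k).ne'
    rw [len_add]
    push_cast
    field_simp
  rw [e] at h
  push_cast at h
  exact h

theorem idx_succ (k : ℕ) (y : E d) (i : Fin d) : g.idx k y i = g.idx (k + 1) y i / 2 := by
  have h := g.grid_idx_add k 1 y i
  rwa [pow_one] at h

theorem idx_add (k m : ℕ) (y : E d) (i : Fin d) : g.idx k y i = g.idx (k + m) y i / 2 ^ m := by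
  exact g.grid_idx_add k m y i

theorem idx_mono {j k : ℕ} (h : j ≤ k) {y u : E d} (e : g.idx k y = g.idx k u) :
    g.idx j y = g.idx j u := by
  obtain ⟨m, rfl⟩ := Nat.exists_eq_add_of_le h
  funext i
  rw [g.idx_add j m, g.idx_add j m u, e]

theorem cube_subset {j k : ℕ} (h : j ≤ k) (y : E d) : g.cube k y ⊆ g.cube j y := by
  exact fun u hu => g.idx_mono h hu

theorem idx_add_sh (k : ℕ) (y : E d) (e : Fin d → ℤ) : g.idx k (y + g.sh k e) = g.idx k y + e := by
  funext i
  have e1 : ((y + g.sh k e) i - g.o i) / g.len k = (y i - g.o i) / g.len k + (e i : ℝ) := by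
    have := (g.len_pos k).ne'
    rw [PiLp.add_apply, sh]
    field_simp
    ring
  rw [idx, e1, Int.floor_add_intCast]
  rfl

theorem norm_sub_le_of_idx {k : ℕ} {y u : E d} (h : g.idx k y = g.idx k u) :
    ‖y - u‖ ≤ √(d : ℝ) * g.len k := by
  have h1 := (g.idx_eq_iff k y _).1 h
  have h2 := (g.idx_eq_iff k u _).1 rfl
  have h3 : ∀ i, ‖(y - u) i‖ ^ 2 ≤ g.len k ^ 2 := fun i => by
    refine pow_le_pow_left₀ (norm_nonneg _) ?_ 2
    rw [PiLp.sub_apply, Real.norm_eq_abs, abs_le]
    constructor <;> linarith [(h1 i).1, (h1 i).2, (h2 i).1, (h2 i).2]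
  rw [EuclideanSpace.norm_eq, ← Real.sqrt_sq (g.len_pos k).le, ← Real.sqrt_mul (Nat.cast_nonneg d)]
  refine Real.sqrt_le_sqrt ((Finset.sum_le_sum fun i _ => h3 i).trans (le_of_eq ?_))
  simp

theorem norm_cor_sub (k : ℕ) (y : E d) : ‖g.cor k y - y‖ ≤ √(d : ℝ) * g.len k := by
  exact g.norm_sub_le_of_idx (g.idx_cor k y)

theorem idx_near (k : ℕ) {y u : E d} (h : ‖y - u‖ ≤ g.len k) (i : Fin d) :
    |g.idx k y i - g.idx k u i| ≤ 1 := by
  have h1 : |y i - u i| ≤ g.len k := by
    have h2 := PiLp.norm_apply_le (y - u) i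
    rw [PiLp.sub_apply, Real.norm_eq_abs] at h2
    exact h2.trans h
  have key : ∀ a b : ℝ, a - b ≤ g.len k → ⌊(a - g.o i) / g.len k⌋ ≤ ⌊(b - g.o i) / g.len k⌋ + 1 := by
    intro a b hab
    rw [← Int.floor_add_one]
    refine Int.floor_le_floor ?_
    rw [div_add_one (g.len_pos k).ne']
    exact div_le_div_of_nonneg_right (by linarith) (g.len_pos k).le
  rw [abs_le] at h1 ⊢
  have h3 := key (y i) (u i) h1.2
  have h4 := key (u i) (y i) (by linarith [h1.1])
  simp only [idx]
  constructor <;> linarith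

theorem Sat.mono {g : Grid d} {j k : ℕ} (h : j ≤ k) {S : Set (E d)} (hS : g.Sat j S) :
    g.Sat k S := by
  exact fun y u e => hS y u (g.idx_mono h e)

theorem Cst.mono {g : Grid d} {j k : ℕ} (h : j ≤ k) {α : Type} {φ : E d → α} (hφ : g.Cst j φ) :
    g.Cst k φ := by
  exact fun y u e => hφ y u (g.idx_mono h e)

theorem sat_cube (k : ℕ) (y : E d) : g.Sat k (g.cube k y) := by
  exact fun a b e ha => e.symm.trans ha

theorem Sat.inter {g : Grid d} {k : ℕ} {S S' : Set (E d)} (h : g.Sat k S) (h' : g.Sat k S') :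
    g.Sat k (S ∩ S') := by
  exact fun y u e hy => ⟨h y u e hy.1, h' y u e hy.2⟩

theorem Sat.union {g : Grid d} {k : ℕ} {S S' : Set (E d)} (h : g.Sat k S) (h' : g.Sat k S') :
    g.Sat k (S ∪ S') := by
  exact fun y u e hy => hy.imp (h y u e) (h' y u e)

theorem Sat.compl {g : Grid d} {k : ℕ} {S : Set (E d)} (h : g.Sat k S) : g.Sat k Sᶜ := by
  exact fun y u e hy hu => hy (h u y e.symm hu)

theorem Sat.diff {g : Grid d} {k : ℕ} {S S' : Set (E d)} (h : g.Sat k S) (h' : g.Sat k S') :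
    g.Sat k (S \ S') := by
  exact h.inter h'.compl

theorem cst_cor (k : ℕ) : g.Cst k (g.cor k) := by
  intro y u e
  rw [cor, cor, e]

theorem cst_vk (μ : E d → E d) (k : ℕ) : g.Cst k (g.vk μ k) := by
  intro y u e
  rw [vk, vk, g.cube_eq e]

theorem Cst.shift {g : Grid d} {k : ℕ} {α : Type} {φ : E d → α} (hφ : g.Cst k φ)
    (e : Fin d → ℤ) : g.Cst k fun y => φ (y + g.sh k e) := by
  intro y u h
  refine hφ _ _ ?_
  rw [idx_add_sh, idx_add_sh, h]

theorem Cst.indicator {g : Grid d} {k : ℕ} {α : Type} [Zero α] {φ : E d → α} (hφ : g.Cst k φ)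
    {S : Set (E d)} (hS : g.Sat k S) : g.Cst k (S.indicator φ) := by
  intro y u h
  by_cases hy : y ∈ S
  · rw [indicator_of_mem hy, indicator_of_mem (hS y u h hy), hφ y u h]
  · rw [indicator_of_notMem hy, indicator_of_notMem (hS.compl y u h hy)]

theorem measurable_idx (k : ℕ) : Measurable (g.idx k) := by
  refine measurable_pi_lambda _ fun i => Measurable.floor ?_
  exact Continuous.measurable (by fun_prop)

theorem Cst.measurable {g : Grid d} {k : ℕ} {α : Type} [MeasurableSpace α] {φ : E d → α}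
    (hφ : g.Cst k φ) : Measurable φ := by
  have e : φ = (fun n => φ (g.rep k n)) ∘ g.idx k :=
    funext fun y => hφ _ _ (g.idx_rep k _).symm
  rw [e]
  exact (measurable_of_countable _).comp (g.measurable_idx k)

theorem Sat.measurableSet {g : Grid d} {k : ℕ} {S : Set (E d)} (hS : g.Sat k S) :
    MeasurableSet S := by
  have h : g.Cst k fun y => y ∈ S := fun y u e => propext ⟨hS y u e, hS u y e.symm⟩
  exact measurable_mem.1 h.measurable

theorem volume_cube (k : ℕ) (y : E d) : volume (g.cube k y) = ENNReal.ofReal (g.len k ^ d) := by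
  have e : g.cube k y =
      WithLp.ofLp ⁻¹' Set.pi univ fun i => Ico (g.cor k y i) (g.cor k y i + g.len k) := by
    ext u
    rw [mem_cube_iff, mem_preimage, mem_univ_pi]
    rfl
  rw [e, (PiLp.volume_preserving_ofLp (Fin d)).measure_preimage
    (MeasurableSet.univ_pi fun i => measurableSet_Ico).nullMeasurableSet, Real.volume_pi_Ico]
  simp only [add_sub_cancel_left, Finset.prod_const, Finset.card_univ, Fintype.card_fin]
  rw [ENNReal.ofReal_pow (g.len_pos k).le]

theorem Deep.ball_subset {g : Grid d} {j : ℕ} {z : E d} (h : g.Deep j z) :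
    ball z (g.len j / 6) ⊆ g.cube j z := by
  intro u hu
  refine (g.mem_cube_iff j z u).2 fun i => ?_
  have h2 := PiLp.norm_apply_le (u - z) i
  rw [PiLp.sub_apply, Real.norm_eq_abs] at h2
  have h3 := abs_lt.1 (h2.trans_lt (mem_ball_iff_norm.1 hu))
  constructor <;> linarith [h3.1, h3.2, (h i).1, (h i).2]

theorem isCompact_deep (j : ℕ) (n : Fin d → ℤ) : IsCompact {z | g.idx j z = n ∧ g.Deep j z} := by
  have e : {z | g.idx j z = n ∧ g.Deep j z} = ⋂ i, ({z : E d | g.rep j n i + g.len j / 6 ≤ z i} ∩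
      {z : E d | z i + g.len j / 6 ≤ g.rep j n i + g.len j}) := by
    ext z
    rw [mem_iInter]
    constructor
    · rintro ⟨rfl, h⟩ i
      exact h i
    · intro h
      have h1 : g.idx j z = n := (g.idx_eq_iff j z n).2 fun i => by
        have a : g.o i + g.len j * n i + g.len j / 6 ≤ z i := (h i).1
        have b : z i + g.len j / 6 ≤ g.o i + g.len j * n i + g.len j := (h i).2
        constructor <;> linarith [g.len_pos j]
      subst h1
      exact ⟨rfl, h⟩
  refine Metric.isCompact_of_isClosed_isBounded ?_ ?_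
  · rw [e]
    exact isClosed_iInter fun i => (isClosed_le continuous_const (by fun_prop)).inter
      (isClosed_le (by fun_prop) continuous_const)
  · refine (isBounded_closedBall (x := g.rep j n) (r := √(d : ℝ) * g.len j)).subset fun z hz => ?_
    exact mem_closedBall_iff_norm.2 (g.norm_sub_le_of_idx (hz.1.trans (g.idx_rep j n).symm))

theorem move_len (w : E d) (k : ℕ) : (g.move w).len k = g.len k := rfl

theorem move_R (w : E d) (k : ℕ) : (g.move w).R k = g.R k := rfl

theorem move_sh (w : E d) (k : ℕ) (e : Fin d → ℤ) : (g.move w).sh k e = g.sh k e := rfl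

theorem move_move (w w' : E d) : (g.move w).move w' = g.move (w + w') := by
  simp only [move, add_assoc]

theorem idx_move_sh (k : ℕ) (e : Fin d → ℤ) (y : E d) :
    (g.move (g.sh k e)).idx k y = g.idx k y - e := by
  funext i
  have e1 : (y i - (g.o + g.sh k e) i) / g.len k = (y i - g.o i) / g.len k - (e i : ℝ) := by
    have := (g.len_pos k).ne'
    rw [PiLp.add_apply, sh]
    field_simp
    ring
  change ⌊(y i - (g.o + g.sh k e) i) / g.len k⌋ = _
  rw [e1, Int.floor_sub_intCast]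
  rfl

/-- Moving by a lattice vector of a coarser (or the same) level does not change the cubes. -/
theorem cube_move_sh {j k : ℕ} (h : j ≤ k) (e : Fin d → ℤ) (y : E d) :
    (g.move (g.sh j e)).cube k y = g.cube k y := by
  obtain ⟨m, rfl⟩ := Nat.exists_eq_add_of_le h
  have e1 : g.sh j e = g.sh (j + m) fun i => 2 ^ m * e i := by
    ext i
    change g.len j * (e i : ℝ) = g.len (j + m) * ((2 ^ m * e i : ℤ) : ℝ)
    rw [len_add]
    push_cast
    field_simp
  ext u
  rw [e1]
  change (g.move _).idx _ u = (g.move _).idx _ y ↔ g.idx _ u = g.idx _ y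
  rw [idx_move_sh, idx_move_sh, sub_left_inj]

theorem vk_move_sh {j k : ℕ} (h : j ≤ k) (e : Fin d → ℤ) (μ : E d → E d) :
    (g.move (g.sh j e)).vk μ k = g.vk μ k := by
  funext y
  rw [vk, vk, g.cube_move_sh h]

/-- The vector `(L/3) ε`. -/
noncomputable def thv (ε : Fin d → Bool) : E d := WithLp.toLp 2 fun i => if ε i then g.L / 3 else 0

theorem grid_third (t : ℝ) (j : ℕ) : (∃ n : ℤ, n + 1 / 6 ≤ t ∧ t ≤ n + 5 / 6) ∨
    ∃ n : ℤ, n + 1 / 6 ≤ t - 2 ^ j / 3 ∧ t - 2 ^ j / 3 ≤ n + 5 / 6 := by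
  obtain ⟨q, hq⟩ : ∃ q : ℤ, (2 : ℤ) ^ j = 3 * q + 1 ∨ (2 : ℤ) ^ j = 3 * q + 2 := by
    induction j with
    | zero => exact ⟨0, Or.inl rfl⟩
    | succ j ih =>
      obtain ⟨q, h | h⟩ := ih
      · exact ⟨2 * q, Or.inr (by rw [pow_succ, h]; ring)⟩
      · exact ⟨2 * q + 1, Or.inl (by rw [pow_succ, h]; ring)⟩
  have h1 := Int.floor_le t
  have h2 := Int.lt_floor_add_one t
  have hq' : (2 : ℝ) ^ j = 3 * q + 1 ∨ (2 : ℝ) ^ j = 3 * q + 2 := by exact_mod_cast hq
  by_cases ha : t < ⌊t⌋ + 1 / 6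
  · refine Or.inr ⟨⌊t⌋ - q - 1, ?_⟩
    push_cast
    rcases hq' with h | h <;> rw [h] <;> constructor <;> linarith
  · by_cases hb : ⌊t⌋ + 5 / 6 < t
    · refine Or.inr ⟨⌊t⌋ - q, ?_⟩
      push_cast
      rcases hq' with h | h <;> rw [h] <;> constructor <;> linarith
    · exact Or.inl ⟨⌊t⌋, not_lt.1 ha, not_lt.1 hb⟩

/-- The one third trick. -/
theorem third (j : ℕ) (z : E d) : ∃ ε : Fin d → Bool, (g.move (g.thv ε)).Deep j z := by
  have H : ∀ i, ∃ b : Bool, ∃ n : ℤ,
      n + 1 / 6 ≤ (z i - (g.o i + if b then g.L / 3 else 0)) / g.len j ∧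
        (z i - (g.o i + if b then g.L / 3 else 0)) / g.len j ≤ n + 5 / 6 := by
    intro i
    rcases grid_third ((z i - g.o i) / g.len j) j with h | h
    · exact ⟨false, by simpa using h⟩
    · refine ⟨true, ?_⟩
      have e : (z i - (g.o i + g.L / 3)) / g.len j = (z i - g.o i) / g.len j - 2 ^ j / 3 := by
        have := g.hL.ne'
        rw [len]
        field_simp
        ring
      rw [if_pos rfl, e]
      exact h
  choose ε n hn using H
  refine ⟨ε, fun i => ?_⟩
  have hl := g.len_pos j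
  have h1 : (g.move (g.thv ε)).idx j z i = n i := by
    change ⌊(z i - (g.o i + if ε i then g.L / 3 else 0)) / g.len j⌋ = n i
    rw [Int.floor_eq_iff]
    constructor <;> linarith [(hn i).1, (hn i).2]
  have h2 : (g.move (g.thv ε)).cor j z i =
      (g.o i + if ε i then g.L / 3 else 0) + g.len j * n i := by
    rw [← h1]
    rfl
  have h3 := (le_div_iff₀ hl).1 (hn i).1
  have h4 := (div_le_iff₀ hl).1 (hn i).2
  rw [h2, move_len]
  constructor <;> linarith

end Grid

end Vale.Agent.P137
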