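import Vale.Agent.P137.Grid

/-! P137 Stop: combinatorics of the stopping construction `Triv`, `tp`, `TT`.

Plan. Everything is by induction on `j` from the recursion `tp (j+1) y = if .. then tp j y else j+1`.
`cst_tp`: if `idx (j+1) y = idx (j+1) u` then `idx j y = idx j u` (`idx_mono`), `tp j y = tp j u ≤ j`, and
`vk (tp j y) y = vk (tp j y) u` (`cst_vk`, `idx_mono`). `not_far_tp`: if `tp j y = j` use `not_far_nu`
(`vk j y ≠ 0` since not `Triv`); otherwise `j = j'+1` and the `if` condition holds.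
-/

namespace Vale.Agent.P137

open MeasureTheory Metric Set Filter Topology
open scoped ENNReal NNReal RealInnerProductSpace

variable {d : ℕ}

variable {g : Grid d} {μ : E d → E d}

theorem stop_tp_pos {j : ℕ} {y : E d} (h : 4 ≤ j ∧ ¬ Triv g μ j y ∧
    ¬ Far (3 / 20) (nu (g.vk μ (tp g μ j y) y)) (g.vk μ (j + 1) y)) :
    tp g μ (j + 1) y = tp g μ j y := by
  rw [tp, if_pos h]

theorem stop_tp_neg {j : ℕ} {y : E d} (h : ¬ (4 ≤ j ∧ ¬ Triv g μ j y ∧
    ¬ Far (3 / 20) (nu (g.vk μ (tp g μ j y) y)) (g.vk μ (j + 1) y))) :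
    tp g μ (j + 1) y = j + 1 := by
  rw [tp, if_neg h]

theorem sat_triv (g : Grid d) (μ : E d → E d) (j : ℕ) : g.Sat j {y | Triv g μ j y} := by
  intro y u e hy
  have h1 := g.cst_vk μ j y u e
  have h2 := fun n => (g.cst_vk μ j).shift n y u e
  simp only [mem_ofPred_eq, Triv] at hy h2 ⊢
  simpa only [h1, h2] using hy

theorem tp_le (j : ℕ) (y : E d) : tp g μ j y ≤ j := by
  induction j with
  | zero => exact le_rfl
  | succ j ih =>
    by_cases h : 4 ≤ j ∧ ¬ Triv g μ j y ∧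
        ¬ Far (3 / 20) (nu (g.vk μ (tp g μ j y) y)) (g.vk μ (j + 1) y)
    · rw [stop_tp_pos h]; omega
    · rw [stop_tp_neg h]

theorem four_le_tp {j : ℕ} (hj : 4 ≤ j) (y : E d) : 4 ≤ tp g μ j y := by
  induction j with
  | zero => omega
  | succ j ih =>
    by_cases h : 4 ≤ j ∧ ¬ Triv g μ j y ∧
        ¬ Far (3 / 20) (nu (g.vk μ (tp g μ j y) y)) (g.vk μ (j + 1) y)
    · rw [stop_tp_pos h]; exact ih h.1
    · rw [stop_tp_neg h]; exact hj

theorem cst_tp (g : Grid d) (μ : E d → E d) (j : ℕ) : g.Cst j (tp g μ j) := by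
  induction j with
  | zero => exact fun _ _ _ => rfl
  | succ j ih =>
    intro y u e
    have e1 := g.idx_mono j.le_succ e
    have h1 := ih y u e1
    have h2 : Triv g μ j y ↔ Triv g μ j u := ⟨sat_triv g μ j y u e1, sat_triv g μ j u y e1.symm⟩
    have h3 := g.cst_vk μ (tp g μ j u) y u (g.idx_mono (tp_le j u) e1)
    have h4 := g.cst_vk μ (j + 1) y u e
    by_cases h : 4 ≤ j ∧ ¬ Triv g μ j y ∧
        ¬ Far (3 / 20) (nu (g.vk μ (tp g μ j y) y)) (g.vk μ (j + 1) y)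
    · rw [stop_tp_pos h, stop_tp_pos (by rwa [h1, h2, h3, h4] at h), h1]
    · rw [stop_tp_neg h, stop_tp_neg (by rwa [h1, h2, h3, h4] at h)]

theorem tp_four (y : E d) : tp g μ 4 y = 4 := by
  exact (tp_le 4 y).antisymm (four_le_tp le_rfl y)

/-- The tree continues. -/
theorem tp_succ_ne {j : ℕ} {y : E d} (h : tp g μ (j + 1) y ≠ j + 1) :
    4 ≤ j ∧ ¬ Triv g μ j y ∧ ¬ Far (3 / 20) (nu (g.vk μ (tp g μ j y) y)) (g.vk μ (j + 1) y) ∧
      tp g μ (j + 1) y = tp g μ j y := by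
  by_cases h' : 4 ≤ j ∧ ¬ Triv g μ j y ∧
      ¬ Far (3 / 20) (nu (g.vk μ (tp g μ j y) y)) (g.vk μ (j + 1) y)
  · exact ⟨h'.1, h'.2.1, h'.2.2, stop_tp_pos h'⟩
  · exact absurd (stop_tp_neg h') h

/-- A new top appears. -/
theorem tp_succ_eq {j : ℕ} {y : E d} (hj : 4 ≤ j) (h : tp g μ (j + 1) y = j + 1) :
    Triv g μ j y ∨ Far (3 / 20) (nu (g.vk μ (tp g μ j y) y)) (g.vk μ (j + 1) y) := by
  by_contra h'
  rw [not_or] at h'
  rw [stop_tp_pos ⟨hj, h'⟩] at h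
  have := tp_le (g := g) (μ := μ) j y
  omega

theorem tp_tp (j : ℕ) (y : E d) : tp g μ (tp g μ j y) y = tp g μ j y := by
  induction j with
  | zero => rfl
  | succ j ih =>
    by_cases h : tp g μ (j + 1) y = j + 1
    · rw [h, h]
    · rw [(tp_succ_ne h).2.2.2, ih]

theorem not_triv_tp {j : ℕ} {y : E d} (h : ¬ Triv g μ j y) : ¬ Triv g μ (tp g μ j y) y := by
  induction j with
  | zero => exact h
  | succ j ih =>
    by_cases h' : tp g μ (j + 1) y = j + 1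
    · rwa [h']
    · rw [(tp_succ_ne h').2.2.2]
      exact ih (tp_succ_ne h').2.1

theorem vk_ne_zero {j : ℕ} {y : E d} (h : ¬ Triv g μ j y) : g.vk μ j y ≠ 0 := by
  exact fun h' => h (Or.inl h')

theorem not_far_tp (hd : 0 < d) {j : ℕ} {y : E d} (h : ¬ Triv g μ j y) :
    ¬ Far (3 / 20) (nu (g.vk μ (tp g μ j y) y)) (g.vk μ j y) := by
  by_cases h' : tp g μ j y = j
  · rw [h']
    exact fun hf => not_far_nu hd (vk_ne_zero h) ⟨hf.1, hf.2.1, lt_trans (by norm_num) hf.2.2⟩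
  · rcases j with _ | j
    · exact absurd rfl h'
    · rw [(tp_succ_ne h').2.2.2]
      exact (tp_succ_ne h').2.2.1

theorem cst_vk_tp (g : Grid d) (μ : E d → E d) (j : ℕ) :
    g.Cst j fun y => g.vk μ (tp g μ j y) y := by
  intro y u e
  show g.vk μ (tp g μ j y) y = g.vk μ (tp g μ j u) u
  rw [cst_tp g μ j y u e]
  exact g.cst_vk μ _ y u (g.idx_mono (tp_le j u) e)

theorem isTree_TT {K j0 : ℕ} {y0 : E d} (h : IsTop g μ K j0 y0) :
    IsTree g j0 y0 (TT g μ K j0 y0) := by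
  obtain ⟨h4, hK, ht, hn⟩ := h
  refine ⟨fun j y u e hy => ?_, fun j hj => ?_, ?_, fun j hj y hy => ?_⟩
  · obtain ⟨h1, h2, h3, h5, h6⟩ := hy
    exact ⟨g.sat_cube j0 y0 y u (g.idx_mono h2 e) h1, h2, h3, (cst_tp g μ j y u e).symm.trans h5,
      fun h7 => h6 (sat_triv g μ j u y e.symm h7)⟩
  · exact eq_empty_of_forall_notMem fun y hy => absurd hy.2.1 (not_le.2 hj)
  · refine Subset.antisymm (fun y hy => hy.1) fun y hy => ⟨hy, le_rfl, hK, ?_, fun h7 => ?_⟩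
    · exact (cst_tp g μ j0 y y0 hy).trans ht
    · exact hn (sat_triv g μ j0 y y0 hy h7)
  · obtain ⟨h1, -, h3, h5, -⟩ := hy
    have h6 := tp_succ_ne (g := g) (μ := μ) (j := j) (y := y) (by omega)
    exact ⟨h1, hj, by omega, h6.2.2.2.symm.trans h5, h6.2.1⟩

theorem isTop_of_not_triv {K j : ℕ} {y : E d} (h4 : 4 ≤ j) (hK : j ≤ K) (h : ¬ Triv g μ j y) :
    IsTop g μ K (tp g μ j y) (g.rep (tp g μ j y) (g.idx (tp g μ j y) y)) ∧
      y ∈ TT g μ K (tp g μ j y) (g.rep (tp g μ j y) (g.idx (tp g μ j y) y)) j := by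
  have e := g.idx_rep (tp g μ j y) (g.idx (tp g μ j y) y)
  refine ⟨⟨four_le_tp h4 y, (tp_le j y).trans hK, ?_, fun h' => ?_⟩, e.symm, tp_le j y, hK, rfl, h⟩
  · exact (cst_tp g μ _ _ _ e).trans (tp_tp j y)
  · exact not_triv_tp h (sat_triv g μ _ _ _ e h')

/-- A point of a tree determines the tree. -/
theorem TT_unique {K j0 j : ℕ} {n : Fin d → ℤ} {y : E d} (h : y ∈ TT g μ K j0 (g.rep j0 n) j) :
    j0 = tp g μ j y ∧ n = g.idx j0 y ∧ g.vk μ j0 (g.rep j0 n) = g.vk μ j0 y := by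
  have e : g.idx j0 y = g.idx j0 (g.rep j0 n) := h.1
  exact ⟨h.2.2.2.1.symm, (e.trans (g.idx_rep j0 n)).symm, g.cst_vk μ j0 _ _ e.symm⟩

end Vale.Agent.P137
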