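import Vale.Agent.P137.Mart
import Vale.Agent.P137.Stop

/-! P137 Pack2: packing of the bad mass of all trees.

* `bad_point`: `a = vk j y` (`y = u + sh j e`, not `Triv`, so `a ≠ 0`), `b = vk j u`, `c = vk k u`,
  `ν = nu (..)` a unit vector with `¬ Far (3/20) ν a` (`not_far_tp`). If `bd ≠ 0` then `Far (1/4) ν c`, so
  `Far (1/10) a c` (`Far.tri`). If `b = 0` then `lo = ‖c‖`. If `Far (1/20) b c` then
  `‖c‖ ≤ 800 lo` (`Far.loss`). Otherwise `Far (1/20) b a` (triangle inequality), and since `y` is not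
  `Triv` (use `-e ∈ box d`, `y + sh j (-e) = u`) `‖b‖ ≤ ‖a‖`, so `u ∈ Sfar`.
* `bad_level`: integrate; `∫_{Sfar} ‖vk k‖ ≤ ∫_{Sfar} ‖vk j‖ + (F k - F j)` (`lintegral_vk_le_add`),
  `‖vk j u‖ ≤ 1600 pl` on `Sfar` (`pl_far`), `lintegral_lo`.
* `badsum`: bound the integrand pointwise by the measurable function
  `∑_e ∑' m, (3/4)^m (800 lo + indicator ..)`, exchange sums and integral (`lintegral_finset_sum`,
  `lintegral_tsum`), `tsum_geo`, `exists_sum_F_geo`; the constant contains `(box d).card`.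
-/

namespace Vale.Agent.P137

open MeasureTheory Metric Set Filter Topology
open scoped ENNReal NNReal RealInnerProductSpace

variable {d : ℕ}

/-- Cubes which are far from a heavier neighbour in direction `e`. -/
def Sfar (g : Grid d) (μ : E d → E d) (j : ℕ) (e : Fin d → ℤ) : Set (E d) :=
  {u | Far (1 / 20) (g.vk μ j u) (g.vk μ j (u + g.sh j e)) ∧
    ‖g.vk μ j u‖ ≤ ‖g.vk μ j (u + g.sh j e)‖}

/-- The cone of the tree containing the level `j` cube of `y`. -/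
noncomputable def coneAt (g : Grid d) (μ : E d → E d) (j : ℕ) (y : E d) : Set (E d) :=
  Good (nu (g.vk μ (tp g μ j y) y))

theorem sat_Sfar (g : Grid d) (μ : E d → E d) (j : ℕ) (e : Fin d → ℤ) :
    g.Sat j (Sfar g μ j e) := by
  intro y u h hy
  have h1 := g.cst_vk μ j y u h
  have h2 : g.vk μ j (y + g.sh j e) = g.vk μ j (u + g.sh j e) := (g.cst_vk μ j).shift e y u h
  change Far _ _ _ ∧ _
  rw [← h1, ← h2]
  exact hy

theorem bad_point (hd : 0 < d) (g : Grid d) (μ : E d → E d) (j k : ℕ) {e : Fin d → ℤ}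
    (he : e ∈ box d) {u : E d} (hu : ¬ Triv g μ j (u + g.sh j e)) :
    g.bd μ (coneAt g μ j (u + g.sh j e)) k u ≤ 800 * ENNReal.ofReal (g.lo μ j k u) +
      (Sfar g μ j e).indicator (fun u => ‖g.vk μ k u‖ₑ) u := by
  by_cases hc : g.vk μ k u ∈ coneAt g μ j (u + g.sh j e)
  · rw [g.bd_of_mem hc]
    exact zero_le
  rw [g.bd_of_notMem hc]
  have ha := vk_ne_zero hu
  have h1 : Far (3 / 20 + 1 / 10) (nu (g.vk μ (tp g μ j (u + g.sh j e)) (u + g.sh j e)))
      (g.vk μ k u) := by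
    have h2 : Far (1 / 4) (nu (g.vk μ (tp g μ j (u + g.sh j e)) (u + g.sh j e))) (g.vk μ k u) :=
      not_not.1 hc
    norm_num at h2 ⊢
    exact h2
  have h2 := h1.tri ha (not_far_tp hd hu)
  have key : ‖g.vk μ k u‖ ≤ 800 * g.lo μ j k u →
      ‖g.vk μ k u‖ₑ ≤ 800 * ENNReal.ofReal (g.lo μ j k u) +
        (Sfar g μ j e).indicator (fun u => ‖g.vk μ k u‖ₑ) u := fun h => by
    refine le_trans ?_ le_self_add
    rw [← ofReal_norm, ← ENNReal.ofReal_ofNat 800, ← ENNReal.ofReal_mul (by norm_num)]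
    exact ENNReal.ofReal_le_ofReal h
  by_cases hb : g.vk μ j u = 0
  · refine key ?_
    rw [Grid.lo, hb, uv, smul_zero, inner_zero_left]
    linarith [norm_nonneg (g.vk μ k u)]
  by_cases hf : Far (1 / 20) (g.vk μ j u) (g.vk μ k u)
  · refine key ?_
    have h3 := hf.loss (by norm_num)
    rw [Grid.lo]
    linarith
  have h3 : Far (1 / 20 + 1 / 20) (g.vk μ k u) (g.vk μ j (u + g.sh j e)) := by
    have h4 := h2.symm
    norm_num at h4 ⊢
    exact h4
  have h4 := h3.tri hb fun h => hf h.symm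
  have h5 : u + g.sh j e + g.sh j (-e) = u := by
    ext i
    simp [Grid.sh]
  have h6 : -e ∈ box d := by
    rw [box, Fintype.mem_piFinset] at he ⊢
    intro i
    have h7 := Finset.mem_Icc.1 (he i)
    rw [Finset.mem_Icc, Pi.neg_apply]
    constructor <;> linarith [h7.1, h7.2]
  have h7 : u ∈ Sfar g μ j e := by
    refine ⟨h4, not_lt.1 fun h => hu (Or.inr ⟨-e, h6, ?_⟩)⟩
    rw [h5]
    exact ⟨h, h4.symm⟩
  rw [indicator_of_mem h7]
  exact le_add_self

theorem bad_level (g : Grid d) {μ : E d → E d} (hμ : Integrable μ) {j k : ℕ} (hjk : j ≤ k)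
    (e : Fin d → ℤ) :
    ∫⁻ u, (800 * ENNReal.ofReal (g.lo μ j k u) +
        (Sfar g μ j e).indicator (fun u => ‖g.vk μ k u‖ₑ) u) ≤
      801 * ENNReal.ofReal (g.F μ k - g.F μ j) +
        1600 * ∫⁻ y, ENNReal.ofReal (pl (g.vk μ j y) (g.vk μ j (y + g.sh j e))) := by
  have hS := (sat_Sfar g μ j e).measurableSet
  rw [lintegral_add_left (((g.measurable_lo j k).ennreal_ofReal).const_mul 800),
    lintegral_const_mul' _ _ (by norm_num), g.lintegral_lo hμ hjk, lintegral_indicator hS]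
  have h1 := g.lintegral_vk_le_add hμ hjk (sat_Sfar g μ j e)
  have h2 : ∫⁻ y in Sfar g μ j e, ‖g.vk μ j y‖ₑ ≤
      1600 * ∫⁻ y, ENNReal.ofReal (pl (g.vk μ j y) (g.vk μ j (y + g.sh j e))) := by
    rw [← lintegral_const_mul' _ _ (by norm_num)]
    refine le_trans (setLIntegral_mono' hS fun y hy => ?_) (setLIntegral_le_lintegral _ _)
    rw [← ofReal_norm, ← ENNReal.ofReal_ofNat 1600, ← ENNReal.ofReal_mul (by norm_num)]
    exact ENNReal.ofReal_le_ofReal (pl_far hy.1 hy.2)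
  calc _ ≤ 800 * ENNReal.ofReal (g.F μ k - g.F μ j) +
        (1600 * (∫⁻ y, ENNReal.ofReal (pl (g.vk μ j y) (g.vk μ j (y + g.sh j e)))) +
          ENNReal.ofReal (g.F μ k - g.F μ j)) := by
        gcongr
        exact h1.trans (by gcongr)
    _ = _ := by ring

theorem pack2_meas (g : Grid d) (μ : E d → E d) (j k : ℕ) (e : Fin d → ℤ) :
    Measurable fun u => 800 * ENNReal.ofReal (g.lo μ j k u) +
      (Sfar g μ j e).indicator (fun u => ‖g.vk μ k u‖ₑ) u :=
  (((g.measurable_lo j k).ennreal_ofReal).const_mul 800).add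
    ((g.measurable_vk μ k).enorm.indicator (sat_Sfar g μ j e).measurableSet)

theorem pack2_level (hd : 0 < d) (g : Grid d) {μ : E d → E d} (hμ : Integrable μ) (j : ℕ) :
    ∫⁻ u, ∑ e ∈ box d, {u | ¬ Triv g μ j (u + g.sh j e)}.indicator
      (fun u => g.BD μ (coneAt g μ j (u + g.sh j e)) (j + aa d) u) u ≤
      ((box d).card : ℝ≥0∞) * 801 * (∑' m : ℕ, (3 / 4 : ℝ≥0∞) ^ m *
        ENNReal.ofReal (g.F μ (j + aa d + m) - g.F μ j)) + 6400 * PL g μ j := by
  have h1 : ∀ u, ∑ e ∈ box d, {u | ¬ Triv g μ j (u + g.sh j e)}.indicator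
      (fun u => g.BD μ (coneAt g μ j (u + g.sh j e)) (j + aa d) u) u ≤
      ∑ e ∈ box d, ∑' m : ℕ, (3 / 4 : ℝ≥0∞) ^ m * (800 * ENNReal.ofReal (g.lo μ j (j + aa d + m) u) +
        (Sfar g μ j e).indicator (fun u => ‖g.vk μ (j + aa d + m) u‖ₑ) u) := by
    intro u
    refine Finset.sum_le_sum fun e he => ?_
    by_cases hu : u ∈ {u | ¬ Triv g μ j (u + g.sh j e)}
    · rw [indicator_of_mem hu, Grid.BD]
      refine ENNReal.tsum_le_tsum fun m => ?_
      gcongr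
      exact bad_point hd g μ j _ he hu
    · rw [indicator_of_notMem hu]
      exact zero_le
  refine (lintegral_mono h1).trans ?_
  rw [lintegral_finsetSum _ fun e _ =>
    Measurable.tsum fun m => (pack2_meas g μ j (j + aa d + m) e).const_mul _]
  have h2 : ∀ e ∈ box d, ∫⁻ u, ∑' m : ℕ, (3 / 4 : ℝ≥0∞) ^ m *
      (800 * ENNReal.ofReal (g.lo μ j (j + aa d + m) u) +
        (Sfar g μ j e).indicator (fun u => ‖g.vk μ (j + aa d + m) u‖ₑ) u) ≤
      801 * (∑' m : ℕ, (3 / 4 : ℝ≥0∞) ^ m * ENNReal.ofReal (g.F μ (j + aa d + m) - g.F μ j)) +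
        6400 * ∫⁻ y, ENNReal.ofReal (pl (g.vk μ j y) (g.vk μ j (y + g.sh j e))) := by
    intro e _
    rw [lintegral_tsum fun m => ((pack2_meas g μ j (j + aa d + m) e).const_mul _).aemeasurable]
    have h3 : ∀ m : ℕ, ∫⁻ u, (3 / 4 : ℝ≥0∞) ^ m *
        (800 * ENNReal.ofReal (g.lo μ j (j + aa d + m) u) +
          (Sfar g μ j e).indicator (fun u => ‖g.vk μ (j + aa d + m) u‖ₑ) u) ≤
        801 * ((3 / 4 : ℝ≥0∞) ^ m * ENNReal.ofReal (g.F μ (j + aa d + m) - g.F μ j)) +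
          (3 / 4 : ℝ≥0∞) ^ m *
            (1600 * ∫⁻ y, ENNReal.ofReal (pl (g.vk μ j y) (g.vk μ j (y + g.sh j e)))) := by
      intro m
      rw [lintegral_const_mul _ (pack2_meas g μ j (j + aa d + m) e)]
      refine (mul_le_mul_right (bad_level g hμ (by omega) e) _).trans (le_of_eq ?_)
      ring
    refine (ENNReal.tsum_le_tsum h3).trans (le_of_eq ?_)
    rw [ENNReal.tsum_add, ENNReal.tsum_mul_left, ENNReal.tsum_mul_right, Grid.tsum_geo, ← mul_assoc]
    norm_num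
  refine (Finset.sum_le_sum h2).trans (le_of_eq ?_)
  rw [Finset.sum_add_distrib, Finset.sum_const, nsmul_eq_mul, ← Finset.mul_sum, PL, mul_assoc]

theorem badsum (hd : 0 < d) : ∃ C : ℝ≥0, ∀ (g : Grid d) (μ : E d → E d) (K : ℕ), Integrable μ →
    ∑ j ∈ Finset.Icc 4 K, ∫⁻ u, ∑ e ∈ box d, {u | ¬ Triv g μ j (u + g.sh j e)}.indicator
      (fun u => g.BD μ (coneAt g μ j (u + g.sh j e)) (j + aa d) u) u ≤ C * bud g μ K := by
  obtain ⟨C1, hC1⟩ := Grid.exists_sum_F_geo (d := d) (aa d)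
  refine ⟨((box d).card : ℝ≥0) * 801 * C1 + 6400, fun g μ K hμ => ?_⟩
  refine (Finset.sum_le_sum fun j _ => pack2_level hd g hμ j).trans ?_
  rw [Finset.sum_add_distrib, ← Finset.mul_sum, ← Finset.mul_sum, bud]
  have h1 := hC1 g μ hμ (Finset.Icc 4 K)
  push_cast
  calc _ ≤ ((box d).card : ℝ≥0∞) * 801 * (C1 * ∫⁻ y, ‖μ y‖ₑ) +
        6400 * ∑ j ∈ Finset.Icc 4 K, PL g μ j := by gcongr
    _ ≤ ((box d).card : ℝ≥0∞) * 801 * (C1 * ((∫⁻ y, ‖μ y‖ₑ) + ∑ j ∈ Finset.Icc 4 K, PL g μ j)) +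
        6400 * ((∫⁻ y, ‖μ y‖ₑ) + ∑ j ∈ Finset.Icc 4 K, PL g μ j) := by
        gcongr
        · exact le_self_add
        · exact le_add_self
    _ = _ := by ring

end Vale.Agent.P137
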