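import Vale.Agent.P137.Pack1
import Vale.Agent.P137.Pack2
import Vale.Agent.P137.Geo

/-! P137 Sum: the costs of all trees add up.

Trees are indexed by `p = (j0, n) : ℕ × (Fin d → ℤ)` with `IsTop g μ K j0 (g.rep j0 n)`.
* top terms: for fixed `j0 ∈ Icc 4 K` the cubes `cube j0 (rep j0 n)` are disjoint and contained in
  `{tp j0 = j0}` (`cst_tp`), so `∑' n ≤ ∫_{tp j0 = j0} ‖vk j0‖` (`lintegral_iUnion`, or `lintegral_tsum` and
  a pointwise bound); `ENNReal.tsum_prod`, `tsum_eq_sum`, `topsum`.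
* bad terms: exchange the sums (`ENNReal.tsum_comm`); for `j ∉ Icc 4 K` all `TT .. j` are empty; for
  fixed `j`, `∑' p ∫_{HH p j} BD = ∫ ∑' p indicator` (`lintegral_tsum`, `sat_HH`, `measurable_BD`).
  Pointwise: if `u ∈ HH p j` there is `y ∈ TT p j` with `e = idx j y - idx j u ∈ box d`; then
  `y' = u + sh j e` has the same index as `y` (`idx_add_sh`), lies in `TT p j` (`sat`), so `p` is
  determined by `e` (`TT_unique`) and the cone of `p` is `coneAt g μ j y'`. Hence each term is at most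
  `∑_e (if p = P e then term e else 0)`, and summing over `p` (`tsum_ite_eq`) gives the integrand
  of `badsum`.
-/

namespace Vale.Agent.P137

open MeasureTheory Metric Set Filter Topology
open scoped ENNReal NNReal RealInnerProductSpace

variable {d : ℕ}

/-- The set of tree indices. -/
def sumP (g : Grid d) (μ : E d → E d) (K : ℕ) : Set (ℕ × (Fin d → ℤ)) :=
  {p | IsTop g μ K p.1 (g.rep p.1 p.2)}

theorem sum_lint {ι : Type} [Countable ι] (P : Set ι) (S : ι → Set (E d)) (f : ι → E d → ℝ≥0∞)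
    (hS : ∀ p ∈ P, MeasurableSet (S p)) (hf : ∀ p, Measurable (f p)) :
    ∑' p, P.indicator (fun p => ∫⁻ u in S p, f p u) p =
      ∫⁻ u, ∑' p, P.indicator (fun p => (S p).indicator (f p) u) p := by
  rw [lintegral_tsum]
  · refine tsum_congr fun p => ?_
    by_cases hp : p ∈ P
    · simp only [indicator_of_mem hp]
      rw [lintegral_indicator (hS p hp)]
    · simp [indicator_of_notMem hp]
  · intro p
    by_cases hp : p ∈ P
    · simp only [indicator_of_mem hp]
      exact ((hf p).indicator (hS p hp)).aemeasurable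
    · simp [indicator_of_notMem hp]

theorem tsum_le_fin {ι κ : Type} (s : Finset κ) (a : ι → ℝ≥0∞) (b : κ → ℝ≥0∞) (P : κ → ι)
    (h : ∀ p, a p = 0 ∨ ∃ e ∈ s, p = P e ∧ a p ≤ b e) : ∑' p, a p ≤ ∑ e ∈ s, b e := by
  classical
  calc ∑' p, a p ≤ ∑' p, ∑ e ∈ s, if p = P e then b e else 0 := by
        refine ENNReal.tsum_le_tsum fun p => ?_
        rcases h p with h0 | ⟨e, he, hp, hle⟩
        · rw [h0]; exact zero_le
        · refine hle.trans (le_trans ?_ (Finset.single_le_sum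
            (f := fun e => if p = P e then b e else 0) (fun _ _ => zero_le) he))
          simp [hp]
    _ = ∑ e ∈ s, ∑' p, if p = P e then b e else 0 :=
        Summable.tsum_finsetSum fun _ _ => ENNReal.summable
    _ = ∑ e ∈ s, b e := Finset.sum_congr rfl fun e _ => tsum_ite_eq _ _

theorem sum_top (g : Grid d) (μ : E d → E d) (K : ℕ) :
    ∑' p : ℕ × (Fin d → ℤ), (sumP g μ K).indicator
      (fun p => ∫⁻ u in g.cube p.1 (g.rep p.1 p.2), ‖g.vk μ p.1 u‖ₑ) p ≤
    ∑ j ∈ Finset.Icc 4 K, ∫⁻ y in {y | tp g μ j y = j}, ‖g.vk μ j y‖ₑ := by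
  have hm : ∀ j, MeasurableSet {y | tp g μ j y = j} := fun j =>
    (cst_tp g μ j).measurable (measurableSet_singleton j)
  rw [sum_lint (sumP g μ K) (fun p => g.cube p.1 (g.rep p.1 p.2)) (fun p u => ‖g.vk μ p.1 u‖ₑ)
    (fun p _ => (g.sat_cube _ _).measurableSet) (fun p => (g.measurable_vk μ p.1).enorm)]
  simp_rw [← lintegral_indicator (hm _)]
  rw [← lintegral_finsetSum _ fun j _ => ((g.measurable_vk μ j).enorm).indicator (hm j)]
  refine lintegral_mono fun u => ?_
  refine tsum_le_fin _ _ _ (fun j => (j, g.idx j u)) fun p => ?_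
  by_cases hp : p ∈ sumP g μ K
  · by_cases hu : u ∈ g.cube p.1 (g.rep p.1 p.2)
    · right
      have hu' : g.idx p.1 u = g.idx p.1 (g.rep p.1 p.2) := hu
      refine ⟨p.1, Finset.mem_Icc.2 ⟨hp.1, hp.2.1⟩, ?_, ?_⟩
      · rw [hu', g.idx_rep]
      · have ht : u ∈ {y | tp g μ p.1 y = p.1} := (cst_tp g μ p.1 _ _ hu').trans hp.2.2.1
        rw [indicator_of_mem hp, indicator_of_mem hu, indicator_of_mem ht]
    · left
      rw [indicator_of_mem hp, indicator_of_notMem hu]
  · left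
    rw [indicator_of_notMem hp]

theorem sum_bad_level (g : Grid d) (μ : E d → E d) (K j : ℕ) :
    ∑' p : ℕ × (Fin d → ℤ), (sumP g μ K).indicator
      (fun p => ∫⁻ u in HH g p.1 (g.rep p.1 p.2) (TT g μ K p.1 (g.rep p.1 p.2)) j,
        g.BD μ (Good (nu (g.vk μ p.1 (g.rep p.1 p.2)))) (j + aa d) u) p ≤
    ∫⁻ u, ∑ e ∈ box d, {u | ¬ Triv g μ j (u + g.sh j e)}.indicator
      (fun u => g.BD μ (coneAt g μ j (u + g.sh j e)) (j + aa d) u) u := by
  rw [sum_lint (sumP g μ K) (fun p => HH g p.1 (g.rep p.1 p.2) (TT g μ K p.1 (g.rep p.1 p.2)) j)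
    (fun p u => g.BD μ (Good (nu (g.vk μ p.1 (g.rep p.1 p.2)))) (j + aa d) u)
    (fun p hp => ((isTree_TT hp).sat_HH j).measurableSet) (fun p => g.measurable_BD _ _)]
  refine lintegral_mono fun u => ?_
  refine tsum_le_fin _ _ _ (fun e => (tp g μ j (u + g.sh j e),
    g.idx (tp g μ j (u + g.sh j e)) (u + g.sh j e))) fun p => ?_
  by_cases hp : p ∈ sumP g μ K
  · by_cases hu : u ∈ HH g p.1 (g.rep p.1 p.2) (TT g μ K p.1 (g.rep p.1 p.2)) j
    · right
      obtain ⟨-, y, hy, hyu⟩ := id hu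
      set e : Fin d → ℤ := g.idx j y - g.idx j u with he
      have hidx : g.idx j y = g.idx j (u + g.sh j e) := by
        rw [g.idx_add_sh, he]; abel
      have hy' : u + g.sh j e ∈ TT g μ K p.1 (g.rep p.1 p.2) j := (isTree_TT hp).sat j _ _ hidx hy
      obtain ⟨h1, h2, h3⟩ := TT_unique hy'
      refine ⟨e, ?_, ?_, ?_⟩
      · refine Fintype.mem_piFinset.2 fun i => Finset.mem_Icc.2 ?_
        have := abs_le.1 (hyu i)
        simp only [he, Pi.sub_apply]
        push_cast at this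
        omega
      · refine Prod.ext h1 ?_
        rw [← h1]; exact h2
      · have ht : u ∈ {u | ¬ Triv g μ j (u + g.sh j e)} := hy'.2.2.2.2
        rw [indicator_of_mem hp, indicator_of_mem hu, indicator_of_mem ht, h3, coneAt, ← h1]
    · left
      rw [indicator_of_mem hp, indicator_of_notMem hu]
  · left
    rw [indicator_of_notMem hp]

theorem sum_bad_zero (g : Grid d) (μ : E d → E d) (K j : ℕ) (hj : j ∉ Finset.Icc 4 K) :
    ∑' p : ℕ × (Fin d → ℤ), (sumP g μ K).indicator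
      (fun p => ∫⁻ u in HH g p.1 (g.rep p.1 p.2) (TT g μ K p.1 (g.rep p.1 p.2)) j,
        g.BD μ (Good (nu (g.vk μ p.1 (g.rep p.1 p.2)))) (j + aa d) u) p = 0 := by
  refine ENNReal.tsum_eq_zero.2 fun p => ?_
  by_cases hp : p ∈ sumP g μ K
  · have : HH g p.1 (g.rep p.1 p.2) (TT g μ K p.1 (g.rep p.1 p.2)) j = ∅ := by
      refine eq_empty_of_forall_notMem ?_
      rintro u ⟨-, y, hy, -⟩
      exact hj (Finset.mem_Icc.2 ⟨hp.1.trans hy.2.1, hy.2.2.1⟩)
    rw [indicator_of_mem hp, this]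
    simp
  · rw [indicator_of_notMem hp]

theorem treesum (hd : 0 < d) : ∃ C : ℝ≥0, ∀ (g : Grid d) (μ : E d → E d) (K : ℕ), Integrable μ →
    ∑' p : ℕ × (Fin d → ℤ), {p : ℕ × (Fin d → ℤ) | IsTop g μ K p.1 (g.rep p.1 p.2)}.indicator
      (fun p => cost g μ (Good (nu (g.vk μ p.1 (g.rep p.1 p.2)))) p.1 (g.rep p.1 p.2)
        (TT g μ K p.1 (g.rep p.1 p.2))) p ≤ C * bud g μ K := by
  obtain ⟨C1, h1⟩ := topsum hd
  obtain ⟨C2, h2⟩ := badsum hd
  refine ⟨C1 + C2, fun g μ K hμ => ?_⟩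
  have e : ∀ p : ℕ × (Fin d → ℤ), (sumP g μ K).indicator
      (fun p => cost g μ (Good (nu (g.vk μ p.1 (g.rep p.1 p.2)))) p.1 (g.rep p.1 p.2)
        (TT g μ K p.1 (g.rep p.1 p.2))) p =
      (sumP g μ K).indicator
        (fun p => ∫⁻ u in g.cube p.1 (g.rep p.1 p.2), ‖g.vk μ p.1 u‖ₑ) p +
      ∑' j : ℕ, (sumP g μ K).indicator
        (fun p => ∫⁻ u in HH g p.1 (g.rep p.1 p.2) (TT g μ K p.1 (g.rep p.1 p.2)) j,
          g.BD μ (Good (nu (g.vk μ p.1 (g.rep p.1 p.2)))) (j + aa d) u) p := by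
    intro p
    by_cases hp : p ∈ sumP g μ K
    · simp only [indicator_of_mem hp, cost]
    · simp [indicator_of_notMem hp]
  change ∑' p : ℕ × (Fin d → ℤ), (sumP g μ K).indicator _ p ≤ _
  rw [tsum_congr e, ENNReal.tsum_add, ENNReal.tsum_comm, tsum_eq_sum (sum_bad_zero g μ K)]
  push_cast
  rw [add_mul]
  exact add_le_add ((sum_top g μ K).trans (h1 g μ K hμ))
    ((Finset.sum_le_sum fun j _ => sum_bad_level g μ K j).trans (h2 g μ K hμ))

end Vale.Agent.P137
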