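import Vale.Agent.P137.Tree
import Vale.Agent.P137.Sum

/-! P137 GridMain: the gradient bound for one grid.

`AA h δ η g S ⊆ AA Striv ∪ ⋃ p, A p` where `Striv j = {y | 4 ≤ j ≤ K, cube 4 y ⊆ O, Triv j y}` (a `Sat j`
set inside `O`) and `A p = AA (TT p)` if `IsTop p` and `cube p.1 (rep p) ⊆ O`, else `∅`
(`isTop_of_not_triv`; `cube (tp j z) z ⊆ cube 4 z ⊆ O` by `four_le_tp`, `cube_subset`, `cube_eq`).
Use `lintegral_mono_set`, `lintegral_union_le`, `lintegral_iUnion_le`, then `triv_bound` + `trivsum`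
(`tsum_eq_sum`) and `tree_bound` (with `Pair.mono`, `isTree_TT`, `nu_spec`, `Good_inner`,
`R_anti`) + `treesum`.
-/

namespace Vale.Agent.P137

open MeasureTheory Metric Set Filter Topology
open scoped ENNReal NNReal RealInnerProductSpace

variable {d : ℕ}

theorem grid_bound (hd : 0 < d) : ∃ C : ℝ≥0, ∀ (h : E d → ℝ) (μ : E d → E d) (O : Set (E d))
    (δ η : ℝ) (g : Grid d) (K : ℕ), Pair h μ O → 0 < δ → δ ≤ η → g.R 4 ≤ η →
    ∫⁻ x in AA h δ η g (fun j => {z | 4 ≤ j ∧ j ≤ K ∧ g.cube 4 z ⊆ O}),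
      ‖fderiv ℝ (Nm h δ η) x‖ₑ ≤ C * bud g μ K := by
  classical
  obtain ⟨C1, hC1⟩ := triv_bound hd
  obtain ⟨C2, hC2⟩ := trivsum (d := d)
  obtain ⟨C3, hC3⟩ := tree_bound hd
  obtain ⟨C4, hC4⟩ := treesum hd
  refine ⟨C1 * C2 + C3 * C4, fun h μ O δ η g K hP hδ hδη hη => ?_⟩
  let S : ℕ → Set (E d) := fun j => {y | 4 ≤ j ∧ j ≤ K ∧ g.cube 4 y ⊆ O ∧ Triv g μ j y}
  let A : ℕ × (Fin d → ℤ) → Set (E d) := fun p =>
    if IsTop g μ K p.1 (g.rep p.1 p.2) ∧ g.cube p.1 (g.rep p.1 p.2) ⊆ O then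
      AA h δ η g (TT g μ K p.1 (g.rep p.1 p.2)) else ∅
  have hsub : AA h δ η g (fun j => {z | 4 ≤ j ∧ j ≤ K ∧ g.cube 4 z ⊆ O}) ⊆
      AA h δ η g S ∪ ⋃ p, A p := by
    rintro x ⟨hx, j, z, r, h1, h2, h3, h4, h5, h6, h7⟩
    by_cases ht : Triv g μ j z
    · exact Or.inl ⟨hx, j, z, r, h1, h2, h3, h4, h5, h6, h7, ht⟩
    · obtain ⟨t1, t2⟩ := isTop_of_not_triv h5 h6 ht
      refine Or.inr (mem_iUnion.2 ⟨(tp g μ j z, g.idx (tp g μ j z) z), ?_⟩)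
      have hc : g.cube (tp g μ j z) (g.rep (tp g μ j z) (g.idx (tp g μ j z) z)) ⊆ O := by
        rw [g.cube_eq (g.idx_rep _ _)]
        exact (g.cube_subset (four_le_tp h5 z) z).trans h7
      simp only [A, if_pos (And.intro t1 hc)]
      exact ⟨hx, j, z, r, h1, h2, h3, h4, t2⟩
  have hS : ∀ j, g.Sat j (S j) := by
    rintro j y u e ⟨h1, h2, h3, h4⟩
    exact ⟨h1, h2, g.cube_eq (g.idx_mono h1 e) ▸ h3, sat_triv g μ j y u e h4⟩
  have b1 : ∫⁻ x in AA h δ η g S, ‖fderiv ℝ (Nm h δ η) x‖ₑ ≤ C1 * (C2 * bud g μ K) := by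
    refine (hC1 h μ O δ η g S hP hδ hδη hS fun j y hy => hy.2.2.1 (g.mem_cube_self 4 y)).trans
      (mul_le_mul_right (le_trans ?_ (hC2 g μ K hP.im)) _)
    rw [tsum_eq_sum (s := Finset.Icc 4 K) fun j hj => ?_]
    · exact Finset.sum_le_sum fun j _ => lintegral_mono_set fun y hy => hy.2.2.2
    · have : S j = ∅ := eq_empty_of_forall_notMem fun y hy =>
        hj (Finset.mem_Icc.2 ⟨hy.1, hy.2.1⟩)
      rw [this, Measure.restrict_empty, lintegral_zero_measure]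
  have b2 : ∫⁻ x in ⋃ p, A p, ‖fderiv ℝ (Nm h δ η) x‖ₑ ≤ C3 * (C4 * bud g μ K) := by
    refine (lintegral_iUnion_le _ _).trans (le_trans ?_ (mul_le_mul_right (hC4 g μ K hP.im) _))
    rw [← ENNReal.tsum_mul_left]
    refine ENNReal.tsum_le_tsum fun p => ?_
    by_cases hp : IsTop g μ K p.1 (g.rep p.1 p.2) ∧ g.cube p.1 (g.rep p.1 p.2) ⊆ O
    · simp only [A, if_pos hp]
      rw [indicator_of_mem (show p ∈ {p : ℕ × (Fin d → ℤ) | IsTop g μ K p.1 (g.rep p.1 p.2)}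
        from hp.1)]
      obtain ⟨n1, -, n3⟩ := nu_spec hd (vk_ne_zero hp.1.2.2.2)
      exact hC3 h μ δ η g _ _ _ _ _ (hP.mono hp.2) hδ hδη ((g.R_anti hp.1.1).trans hη)
        (isTree_TT hp.1) n1 n3 (measurableSet_Good _) (Good_inner n1)
    · simp only [A, if_neg hp, Measure.restrict_empty, lintegral_zero_measure]
      exact zero_le
  refine (lintegral_mono_set hsub).trans ((lintegral_union_le _ _ _).trans ?_)
  rw [ENNReal.coe_add, ENNReal.coe_mul, ENNReal.coe_mul, add_mul, mul_assoc, mul_assoc]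
  exact add_le_add b1 b2

end Vale.Agent.P137
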