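import Vale.Agent.P137.LowB

/-! P137 Low: lower exposed points of a tree.

`N = Nm h δ η`, `lam = N x`, `β = be d`, `t = g.tt j0 y0`, `p s = x + s ν`. A ball `(z', r')` with level
`j'` is *admissible* if `j0 ≤ j'`, `R j'/2 ≤ r' ≤ R j'`, `δ ≤ r'`, `z' ∈ Nb T 3 j'`, `20 r' ≤ t z'`, and
*active* if `lam ≤ av h z' r'`; note `r' ≤ R j0 ≤ η`. Let `P` be the set of `s > 0` such that `s < s'`
for every later same level `Act` point `p s'`, and such that some admissible active ball has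
`‖p (s - β r') - z'‖ ≤ r'` and `‖p (s + β r') - z'‖ ≤ r'`. For such data the open segment
`(s - β r', s + β r')` lies in the open ball (`seg_lt`), which contains no same level `Act` point
(`Act.av_lt`), neither `x` nor a later one: so `0 ≤ s - β r'` and `s + β r' ≤ s'` for all later `s'`.
* `P` is nonempty: the optimal ball with `s = β r` (`Opt.inner_le`, `chord_init`;
  `t z ≥ len j / 6 ≥ 300 R j` by `le_tt`, `Deep.ball_subset`, `cube_subset_of_mem`, `subset_cube`).
* `P` is bounded by `√d len j0` (`p s` and `x` are in the cube: `t > 0` there).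
* choose `s ∈ P` with `sSup P - β δ / 2 < s`, ball `(z', r')`, `R = R j'`. The charging interval is
  `s0 = s - β r'/2` (so `seg_deep` applies with `a = p (s - β r')`; `g0 R ≤ β r'`).
  - `40 r' ≤ t z'`, `z' ∈ Nb 2 j'`: the ball `(z' + (β r'/2) ν, r')` is admissible (`Nb_near`,
    `tt_le_add`) with position `s + β r'/2 > sSup P`, hence not active: `near_flat`.
  - `40 r' ≤ t z'`, `z' ∉ Nb 2 j'`: then `j' > j0` (else `z' ∈ cube = T j0`), `(z', 2 r')` is admissible at
    level `j' - 1` (`Nb_mono`, `Nb_succ`, `R_succ`) with position `s + β r'/2`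
    (`5/2 β r' ≤ r'`), hence not active: `near_rho`.
  - `t z' < 40 r'`: `y1 = p s` has `19 r' ≤ t y1`, `r' ≤ rad y1 ≤ 41 r'/19`, `y1 ∈ Nb 4 j'`. If
    `av y1 (rad y1) ≤ lam` use `near_sigma` (`p = y1`); otherwise `ivt_charge` with `s1 = s`
    (`x ∈ Nb 1 j`, `rad x ≥ R j ≥ r`).
-/

namespace Vale.Agent.P137

open MeasureTheory Metric Set Filter Topology
open scoped ENNReal NNReal RealInnerProductSpace

variable {d : ℕ}

theorem Chg.mono_low {h N : E d → ℝ} {C C' : ℝ≥0} {R : ℕ → ℝ} {w : ℕ → E d → ℝ≥0∞} {Tm : ℝ}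
    {u x : E d} (hC : C ≤ C') (hc : Chg h N C R w Tm u x) : Chg h N C' R w Tm u x := by
  obtain ⟨j, s0, h1, h2, h3, h4⟩ := hc
  exact ⟨j, s0, h1, h2, fun s hs => (h3 s hs).mono hC fun _ _ => le_rfl, h4⟩

theorem R_le_low (hd : 0 < d) (g : Grid d) (j : ℕ) : 2000 * g.R j ≤ g.len j := by
  have h1 := g.R_le_len j
  have h2 := one_le_sqrt hd
  have h3 := g.R_pos j
  nlinarith

theorem pt_low (x ν z : E d) (a b : ℝ) : x + (a + b) • ν - z = x + a • ν + b • ν - z := by
  rw [add_smul, add_assoc]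

theorem norm_pt_low {ν : E d} (hν : ‖ν‖ = 1) (x z : E d) (a b : ℝ) :
    ‖x + b • ν - z‖ ≤ ‖x + a • ν - z‖ + |b - a| := by
  have e : x + b • ν - z = (x + a • ν - z) + (b - a) • ν := by
    rw [sub_smul]; abel
  rw [e]
  refine (norm_add_le _ _).trans ?_
  rw [norm_smul, hν, mul_one, Real.norm_eq_abs]

theorem norm_pp_low {ν : E d} (hν : ‖ν‖ = 1) (x : E d) (a b : ℝ) :
    ‖x + b • ν - (x + a • ν)‖ = |b - a| := by
  have e : x + b • ν - (x + a • ν) = (b - a) • ν := by
    rw [sub_smul]; abel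
  rw [e, norm_smul, hν, mul_one, Real.norm_eq_abs]

theorem seg_low {ν : E d} (hν : ‖ν‖ = 1) {x z : E d} {r a b σ : ℝ} (ha : ‖x + a • ν - z‖ ≤ r)
    (hb : ‖x + b • ν - z‖ ≤ r) (h1 : a < σ) (h2 : σ < b) : ‖x + σ • ν - z‖ < r := by
  have := seg_lt (a := x + a • ν) (z := z) (l := b - a) (s := σ - a) hν ha
    (by rw [← pt_low, add_sub_cancel]; exact hb) (by linarith) (by linarith)
  rwa [← pt_low, add_sub_cancel] at this

/-- Admissible active balls with a thick chord centred at position `s`. -/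
def AdmLow (h : E d → ℝ) (δ lam : ℝ) (g : Grid d) (j0 : ℕ) (y0 : E d) (T : ℕ → Set (E d))
    (ν x : E d) (s : ℝ) (j : ℕ) (z : E d) (r : ℝ) : Prop :=
  j0 ≤ j ∧ g.R j / 2 ≤ r ∧ r ≤ g.R j ∧ δ ≤ r ∧ z ∈ g.Nb T 3 j ∧ 20 * r ≤ g.tt j0 y0 z ∧
    ‖x + (s - be d * r) • ν - z‖ ≤ r ∧ ‖x + (s + be d * r) • ν - z‖ ≤ r ∧ lam ≤ av h z r

theorem low_point (hd : 0 < d) : ∃ C : ℝ≥0, ∀ (h : E d → ℝ) (μ : E d → E d) (δ η : ℝ)
    (g : Grid d) (j0 : ℕ) (y0 : E d) (T : ℕ → Set (E d)) (ν : E d) (Gd : Set (E d))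
    (x z : E d) (r : ℝ) (j : ℕ), Pair h μ (g.cube j0 y0) → 0 < δ → g.R j0 ≤ η →
    IsTree g j0 y0 T → Cone ν Gd → ‖ν‖ = 1 → (∀ i, 1 / (80 * √(d : ℝ)) ≤ |ν i|) →
    Act (Nm h δ η) x → be d * ‖fderiv ℝ (Nm h δ η) x‖ ≤ fderiv ℝ (Nm h δ η) x ν →
    Opt h δ η x z r → g.R j / 2 ≤ r → r ≤ g.R j → g.Deep j z → z ∈ T j →
    Chg h (Nm h δ η) C g.R (wT g μ Gd j0 y0 T) (√(d : ℝ) * g.len j0) ν x := by
  obtain ⟨C1, hC1⟩ := near_flat hd
  obtain ⟨C2, hC2⟩ := near_rho hd
  obtain ⟨C3, hC3⟩ := near_sigma hd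
  obtain ⟨C4, hC4⟩ := ivt_charge hd
  refine ⟨C1 + C2 + C3 + C4, ?_⟩
  intro h μ δ η g j0 y0 T ν Gd x z r j hP hδ hη hT hG hν hνi hx hdir ho hr1 hr2 hdeep hz
  have hβ := be_pos hd
  have hβ' := be_le hd
  have hj := hT.le_of_mem hz
  have hRj := g.R_pos j
  have hr0 : 0 < r := hδ.trans_le ho.1
  have htz : 300 * g.R j ≤ g.tt j0 y0 z := by
    have h1 := g.le_tt j0 y0 hd (z := z) (ρ := g.len j / 6) (by have := g.len_pos j; positivity)
      (hdeep.ball_subset.trans ((hT.cube_subset_of_mem hz).trans (hT.subset_cube j)))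
    have h2 := R_le_low hd g j
    linarith
  have hxz := ho.2.2.1
  have htx : 299 * g.R j ≤ g.tt j0 y0 x := by
    have h1 := g.tt_le_add j0 y0 hd z x
    rw [norm_sub_rev] at h1
    linarith
  have hbound : ∀ σ : ℝ, 0 < g.tt j0 y0 (x + σ • ν) → σ ≤ √(d : ℝ) * g.len j0 := fun σ hσ => by
    have h1 : g.idx j0 (x + σ • ν) = g.idx j0 y0 := g.mem_cube_of_tt j0 y0 hd hσ
    have h2 : g.idx j0 x = g.idx j0 y0 := g.mem_cube_of_tt j0 y0 hd (by linarith)
    have h3 := g.norm_sub_le_of_idx (h1.trans h2.symm)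
    rw [add_sub_cancel_left, norm_smul, hν, mul_one, Real.norm_eq_abs] at h3
    exact (le_abs_self σ).trans h3
  set N := Nm h δ η with hN
  -- no same level active point on the open chord of an admissible active ball
  have hfree : ∀ s j' z' r', AdmLow h δ (N x) g j0 y0 T ν x s j' z' r' → ∀ σ, s - be d * r' < σ →
      σ < s + be d * r' → Act N (x + σ • ν) → N (x + σ • ν) = N x → False := by
    rintro s j' z' r' ⟨a1, -, a3, a4, -, -, a7, a8, a9⟩ σ h1 h2 h3 h4
    have h5 := h3.av_lt hP.ih hδ a4 ((a3.trans (g.R_anti a1)).trans hη) (seg_low hν a7 a8 h1 h2)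
    rw [← hN, h4] at h5
    linarith
  let P : Set ℝ := {s | 0 < s ∧
    (∀ s', 0 < s' → Act N (x + s' • ν) → N (x + s' • ν) = N x → s < s') ∧
    ∃ j' z' r', AdmLow h δ (N x) g j0 y0 T ν x s j' z' r'}
  have hA0 : AdmLow h δ (N x) g j0 y0 T ν x (be d * r) j z r := by
    refine ⟨hj, hr1, hr2, ho.1, Grid.subset_Nb 3 j hz, by linarith, ?_, ?_, ho.2.2.2.ge⟩
    · rw [sub_self, zero_smul, add_zero]; exact hxz
    · have := chord_init hd hν hr0.le hxz (ho.inner_le hP.ih hδ hx hβ hdir)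
      rwa [show 2 * be d * r = be d * r + be d * r by ring] at this
  have hne : P.Nonempty := by
    have hp := mul_pos hβ hr0
    refine ⟨be d * r, hp, fun s' h1 h2 h3 => ?_, j, z, r, hA0⟩
    by_contra h4
    exact hfree _ _ _ _ hA0 s' (by linarith) (by linarith) h2 h3
  have hin : ∀ s j' z' r', AdmLow h δ (N x) g j0 y0 T ν x s j' z' r' → ∀ σ, s - be d * r' < σ →
      σ < s + be d * r' → σ ≤ √(d : ℝ) * g.len j0 := by
    rintro s j' z' r' ⟨-, -, -, a4, -, a6, a7, a8, -⟩ σ h1 h2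
    refine hbound σ ?_
    have h3 := seg_low hν a7 a8 h1 h2
    have h4 := g.tt_le_add j0 y0 hd z' (x + σ • ν)
    rw [norm_sub_rev] at h4
    linarith
  have hbdd : BddAbove P := by
    refine ⟨√(d : ℝ) * g.len j0, ?_⟩
    rintro s ⟨-, -, j', z', r', hA⟩
    have hp := mul_pos hβ (hδ.trans_le hA.2.2.2.1)
    exact hin s j' z' r' hA s (by linarith) (by linarith)
  obtain ⟨s, ⟨hs0, hsl, j', z', r', hA⟩, hs⟩ := exists_lt_of_lt_csSup hne
    (show sSup P - be d * δ / 2 < sSup P by have := mul_pos hβ hδ; linarith)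
  obtain ⟨a1, a2, a3, a4, a5, a6, a7, a8, a9⟩ := id hA
  have hR := g.R_pos j'
  have hRl := R_le_low hd g j'
  have hr' : 0 < r' := hδ.trans_le a4
  have hp := mul_pos hβ hr'
  have hp' : be d * r' ≤ r' / 5 := by nlinarith
  have hs1 : 0 ≤ s - be d * r' := by
    by_contra h1
    exact hfree _ _ _ _ hA 0 (by linarith) (by linarith) (by simpa using hx) (by simp)
  have hs2 : ∀ s', 0 < s' → Act N (x + s' • ν) → N (x + s' • ν) = N x → s + be d * r' ≤ s' :=
    fun s' h1 h2 h3 => by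
      by_contra h4
      have := hsl s' h1 h2 h3
      exact hfree _ _ _ _ hA s' (by linarith) (by linarith) h2 h3
  -- no admissible active ball at the position `s + β r' / 2`
  have hno : ∀ j2 z2 r2, ¬ AdmLow h δ (N x) g j0 y0 T ν x (s + be d * r' / 2) j2 z2 r2 := by
    intro j2 z2 r2 h1
    have h2 : s + be d * r' / 2 ∈ P :=
      ⟨by linarith, fun s' p1 p2 p3 => by have := hs2 s' p1 p2 p3; linarith, j2, z2, r2, h1⟩
    have h3 := le_csSup hbdd h2
    have h4 := mul_le_mul_of_nonneg_left a4 hβ.le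
    linarith
  have hg0 : g0 d * g.R j' ≤ be d * r' / 2 := by
    unfold g0
    nlinarith
  -- the charging interval
  have hchg : ∀ C : ℝ≥0, (∀ y, ‖y - z'‖ + 2 * (c0 d * g.R j') ≤ r' →
      ‖y - (x + s • ν)‖ ≤ r' / 10 → Near h C (g.R j') (wT g μ Gd j0 y0 T j') (N x) y) →
      Chg h N C g.R (wT g μ Gd j0 y0 T) (√(d : ℝ) * g.len j0) ν x := fun C hC => by
    have hg1 := mul_pos (g0_pos hd) hR
    refine ⟨j', s - be d * r' / 2, by linarith, hin _ _ _ _ hA _ (by linarith) (by linarith),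
      fun σ hσ => hC _ ?_ ?_, fun s' p1 p2 p3 => by have := hs2 s' p1 p2 p3; linarith⟩
    · have := seg_deep hd (a := x + (s - be d * r') • ν) (z := z') (s := σ - (s - be d * r'))
        hν hR a2 a3 a7
        (by rw [← pt_low, show s - be d * r' + 2 * be d * r' = s + be d * r' by ring]; exact a8)
        (by linarith [hσ.1]) (by linarith [hσ.2])
      rwa [← pt_low, add_sub_cancel] at this
    · rw [norm_pp_low hν, abs_le]
      constructor <;> linarith [hσ.1, hσ.2]
  have hc0 := mul_pos (c0_pos hd) hR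
  by_cases h40 : 40 * r' ≤ g.tt j0 y0 z'
  · by_cases h2 : z' ∈ g.Nb T 2 j'
    · refine (hchg C1 fun y p1 _ => hC1 h μ g j0 y0 T ν Gd j' z' y r' _ hP hG a2 a3 a5 a6 p1 ?_
        a9).mono_low (by rw [add_assoc, add_assoc]; exact le_self_add)
      by_contra h3
      have hn : ‖z' + (be d * r' / 2) • ν - z'‖ = be d * r' / 2 := by
        rw [add_sub_cancel_left, norm_smul, hν, mul_one, Real.norm_eq_abs, abs_of_pos (by linarith)]
      refine hno j' (z' + (be d * r' / 2) • ν) r' ⟨a1, a2, a3, a4,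
        Grid.Nb_near h2 (by rw [hn]; linarith), ?_, ?_, ?_, (not_le.1 h3).le⟩
      · have := g.tt_le_add j0 y0 hd z' (z' + (be d * r' / 2) • ν)
        rw [norm_sub_rev, hn] at this
        linarith
      · have e : x + (s + be d * r' / 2 - be d * r') • ν - (z' + (be d * r' / 2) • ν) =
            x + (s - be d * r') • ν - z' := by module
        rwa [e]
      · have e : x + (s + be d * r' / 2 + be d * r') • ν - (z' + (be d * r' / 2) • ν) =
            x + (s + be d * r') • ν - z' := by module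
        rwa [e]
    · refine (hchg C2 fun y p1 _ => hC2 h μ g j0 y0 T ν Gd j' z' y r' _ hP hG a2 a3 a5 h2 a6
        (by linarith) ?_ a9).mono_low
        (by rw [add_assoc, add_comm C1, add_assoc]; exact le_self_add)
      by_contra h3
      have hne' : j' ≠ j0 := fun e => h2 (Grid.subset_Nb 2 j' (by
        rw [e, hT.top]; exact g.mem_cube_of_tt j0 y0 hd (by linarith)))
      obtain ⟨k, rfl⟩ : ∃ k, j' = k + 1 := ⟨j' - 1, by omega⟩
      have hk : j0 ≤ k := by omega
      have hRk := g.R_succ k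
      refine hno k z' (2 * r') ⟨hk, by linarith, by linarith, by linarith,
        Grid.Nb_mono (by norm_num : 2 ≤ 3) k (Grid.Nb_succ (n := 2) (hT.anti k hk)
          (Grid.Nb_mono (by norm_num : 3 ≤ 2 * 2) _ a5)), by linarith, ?_, ?_, (not_le.1 h3).le⟩
      · refine (norm_pt_low hν x z' (s - be d * r') _).trans ?_
        rw [abs_of_nonpos (by linarith)]
        linarith
      · refine (norm_pt_low hν x z' (s + be d * r') _).trans ?_
        rw [abs_of_nonneg (by linarith)]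
        linarith
  · have q1 : ‖x + s • ν - z'‖ < r' := seg_low hν a7 a8 (by linarith) (by linarith)
    have q2 := g.tt_le_add j0 y0 hd z' (x + s • ν)
    have q3 := g.tt_le_add j0 y0 hd (x + s • ν) z'
    rw [norm_sub_rev] at q2
    have q4 : r' ≤ rad g j0 y0 (x + s • ν) :=
      le_min (by linarith) (a3.trans (g.R_anti a1))
    have q5 : rad g j0 y0 (x + s • ν) ≤ g.tt j0 y0 (x + s • ν) / 19 := min_le_left _ _
    have q6 : x + s • ν ∈ g.Nb T 4 j' := Grid.Nb_near a5 (by linarith)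
    by_cases h3 : av h (x + s • ν) (rad g j0 y0 (x + s • ν)) ≤ N x
    · refine (hchg C3 fun y p1 p2 => ?_).mono_low
        (by rw [add_comm (C1 + C2), add_assoc]; exact le_self_add)
      have w1 := g.tt_le_add j0 y0 hd (x + s • ν) y
      have w2 := g.tt_le_add j0 y0 hd y z'
      have w3 := norm_sub_rev (x + s • ν) y
      have w4 := norm_sub_rev z' y
      exact hC3 h μ g j0 y0 T ν Gd j' (x + s • ν) z' y (x + s • ν) _ r' _ hP hG
        (Grid.Nb_mono (by norm_num : 4 ≤ 5) _ q6) (by linarith) (by linarith)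
        (Or.inr (by linarith)) (by linarith) a2 (by linarith) (by linarith) h3 a9
    · have q7 : r ≤ rad g j0 y0 x := le_min (by linarith) (hr2.trans (g.R_anti hj))
      have hRlj := R_le_low hd g j
      exact (hC4 h μ δ η g j0 y0 T ν Gd x s j j' hP hδ hη hT hG hν hνi hx hs0
        (Grid.Nb_near (Grid.subset_Nb 3 j hz) (by linarith)) (by linarith) (ho.1.trans q7) q6
        (by linarith) (a4.trans q4) (not_le.1 h3).le hsl).mono_low le_add_self

end Vale.Agent.P137
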