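import Vale.Agent.P137.Flat
import Vale.Agent.P137.Geo

/-! P137 LowA: the three local charging situations inside a tree. `R = g.R j`,
`t = g.tt j0 y0`, `O = cube j0 y0`; recall `2000 R ≤ len j` (`R_le_len`, `one_le_sqrt`) and
`√d len (j + aa d) ≤ R / 2000`.

* `near_flat`: `t y ≥ 10 R - R`, so `ball y (6R) ⊆ cube` (`tt_le_add`, `ball_tt_subset`); points of
  `ball y (6R)` are within `7 R ≤ len j` of `z`, so in `Nb 4 ⊆ Nb 6` (`Nb_near`); `flat` with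
  `w = (β r / 2) • ν` (`⟪ν, ξ⟫ ≥ ‖ξ‖/2`), then `Near.mono` (on the ball `BD ≤ wT`).
* `near_rho`: `osc` with `(z, 2r)` and `(z, r)`; points `u` of `ball y (6R)` are in `Nb 4 j` and not in
  `Nb 1 j` (else `z ∈ Nb 2 j`), so in `Zr` and `HH`; there `‖vk‖ₑ + BD = wT`.
* `near_sigma`: `osc`; for `u ∈ ball y (6R)`: `u ∈ cube ∩ Nb 6 j`, and either `j = j0` (zone `Zt`) or
  `3 R ≤ 9.3 R - 6 R - R/2000 ≤ t (cor u) ≤ 41 R + 6 R + R/2000 ≤ 48 R` (zone `Zs`).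
-/

namespace Vale.Agent.P137

open MeasureTheory Metric Set Filter Topology
open scoped ENNReal NNReal RealInnerProductSpace

variable {d : ℕ}

theorem lowa_ball (hd : 0 < d) {g : Grid d} {j0 j : ℕ} {y0 y : E d}
    (h : 6 * g.R j ≤ g.tt j0 y0 y) : ball y (6 * g.R j) ⊆ g.cube j0 y0 :=
  (ball_subset_ball h).trans (g.ball_tt_subset j0 y0 hd y)

theorem lowa_len (hd : 0 < d) {g : Grid d} {j : ℕ} {y z u : E d} (hu : u ∈ ball y (6 * g.R j))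
    (hy : ‖y - z‖ ≤ g.R j) : ‖u - z‖ ≤ g.len j := by
  have h1 := mem_ball_iff_norm.1 hu
  have h2 := norm_sub_le_norm_sub_add_norm_sub u y z
  have h3 := g.R_le_len j
  have h4 := mul_le_mul_of_nonneg_right (one_le_sqrt hd) (g.R_pos j).le
  have h5 := g.R_pos j
  linarith

theorem lowa_wT {g : Grid d} {μ : E d → E d} {Gd : Set (E d)} {j0 j : ℕ} {y0 u : E d}
    {T : ℕ → Set (E d)} (hH : u ∈ HH g j0 y0 T j) (hZ : u ∈ ZZ g j0 y0 T j) :
    ‖g.vk μ (j + aa d) u‖ₑ + g.BD μ Gd (j + aa d) u ≤ wT g μ Gd j0 y0 T j u := by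
  rw [wT, indicator_of_mem hH, indicator_of_mem hZ, add_comm]

theorem near_flat (hd : 0 < d) : ∃ C : ℝ≥0, ∀ (h : E d → ℝ) (μ : E d → E d) (g : Grid d)
    (j0 : ℕ) (y0 : E d) (T : ℕ → Set (E d)) (ν : E d) (Gd : Set (E d)) (j : ℕ) (z y : E d)
    (r lam : ℝ), Pair h μ (g.cube j0 y0) → Cone ν Gd → g.R j / 2 ≤ r → r ≤ g.R j →
    z ∈ g.Nb T 3 j → 20 * r ≤ g.tt j0 y0 z → ‖y - z‖ + 2 * (c0 d * g.R j) ≤ r →
    av h (z + (be d * r / 2) • ν) r ≤ lam → lam ≤ av h z r →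
    Near h C (g.R j) (wT g μ Gd j0 y0 T j) lam y := by
  obtain ⟨C, hC⟩ := flat hd
  refine ⟨C, fun h μ g j0 y0 T ν Gd j z y r lam hP hG h1 h2 hz ht hy ha hb => ?_⟩
  have hR := g.R_pos j
  have hc := mul_pos (c0_pos hd) hR
  have hb0 := be_pos hd
  have hb1 := be_le hd
  have hr : 0 < r := by linarith
  have hsub := lowa_ball hd (g := g) (j0 := j0) (y0 := y0) (j := j) (y := y) (by
    have := g.tt_le_add j0 y0 hd z y
    rw [norm_sub_rev] at this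
    linarith)
  have hw0 : 0 ≤ be d * r / 2 := by positivity
  refine (hC h μ _ g ν Gd j z ((be d * r / 2) • ν) y r lam hP hG h1 h2 ?_ ?_ hsub hy ha hb).mono
    le_rfl fun u hu => ?_
  · rw [norm_smul, Real.norm_of_nonneg hw0]
    refine (mul_le_of_le_one_right hw0 hG.norm_le).trans ?_
    nlinarith
  · intro ξ hξ
    rw [real_inner_smul_left]
    have h3 := mul_le_mul_of_nonneg_left (hG.le ξ hξ) hw0
    have h4 : be d * g.R j * ‖ξ‖ ≤ be d * (2 * r) * ‖ξ‖ :=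
      mul_le_mul_of_nonneg_right (mul_le_mul_of_nonneg_left (by linarith) hb0.le) (norm_nonneg ξ)
    have h5 : 0 ≤ be d * r * ‖ξ‖ := by positivity
    nlinarith
  · have hH : u ∈ HH g j0 y0 T j := ⟨hsub hu, Grid.Nb_mono (by norm_num) j
      (Grid.Nb_near hz (lowa_len hd hu (by linarith)))⟩
    rw [wT, indicator_of_mem hH]
    exact le_self_add

theorem near_rho (hd : 0 < d) : ∃ C : ℝ≥0, ∀ (h : E d → ℝ) (μ : E d → E d) (g : Grid d)
    (j0 : ℕ) (y0 : E d) (T : ℕ → Set (E d)) (ν : E d) (Gd : Set (E d)) (j : ℕ) (z y : E d)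
    (r lam : ℝ), Pair h μ (g.cube j0 y0) → Cone ν Gd → g.R j / 2 ≤ r → r ≤ g.R j →
    z ∈ g.Nb T 3 j → z ∉ g.Nb T 2 j → 20 * r ≤ g.tt j0 y0 z → ‖y - z‖ ≤ r →
    av h z (2 * r) ≤ lam → lam ≤ av h z r →
    Near h C (g.R j) (wT g μ Gd j0 y0 T j) lam y := by
  obtain ⟨C, hC⟩ := osc hd
  refine ⟨C, fun h μ g j0 y0 T ν Gd j z y r lam hP hG h1 h2 hz hz' ht hy ha hb => ?_⟩
  have hR := g.R_pos j
  have hc := mul_le_mul_of_nonneg_right (c0_le hd) hR.le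
  have hy' : ‖z - y‖ ≤ r := by rwa [norm_sub_rev]
  have hsub := lowa_ball hd (g := g) (j0 := j0) (y0 := y0) (j := j) (y := y) (by
    have := g.tt_le_add j0 y0 hd z y
    linarith)
  refine (hC h μ _ g ν Gd j z z y (2 * r) r lam hP hG hsub (by linarith) (by linarith)
    (by linarith) (by linarith) ha hb).mono le_rfl fun u hu => ?_
  have h3 : ‖u - z‖ ≤ g.len j := lowa_len hd hu (hy.trans h2)
  have h4 := Grid.Nb_near hz h3
  refine lowa_wT ⟨hsub hu, Grid.Nb_mono (by norm_num) j h4⟩ (Or.inl (Or.inl ⟨hsub hu, h4, ?_⟩))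
  exact fun h5 => hz' (Grid.Nb_near h5 (by rwa [norm_sub_rev]))

theorem near_sigma (hd : 0 < d) : ∃ C : ℝ≥0, ∀ (h : E d → ℝ) (μ : E d → E d) (g : Grid d)
    (j0 : ℕ) (y0 : E d) (T : ℕ → Set (E d)) (ν : E d) (Gd : Set (E d)) (j : ℕ) (z1 z2 y p : E d)
    (r1 r2 lam : ℝ), Pair h μ (g.cube j0 y0) → Cone ν Gd →
    p ∈ g.Nb T 5 j → ‖y - p‖ ≤ g.R j → 93 / 10 * g.R j ≤ g.tt j0 y0 y →
    (j = j0 ∨ g.tt j0 y0 y ≤ 41 * g.R j) →
    g.R j / 2 ≤ r1 → g.R j / 2 ≤ r2 → ‖z1 - y‖ + r1 ≤ 4 * g.R j → ‖z2 - y‖ + r2 ≤ 4 * g.R j →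
    av h z1 r1 ≤ lam → lam ≤ av h z2 r2 →
    Near h C (g.R j) (wT g μ Gd j0 y0 T j) lam y := by
  obtain ⟨C, hC⟩ := osc hd
  refine ⟨C, fun h μ g j0 y0 T ν Gd j z1 z2 y p r1 r2 lam hP hG hp hy ht ht' h1 h2 h3 h4 ha hb => ?_⟩
  have hR := g.R_pos j
  have hc := mul_le_mul_of_nonneg_right (c0_le hd) hR.le
  have hsub := lowa_ball hd (g := g) (j0 := j0) (y0 := y0) (j := j) (y := y) (by linarith)
  refine (hC h μ _ g ν Gd j z1 z2 y r1 r2 lam hP hG hsub (by linarith) (by linarith)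
    h3 h4 ha hb).mono le_rfl fun u hu => ?_
  have hH : u ∈ HH g j0 y0 T j := ⟨hsub hu, Grid.Nb_near hp (lowa_len hd hu hy)⟩
  refine lowa_wT hH ?_
  rcases ht' with h5 | h5
  · exact Or.inr ⟨h5, hsub hu⟩
  · have h6 := mem_ball_iff_norm.1 hu
    have h7 := g.norm_cor_sub (j + aa d) u
    have h8 := g.len_aa_le j
    have h9 := norm_sub_le_norm_sub_add_norm_sub (g.cor (j + aa d) u) u y
    have h10 := g.tt_le_add j0 y0 hd y (g.cor (j + aa d) u)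
    have h11 := g.tt_le_add j0 y0 hd (g.cor (j + aa d) u) y
    rw [norm_sub_rev] at h10
    exact Or.inl (Or.inr ⟨hH, by linarith, by linarith⟩)

end Vale.Agent.P137
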