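import Vale.Agent.P137.LowA
import Vale.Agent.P137.Nmax

/-! P137 LowB: the Whitney ball of a tree and the intermediate value argument.

`W y = (y, rad y)`, `rad y = min (t y / 19) (R j0)`, `t = g.tt j0 y0`, `lam = N x`, `c = 1/(80 √d)`.
`ivt_charge`: points `p s = x + s ν`. Both `x = p 0` and `p s1` have `rad ≥ δ`, and by `chord_depth`
for every `s ∈ [0, s1]` either `t (p 0) + c s ≤ t (p s)` or `t (p s1) + c (s1 - s) ≤ t (p s)`; so
`rad (p s) ≥ δ > 0` on `[0, s1]` and `s ↦ av h (p s) (rad (p s))` is continuous on `[0, s1]`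
(`continuousOn_av`, `continuous_tt`). At `s = 0` it is `< lam` (`Act.av_lt`, `rad ≤ R j0 ≤ η`), at `s1` it
is `≥ lam`; `intermediate_value_Icc` gives `s* ∈ (0, s1]` with value `lam`. Let `ρ = rad (p s*)` and
`q ∈ {p 0, p s1}` the anchor from `chord_depth`, with its level `jq`, `q ∈ Nb 4 jq`,
`R jq / 2 ≤ rad q ≤ ρ ≤ R j0`.
If `ρ = R j0` take `j = j0` (then `p s* ∈ cube = T j0 ⊆ Nb 5 j0`); otherwise `t (p s*) = 19 ρ`, take `j`
from `exists_level`, `‖p s* - q‖ ≤ t (p s*)/c ≤ 19 * 80 √d R j ≤ len j` (as `t q ≥ 0`), so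
`p s* ∈ Nb 5 j` (`Nb_anti`, `Nb_near`). Charge to `s0 = s*`: for `s ∈ (s*, s* + g0 R)`, `y = p s`,
`‖y - p s*‖ ≤ g0 R ≤ R/500`, `near_sigma` with both balls equal to `W (p s*)`. A later same level
`Act` point `p s'` has `s' > s1 ≥ s*` and is not in the open ball `W (p s*)` (`Act.av_lt`), so
`s' ≥ s* + ρ ≥ s* + g0 R`. Finally `p (s* + g0 R)` and `x` lie in the cube
(`mem_cube_of_tt`), so `s* + g0 R ≤ √d len j0` (`norm_sub_le_of_idx`).
-/

namespace Vale.Agent.P137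

open MeasureTheory Metric Set Filter Topology
open scoped ENNReal NNReal RealInnerProductSpace

variable {d : ℕ}

/-- Radius of the Whitney ball. -/
noncomputable def rad (g : Grid d) (j0 : ℕ) (y0 y : E d) : ℝ := min (g.tt j0 y0 y / 19) (g.R j0)

theorem lowb_norm {ν : E d} (hν : ‖ν‖ = 1) (x : E d) {s s' : ℝ} (h : s ≤ s') :
    ‖x + s' • ν - (x + s • ν)‖ = s' - s := by
  rw [add_sub_add_left_eq_sub, ← sub_smul, norm_smul, hν, mul_one,
    Real.norm_of_nonneg (sub_nonneg.2 h)]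

theorem lowb_le (g : Grid d) (j0 : ℕ) (y0 y : E d) : 19 * rad g j0 y0 y ≤ g.tt j0 y0 y :=
  (le_div_iff₀' (by norm_num)).1 (min_le_left _ _)

theorem lowb_level (hd : 0 < d) {g : Grid d} {j0 jq : ℕ} {y0 p q : E d} {T : ℕ → Set (E d)}
    (hT : IsTree g j0 y0 T) (hq : q ∈ g.Nb T 4 jq) (h1 : g.R jq / 2 ≤ rad g j0 y0 q)
    (h2 : rad g j0 y0 q ≤ rad g j0 y0 p)
    (h3 : g.tt j0 y0 q + 1 / (80 * √(d : ℝ)) * ‖p - q‖ ≤ g.tt j0 y0 p) :
    ∃ j, g.R j / 2 ≤ rad g j0 y0 p ∧ rad g j0 y0 p ≤ g.R j ∧ p ∈ g.Nb T 5 j ∧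
      (j = j0 ∨ g.tt j0 y0 p ≤ 19 * g.R j) := by
  have h4 := g.R_pos jq
  have h5 := lowb_le g j0 y0 q
  have h6 := lowb_le g j0 y0 p
  have hs := one_le_sqrt hd
  rcases le_total (g.tt j0 y0 p / 19) (g.R j0) with h | h
  · obtain ⟨j, a1, a2, a3, a4⟩ :=
      g.exists_level (hT.le_of_mem_Nb hq) (h1.trans h2) (min_le_right _ _)
    have h7 : g.tt j0 y0 p ≤ 19 * g.R j := by
      rw [rad, min_eq_left h] at a4
      linarith
    refine ⟨j, a3, a4, Grid.Nb_near (hT.Nb_anti 4 a1 a2 hq) (le_trans ?_ (g.R_le_len j)), .inr h7⟩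
    have h8 : 1 / (80 * √(d : ℝ)) * ‖p - q‖ ≤ 25 * g.R j := by linarith [g.R_pos j]
    rw [one_div, inv_mul_le_iff₀ (by positivity)] at h8
    exact h8.trans_eq (by ring)
  · refine ⟨j0, ?_, min_le_right _ _, Grid.subset_Nb 5 j0 ?_, .inl rfl⟩
    · rw [rad, min_eq_right h]
      linarith [g.R_pos j0]
    · rw [hT.top]
      exact g.mem_cube_of_tt j0 y0 hd (by linarith)

theorem ivt_charge (hd : 0 < d) : ∃ C : ℝ≥0, ∀ (h : E d → ℝ) (μ : E d → E d) (δ η : ℝ)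
    (g : Grid d) (j0 : ℕ) (y0 : E d) (T : ℕ → Set (E d)) (ν : E d) (Gd : Set (E d))
    (x : E d) (s1 : ℝ) (jx j1 : ℕ), Pair h μ (g.cube j0 y0) → 0 < δ → g.R j0 ≤ η →
    IsTree g j0 y0 T → Cone ν Gd → ‖ν‖ = 1 → (∀ i, 1 / (80 * √(d : ℝ)) ≤ |ν i|) →
    Act (Nm h δ η) x → 0 < s1 →
    x ∈ g.Nb T 4 jx → g.R jx / 2 ≤ rad g j0 y0 x → δ ≤ rad g j0 y0 x →
    x + s1 • ν ∈ g.Nb T 4 j1 → g.R j1 / 2 ≤ rad g j0 y0 (x + s1 • ν) →
    δ ≤ rad g j0 y0 (x + s1 • ν) →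
    Nm h δ η x ≤ av h (x + s1 • ν) (rad g j0 y0 (x + s1 • ν)) →
    (∀ s', 0 < s' → Act (Nm h δ η) (x + s' • ν) → Nm h δ η (x + s' • ν) = Nm h δ η x → s1 < s') →
    Chg h (Nm h δ η) C g.R (wT g μ Gd j0 y0 T) (√(d : ℝ) * g.len j0) ν x := by
  obtain ⟨C, hC⟩ := near_sigma hd
  refine ⟨C, fun h μ δ η g j0 y0 T ν Gd x s1 jx j1 hP hδ hη hT hc hν hνi hx hs1 a1 a2 a3 b1 b2 b3
    b4 hl => ?_⟩
  have hs := one_le_sqrt hd
  have hr : ∀ y, rad g j0 y0 y ≤ η := fun y => (min_le_right _ _).trans hη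
  have anc : ∀ s ∈ Icc 0 s1, ∃ q jq, q ∈ g.Nb T 4 jq ∧ g.R jq / 2 ≤ rad g j0 y0 q ∧
      δ ≤ rad g j0 y0 q ∧ rad g j0 y0 q ≤ rad g j0 y0 (x + s • ν) ∧
      g.tt j0 y0 q + 1 / (80 * √(d : ℝ)) * ‖x + s • ν - q‖ ≤ g.tt j0 y0 (x + s • ν) := by
    intro s hs'
    have key : ∀ q, g.tt j0 y0 q + 1 / (80 * √(d : ℝ)) * ‖x + s • ν - q‖ ≤
        g.tt j0 y0 (x + s • ν) → rad g j0 y0 q ≤ rad g j0 y0 (x + s • ν) := fun q hq =>
      min_le_min_right _ (div_le_div_of_nonneg_right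
        ((le_add_of_nonneg_right (by positivity)).trans hq) (by norm_num))
    rcases g.chord_depth j0 y0 hd hνi x hs'.1 hs'.2 with e | e
    · rw [← lowb_norm hν x hs'.1, zero_smul, add_zero] at e
      exact ⟨x, jx, a1, a2, a3, key _ e, e⟩
    · rw [← lowb_norm hν x hs'.2, norm_sub_rev] at e
      exact ⟨_, j1, b1, b2, b3, key _ e, e⟩
  have hp : Continuous fun s : ℝ => x + s • ν := by fun_prop
  have hcont : ContinuousOn (fun s : ℝ => av h (x + s • ν) (rad g j0 y0 (x + s • ν)))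
      (Icc 0 s1) :=
    (continuousOn_av hP.ih).comp (f := fun s : ℝ => (x + s • ν, rad g j0 y0 (x + s • ν)))
      (hp.prodMk ((((g.continuous_tt j0 y0 hd).comp hp).div_const 19).min
        continuous_const)).continuousOn fun s hs' => by
        obtain ⟨q, _, -, -, e1, e2, -⟩ := anc s hs'
        exact hδ.trans_le (e1.trans e2)
  obtain ⟨s0, hs0, hv⟩ := intermediate_value_Icc hs1.le hcont (show Nm h δ η x ∈ _ from ⟨by
    simp only [zero_smul, add_zero]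
    exact (hx.av_lt hP.ih hδ a3 (hr x) (by simpa using hδ.trans_le a3)).le, b4⟩)
  obtain ⟨q, jq, e1, e2, e3, e4, e5⟩ := anc s0 hs0
  obtain ⟨j, c1, c2, c3, c4⟩ := lowb_level hd hT e1 e2 e4 e5
  have hR := g.R_pos j
  have hg := mul_pos (g0_pos hd) hR
  have hg' : g0 d * g.R j ≤ g.R j / 500 := by
    have := mul_le_mul_of_nonneg_right (be_le hd) hR.le
    rw [g0]
    linarith
  have ht := lowb_le g j0 y0 (x + s0 • ν)
  have low : ∀ s, s0 ≤ s → g.tt j0 y0 (x + s0 • ν) ≤ g.tt j0 y0 (x + s • ν) + (s - s0) :=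
    fun s hs' => by
      rw [← lowb_norm hν x hs', norm_sub_rev]
      exact g.tt_le_add j0 y0 hd _ _
  refine ⟨j, s0, hs0.1, ?_, fun s hs' => ?_, fun s' h1 h2 h3 => ?_⟩
  · have h1 := low (s0 + g0 d * g.R j) (by linarith)
    have h2 := g.mem_cube_of_tt j0 y0 hd (z := x + (s0 + g0 d * g.R j) • ν) (by linarith)
    have h3 := g.mem_cube_of_tt j0 y0 hd (z := x + (0 : ℝ) • ν) (by
      rw [zero_smul, add_zero]
      linarith [lowb_le g j0 y0 x])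
    have h4 := g.norm_sub_le_of_idx (Eq.trans h2 (Eq.symm h3))
    rwa [lowb_norm hν x (by linarith [hs0.1]), sub_zero] at h4
  · have h1 := low s hs'.1.le
    have h2 := lowb_norm hν x hs'.1.le
    have h3 := g.tt_le_add j0 y0 hd (x + s • ν) (x + s0 • ν)
    have h4 := hs'.2
    have h5 : ‖x + s0 • ν - (x + s • ν)‖ + rad g j0 y0 (x + s0 • ν) ≤ 4 * g.R j := by
      rw [norm_sub_rev]
      linarith
    exact hC h μ g j0 y0 T ν Gd j _ _ _ _ _ _ _ hP hc c3 (by linarith) (by linarith)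
      (c4.imp_right fun _ => by linarith) c1 c1 h5 h5 hv.le hv.ge
  · by_contra! h4
    have h5 := h2.av_lt hP.ih hδ (z := x + s0 • ν) (e3.trans e4) (hr _) (by
      rw [lowb_norm hν x (hs0.2.trans (hl s' h1 h2 h3).le)]
      linarith)
    exact h5.ne (hv.trans h3.symm)

end Vale.Agent.P137
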