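import Vale.Agent.P137.Mart

/-! P137 Shift: a good common shift of the `2^d` grids.

* `pl_le_move`: for `4 ≤ j`, `e ∈ box d` and every `y` there is `u : Fin d → Fin 16` such that `y` and
  `y' = y + sh j e` have the same level `j - 4` index in the grid `g' = g.move (sh j u)`
  (`idx_add` with `m = 4`, `idx_move_sh`, `idx_add_sh`; coordinatewise take `u i = (idx j y i - 6) % 16`,
  `omega`). Then with `w = uv (g'.vk μ (j-4) y)` (the same at `y'`), `pl_le` and `vk_move_sh` give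
  `pl (vk j y) (vk j y') ≤ g'.lo (j-4) j y + g'.lo (j-4) j y'`. Sum over `u`, integrate
  (`lintegral_lo`, `lintegral_add_right_eq_self`).
* `exists_shift`: average over `a : Fin d → ZMod (2^K)` (or `Fin (2^K)`), `w a = sh K (val a)`.
  `φ k a = (g.move (w a + thv ε)).F μ k` only depends on `a` modulo `2^K` (`vk_move_sh` at level `0`,
  `sh K (2^K • n) = sh 0 n`, `move_move`), and moving by `sh j u = sh K (2^(K-j) • u)` permutes the `a`
  (`Equiv.addRight`, `Equiv.sum_comp`). Hence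
  `∑_a PL (g_a) j ≤ 2 13^d 16^d ∑_a ofReal (φ j a - φ (j-4) a)`, and `sum_F_le` (with `n = 4`) bounds the
  sum over `j` by `4 V`. Choose `a` with `Finset.exists_le_of_sum_le` (or by a minimum).
-/

namespace Vale.Agent.P137

open MeasureTheory Metric Set Filter Topology
open scoped ENNReal NNReal RealInnerProductSpace

variable {d : ℕ}

theorem pl_le_move (g : Grid d) {μ : E d → E d} (hμ : Integrable μ) {j : ℕ} (hj : 4 ≤ j) :
    PL g μ j ≤ 2 * (box d).card * ∑ u : Fin d → Fin 16,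
      ENNReal.ofReal ((g.move (g.sh j fun i => (u i : ℕ))).F μ j -
        (g.move (g.sh j fun i => (u i : ℕ))).F μ (j - 4)) := by
  obtain ⟨k, rfl⟩ := Nat.exists_eq_add_of_le' hj
  rw [Nat.add_sub_cancel]
  have key : ∀ e ∈ box d, ∀ y, ENNReal.ofReal (pl (g.vk μ (k + 4) y) (g.vk μ (k + 4) (y + g.sh (k + 4) e))) ≤
      ∑ u : Fin d → Fin 16,
        (ENNReal.ofReal ((g.move (g.sh (k + 4) fun i => (u i : ℕ))).lo μ k (k + 4) y) +
        ENNReal.ofReal ((g.move (g.sh (k + 4) fun i => (u i : ℕ))).lo μ k (k + 4)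
          (y + g.sh (k + 4) e))) := by
    intro e he y
    have he' : ∀ i, -6 ≤ e i ∧ e i ≤ 6 := fun i => Finset.mem_Icc.1 (Fintype.mem_piFinset.1 he i)
    let u : Fin d → Fin 16 := fun i => ⟨((g.idx (k + 4) y i - 6) % 16).toNat, by omega⟩
    refine le_trans ?_ (Finset.single_le_sum (fun _ _ => zero_le) (Finset.mem_univ u))
    set g' := g.move (g.sh (k + 4) fun i => (u i : ℕ)) with hg'
    have h1 : g'.idx k y = g'.idx k (y + g.sh (k + 4) e) := by
      funext i
      rw [g'.idx_add k 4, g'.idx_add k 4 (y + _), hg', g.idx_move_sh, g.idx_move_sh, g.idx_add_sh]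
      have := he' i
      simp only [Pi.sub_apply, Pi.add_apply, u]
      omega
    have h2 : g'.vk μ (k + 4) = g.vk μ (k + 4) := g.vk_move_sh le_rfl _ μ
    refine le_trans (ENNReal.ofReal_le_ofReal ?_) ENNReal.ofReal_add_le
    unfold Grid.lo
    rw [h2, ← g'.cst_vk μ k _ _ h1]
    exact pl_le _ _ _ (norm_uv_le _)
  unfold PL
  refine (Finset.sum_le_card_nsmul _ _ (2 * ∑ u : Fin d → Fin 16,
      ENNReal.ofReal ((g.move (g.sh (k + 4) fun i => (u i : ℕ))).F μ (k + 4) -
        (g.move (g.sh (k + 4) fun i => (u i : ℕ))).F μ k)) fun e he => ?_).trans (le_of_eq ?_)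
  · refine (lintegral_mono (key e he)).trans (le_of_eq ?_)
    have hm : ∀ g' : Grid d, Measurable fun y => ENNReal.ofReal (g'.lo μ k (k + 4) y) := fun g' =>
      (g'.measurable_lo k (k + 4)).ennreal_ofReal
    have hm2 : ∀ (g' : Grid d) (c : E d), Measurable fun y => ENNReal.ofReal (g'.lo μ k (k + 4) y) +
        ENNReal.ofReal (g'.lo μ k (k + 4) (y + c)) := fun g' c =>
      (hm _).add ((hm _).comp (measurable_add_const _))
    rw [lintegral_finsetSum _ fun u _ => hm2 _ _, Finset.mul_sum]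
    refine Finset.sum_congr rfl fun u _ => ?_
    rw [lintegral_add_left (hm _), lintegral_add_right_eq_self
      (fun y => ENNReal.ofReal ((g.move (g.sh (k + 4) fun i => (u i : ℕ))).lo μ k (k + 4) y)),
      Grid.lintegral_lo _ hμ (Nat.le_add_right k 4), two_mul]
  · rw [nsmul_eq_mul]
    ring

theorem F_per_shift (g : Grid d) (μ : E d → E d) (K k : ℕ) (w : E d) {n n' : Fin d → ℤ}
    (h : ∀ i, (2 ^ K : ℤ) ∣ n i - n' i) :
    ((g.move (g.sh K n)).move w).F μ k = ((g.move (g.sh K n')).move w).F μ k := by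
  choose m hm using h
  have e : (g.move (g.sh K n)).move w =
      ((g.move (g.sh K n')).move w).move (((g.move (g.sh K n')).move w).sh 0 m) := by
    rw [Grid.move_sh, Grid.move_sh, Grid.move_move, Grid.move_move, Grid.move_move]
    congr 1
    ext i
    have h1 : (n i : ℝ) = n' i + 2 ^ K * m i := by exact_mod_cast (sub_eq_iff_eq_add'.1 (hm i))
    change g.len K * n i + w i = g.len K * n' i + (w i + g.len 0 * m i)
    rw [h1, Grid.len, Grid.len]
    field_simp
    ring
  rw [e, Grid.F, Grid.vk_move_sh _ (Nat.zero_le k), Grid.F]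

theorem move_sh_shift (g : Grid d) {j K : ℕ} (h : j ≤ K) (w : E d) (n u : Fin d → ℤ) :
    ((g.move (g.sh K n)).move w).move (((g.move (g.sh K n)).move w).sh j u) =
      (g.move (g.sh K fun i => n i + 2 ^ (K - j) * u i)).move w := by
  obtain ⟨m, rfl⟩ := Nat.exists_eq_add_of_le h
  rw [Grid.move_sh, Grid.move_sh, Grid.move_move, Grid.move_move, Grid.move_move,
    Nat.add_sub_cancel_left]
  congr 1
  ext i
  change g.len (j + m) * n i + (w i + g.len j * u i) =
    g.len (j + m) * ((n i + 2 ^ m * u i : ℤ) : ℝ) + w i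
  rw [Grid.len_add]
  push_cast
  field_simp
  ring

theorem avg_shift (g : Grid d) {μ : E d → E d} (hμ : Integrable μ) (K : ℕ) (w : E d) :
    ∑ a : Fin d → ZMod (2 ^ K), bud ((g.move (g.sh K fun i => (a i).val)).move w) μ K ≤
      ∑ _a : Fin d → ZMod (2 ^ K), (1 + 2 * (box d).card * (Fintype.card (Fin d → Fin 16)) * 4 : ℕ) *
        ∫⁻ y, ‖μ y‖ₑ := by
  set T : (Fin d → ZMod (2 ^ K)) → ℕ → ℝ≥0∞ := fun a j =>
    ENNReal.ofReal (((g.move (g.sh K fun i => (a i).val)).move w).F μ j -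
      ((g.move (g.sh K fun i => (a i).val)).move w).F μ (j - 4)) with hT
  have h1 : ∀ j ∈ Finset.Icc 4 K,
      ∑ a : Fin d → ZMod (2 ^ K), PL ((g.move (g.sh K fun i => (a i).val)).move w) μ j ≤
        2 * (box d).card * (Fintype.card (Fin d → Fin 16)) * ∑ a, T a j := by
    intro j hj
    obtain ⟨h4, hK⟩ := Finset.mem_Icc.1 hj
    refine (Finset.sum_le_sum fun a _ => pl_le_move _ hμ h4).trans (le_of_eq ?_)
    rw [← Finset.mul_sum, Finset.sum_comm, mul_assoc _ (Fintype.card _ : ℝ≥0∞), ← nsmul_eq_mul,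
      ← Finset.card_univ, ← Finset.sum_const]
    congr 1
    refine Finset.sum_congr rfl fun u _ => ?_
    rw [← Equiv.sum_comp (Equiv.addRight fun i => (((2 ^ (K - j) * (u i : ℕ) : ℤ)) : ZMod (2 ^ K)))
      fun a => T a j]
    refine Finset.sum_congr rfl fun a _ => ?_
    rw [move_sh_shift g hK, hT]
    have hd : ∀ i, (2 ^ K : ℤ) ∣ (((a i).val : ℤ) + 2 ^ (K - j) * (u i : ℕ)) -
        ((a i + (((2 ^ (K - j) * (u i : ℕ) : ℤ)) : ZMod (2 ^ K))).val : ℤ) := by
      intro i
      have := (ZMod.intCast_zmod_eq_zero_iff_dvd ((((a i).val : ℤ) + 2 ^ (K - j) * (u i : ℕ)) -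
        ((a i + (((2 ^ (K - j) * (u i : ℕ) : ℤ)) : ZMod (2 ^ K))).val : ℤ)) (2 ^ K)).1 (by simp)
      exact_mod_cast this
    rw [F_per_shift g μ K j w hd, F_per_shift g μ K (j - 4) w hd]
    rfl
  have h2 : ∀ a, ∑ j ∈ Finset.Icc 4 K, T a j ≤ 4 * ∫⁻ y, ‖μ y‖ₑ := by
    intro a
    have e : Finset.Icc 4 K = Finset.Ico 4 (K + 1) := by
      ext j
      simp only [Finset.mem_Icc, Finset.mem_Ico]
      omega
    rw [e, Finset.sum_Ico_eq_sum_range]
    have := ((g.move (g.sh K fun i => (a i).val)).move w).sum_F_le hμ 4 (Finset.range (K + 1 - 4))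
    simp only [hT, add_comm 4, Nat.add_sub_cancel]
    exact_mod_cast this
  unfold bud
  rw [Finset.sum_add_distrib, Finset.sum_comm]
  refine (add_le_add le_rfl (Finset.sum_le_sum h1)).trans ?_
  rw [← Finset.mul_sum, Finset.sum_comm, Finset.mul_sum, ← Finset.sum_add_distrib]
  refine Finset.sum_le_sum fun a _ => ?_
  refine (add_le_add le_rfl (mul_le_mul_right (h2 a) _)).trans (le_of_eq ?_)
  push_cast
  ring

theorem exists_shift : ∃ C : ℝ≥0, ∀ (g : Grid d) (μ : E d → E d) (K : ℕ), Integrable μ →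
    ∃ w : E d, ∑ ε : Fin d → Bool, bud ((g.move w).move (g.thv ε)) μ K ≤ C * ∫⁻ y, ‖μ y‖ₑ := by
  refine ⟨(Fintype.card (Fin d → Bool) *
    (1 + 2 * (box d).card * (Fintype.card (Fin d → Fin 16)) * 4) : ℕ), fun g μ K hμ => ?_⟩
  have h : ∑ a : Fin d → ZMod (2 ^ K), ∑ ε : Fin d → Bool,
      bud ((g.move (g.sh K fun i => (a i).val)).move (g.thv ε)) μ K ≤
      ∑ _a : Fin d → ZMod (2 ^ K), ∑ _ε : Fin d → Bool,
        (1 + 2 * (box d).card * (Fintype.card (Fin d → Fin 16)) * 4 : ℕ) * ∫⁻ y, ‖μ y‖ₑ := by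
    rw [Finset.sum_comm, Finset.sum_comm (s := Finset.univ (α := Fin d → ZMod (2 ^ K)))]
    exact Finset.sum_le_sum fun ε _ => avg_shift g hμ K _
  obtain ⟨a, -, ha⟩ := ENNReal.exists_le_of_sum_le Finset.univ_nonempty h
  refine ⟨_, ha.trans (le_of_eq ?_)⟩
  rw [Finset.sum_const, Finset.card_univ, nsmul_eq_mul, ENNReal.coe_natCast, Nat.cast_mul, ← mul_assoc]

end Vale.Agent.P137
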