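import Vale.Agent.P137.GridMain
import Vale.Agent.P137.Shift

/-! P137 ME: the main estimate for the truncated maximal function, local form.

* `me_ball`: `C' = 3 + √d 2^(bb d)`, `O = ball x0 (C' η)`, `μ' = O.indicator μ` (`Pair.restrict`), grid
  `g = ⟨0, η 2^(4 + bb d), _⟩` so `g.R 4 = η`; `K` from `exists_R_lt` with `R K < δ`; `w` from
  `exists_shift` for `μ'`. A point `x ∈ ball x0 η` either has `fderiv = 0` (also when `Nm` is not
  differentiable: `fderiv_zero_of_not_differentiableAt`) or is `Act`; then take `exists_opt`,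
  `exists_level` (`4 ≤ j ≤ max 4 K`; use `K' = max 4 K`), `third` for the grid `g.move w`
  (`(g.move w).thv = g.thv`), and `cube 4 z ⊆ O` (`norm_sub_le_of_idx`, `len_eq_R`). So
  `ball x0 η ∩ {Act} ⊆ ⋃ ε, AA ..`; apply `grid_bound`.
* `me_set`: `ofReal (om η^d) ∫_X f = ∫_{x0} ∫_{ball x0 η} X.indicator f` (`lintegral_ball_lintegral`); the inner
  integral vanishes unless `x0 ∈ thickening η X`, and then it is at most
  `C ∫_{ball x0 (C' η)} (thickening ((C'+1) η) X).indicator ‖μ‖ₑ`; integrate again with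
  `lintegral_ball_lintegral`. The new constants are `C C'^d` and `C' + 1`.
-/

namespace Vale.Agent.P137

open MeasureTheory Metric Set Filter Topology
open scoped ENNReal NNReal RealInnerProductSpace

variable {d : ℕ}

theorem me_ball (hd : 0 < d) : ∃ (C : ℝ≥0) (C' : ℝ), 1 ≤ C' ∧ ∀ (h : E d → ℝ) (μ : E d → E d)
    (δ η : ℝ) (x0 : E d), Pair h μ univ → 0 < δ → δ ≤ η →
    ∫⁻ x in ball x0 η, ‖fderiv ℝ (Nm h δ η) x‖ₑ ≤ C * ∫⁻ y in ball x0 (C' * η), ‖μ y‖ₑ := by
  obtain ⟨C1, hC1⟩ := grid_bound hd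
  obtain ⟨C2, hC2⟩ := exists_shift (d := d)
  have hC' : (0 : ℝ) ≤ √(d : ℝ) * 2 ^ bb d := by positivity
  refine ⟨C1 * C2, 3 + √(d : ℝ) * 2 ^ bb d, by linarith, fun h μ δ η x0 hP hδ hδη => ?_⟩
  have hη : 0 < η := hδ.trans_le hδη
  obtain ⟨g, hg⟩ : ∃ g : Grid d, g.R 4 = η := ⟨⟨0, η * 2 ^ (4 + bb d), by positivity⟩, by
    simp only [Grid.R, Grid.len]
    exact mul_div_cancel_right₀ _ (by positivity)⟩
  obtain ⟨K, hK⟩ := g.exists_R_lt hδ
  set O := ball x0 ((3 + √(d : ℝ) * 2 ^ bb d) * η) with hO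
  have hP' := hP.restrict (O := O) measurableSet_ball
  obtain ⟨w, hw⟩ := hC2 g (O.indicator μ) (max 4 K) hP'.im
  have hsub : ball x0 η ∩ {x | Act (Nm h δ η) x} ⊆ ⋃ ε : Fin d → Bool,
      AA h δ η ((g.move w).move (g.thv ε)) fun j =>
        {z | 4 ≤ j ∧ j ≤ max 4 K ∧ ((g.move w).move (g.thv ε)).cube 4 z ⊆ O} := by
    rintro x ⟨hx, hx'⟩
    obtain ⟨z, r, ho⟩ := exists_opt hP.ih hδ hδη x
    have h1 : g.R (max 4 K) / 2 ≤ r := by
      have := g.R_anti (le_max_right 4 K)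
      have := g.R_pos (max 4 K)
      linarith [ho.1]
    obtain ⟨j, hj1, hj2, hj3, hj4⟩ := g.exists_level (le_max_left 4 K) h1 (hg ▸ ho.2.1)
    obtain ⟨ε, hε⟩ := (g.move w).third j z
    refine mem_iUnion.mpr ⟨ε, hx', j, z, r, ho, hj3, hj4, hε, hj1, hj2, fun u hu => ?_⟩
    have h2 := Grid.norm_sub_le_of_idx _ hu
    rw [Grid.len_eq_R, Grid.move_R, Grid.move_R, hg] at h2
    have h3 := mem_ball_iff_norm.mp hx
    have h4 := norm_sub_le_norm_sub_add_norm_sub u z x0
    have h5 := norm_sub_le_norm_sub_add_norm_sub z x x0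
    rw [norm_sub_rev z x] at h5
    rw [hO, mem_ball_iff_norm]
    linarith [ho.2.1, ho.2.2.1]
  have h1 : ∫⁻ x in ball x0 η, ‖fderiv ℝ (Nm h δ η) x‖ₑ =
      ∫⁻ x in ball x0 η ∩ {x | Act (Nm h δ η) x}, ‖fderiv ℝ (Nm h δ η) x‖ₑ := by
    rw [inter_comm, ← Measure.restrict_restrict (measurableSet_act _),
      ← lintegral_indicator (measurableSet_act _)]
    refine lintegral_congr fun x => ?_
    by_cases hx : Act (Nm h δ η) x
    · rw [indicator_of_mem (show x ∈ {x | Act (Nm h δ η) x} from hx)]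
    · rw [indicator_of_notMem (show x ∉ {x | Act (Nm h δ η) x} from hx)]
      by_cases hx' : DifferentiableAt ℝ (Nm h δ η) x
      · rw [not_not.mp fun h0 => hx ⟨hx', h0⟩, ← ofReal_norm, norm_zero, ENNReal.ofReal_zero]
      · rw [fderiv_zero_of_not_differentiableAt hx', ← ofReal_norm, norm_zero,
          ENNReal.ofReal_zero]
  rw [h1]
  refine (lintegral_mono_set hsub).trans ((lintegral_iUnion_le _ _).trans ?_)
  rw [tsum_fintype]
  refine (Finset.sum_le_sum fun ε _ => hC1 h _ O δ η ((g.move w).move (g.thv ε)) (max 4 K) hP' hδ hδη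
    hg.le).trans ?_
  rw [← Finset.mul_sum, ENNReal.coe_mul, mul_assoc]
  refine mul_le_mul_right (hw.trans (le_of_eq ?_)) _
  simp only [enorm_indicator_eq_indicator_enorm]
  rw [lintegral_indicator measurableSet_ball]

theorem me_set (hd : 0 < d) : ∃ (C : ℝ≥0) (C' : ℝ), 1 ≤ C' ∧ ∀ (h : E d → ℝ) (μ : E d → E d)
    (δ η : ℝ) (X : Set (E d)), Pair h μ univ → 0 < δ → δ ≤ η → MeasurableSet X →
    ∫⁻ x in X, ‖fderiv ℝ (Nm h δ η) x‖ₑ ≤ C * ∫⁻ y in thickening (C' * η) X, ‖μ y‖ₑ := by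
  obtain ⟨C, C', hC', hb⟩ := me_ball hd
  refine ⟨C * (C' ^ d).toNNReal, C' + 1, by linarith, fun h μ δ η X hP hδ hδη hX => ?_⟩
  have hη : 0 < η := hδ.trans_le hδη
  have hC0 : 0 < C' := by linarith
  have hom : 0 < om d := om_pos
  obtain ⟨m, hm, hμm⟩ : ∃ m : E d → ℝ≥0∞, Measurable m ∧ (fun y => ‖μ y‖ₑ) =ᵐ[volume] m :=
    hP.im.1.enorm
  have hT : MeasurableSet (thickening ((C' + 1) * η) X) := isOpen_thickening.measurableSet
  have hf : Measurable fun x => ‖fderiv ℝ (Nm h δ η) x‖ₑ := (measurable_fderiv ℝ _).enorm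
  have h1 := lintegral_ball_lintegral (hf.indicator hX) hη
  have h2 := lintegral_ball_lintegral (hm.indicator hT) (mul_pos hC0 hη)
  rw [lintegral_indicator hX] at h1
  rw [lintegral_indicator hT] at h2
  have h3 : ∀ x0, ∫⁻ u in ball x0 η, X.indicator (fun x => ‖fderiv ℝ (Nm h δ η) x‖ₑ) u ≤
      C * ∫⁻ u in ball x0 (C' * η), (thickening ((C' + 1) * η) X).indicator m u := by
    intro x0
    by_cases hx : (ball x0 η ∩ X).Nonempty
    · obtain ⟨x, hx1, hx2⟩ := hx
      refine (lintegral_mono fun u => indicator_le_self _ _ u).trans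
        ((hb h μ δ η x0 hP hδ hδη).trans (le_of_eq ?_))
      rw [lintegral_congr_ae (ae_restrict_of_ae hμm)]
      congr 1
      refine setLIntegral_congr_fun measurableSet_ball fun u hu => (indicator_of_mem ?_ _).symm
      refine mem_thickening_iff.mpr ⟨x, hx2, ?_⟩
      have h4 := dist_triangle_right u x x0
      rw [mem_ball] at hu hx1
      linarith
    · rw [setLIntegral_congr_fun (g := fun _ => 0) measurableSet_ball fun u hu =>
        indicator_of_notMem (fun h' => hx ⟨u, hu, h'⟩) _, lintegral_zero]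
      exact zero_le
  have h4 := lintegral_mono (μ := volume) h3
  have e : ENNReal.ofReal (om d * (C' * η) ^ d) =
      ENNReal.ofReal (om d * η ^ d) * ENNReal.ofReal (C' ^ d) := by
    rw [← ENNReal.ofReal_mul (by positivity)]
    congr 1
    ring
  rw [h1, lintegral_const_mul' _ _ ENNReal.coe_ne_top, h2, e, mul_assoc, mul_left_comm (C : ℝ≥0∞),
    ENNReal.mul_le_mul_iff_right (ENNReal.ofReal_pos.mpr (by positivity)).ne'
      ENNReal.ofReal_ne_top, ← mul_assoc] at h4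
  rw [lintegral_congr_ae (ae_restrict_of_ae hμm), ENNReal.coe_mul]
  exact h4

end Vale.Agent.P137
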