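import Vale.Agent.P137.Grid

/-! P137 Mart: the dyadic martingale `vk` of an integrable field.

Plan.
* The cubes `Q n = g.cube k (g.rep k n)`, `n : Fin d → ℤ`, are a countable measurable partition of
  the space (`idx_rep`), each of volume `len^d ∈ (0, ∞)`; `vk` is the constant `⨍_Q μ` on `Q`.
  `lintegral_vk_le`: decompose `S` (saturated) into cubes (`lintegral_iUnion`), on each cube
  `vol Q * ‖⨍_Q μ‖ₑ = ‖∫_Q μ‖ₑ ≤ ∫⁻_Q ‖μ‖ₑ`.
* `integral_inner_vk`: `hasSum_integral_iUnion` / `integral_iUnion` on both sides; on a cube `φ` is a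
  constant `c` and `∫_Q ⟪c, vk⟫ = ⟪c, ∫_Q μ⟫` (`integral_inner`).
* `setIntegral_inner_vk`: apply the previous twice with `S.indicator φ` (`Cst.indicator`, `Cst.mono`).
* `lintegral_lo`: `∫ lo = F k - ∫ ⟪uv (vk j), vk k⟫ = F k - ∫ ⟪uv (vk j), vk j⟫ = F k - F j`.
* `lintegral_vk_le_add`: on `S`, `‖vk k‖ = lo + ⟪uv (vk j), vk k⟫` and the last term integrates to
  `∫_S ‖vk j‖`.
* `sum_F_le`: telescoping, `∑_{j ∈ s} (F (j+n) - F j) ≤ ∑_{i<n} ∑_{j<M} (F (j+i+1) - F (j+i)) ≤ n V`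
  where `s ⊆ range M`.
-/

namespace Vale.Agent.P137

open MeasureTheory Metric Set Filter Topology
open scoped ENNReal NNReal RealInnerProductSpace

variable {d : ℕ}

namespace Grid

variable (g : Grid d) {μ : E d → E d}

/-- The level `k` cell with index `n`. -/
def martCell (k : ℕ) (n : Fin d → ℤ) : Set (E d) := g.cube k (g.rep k n)

theorem mem_martCell {k : ℕ} {n : Fin d → ℤ} {y : E d} : y ∈ g.martCell k n ↔ g.idx k y = n := by
  simp only [martCell, cube, mem_ofPred_eq, idx_rep]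

theorem measurableSet_martCell (k : ℕ) (n : Fin d → ℤ) : MeasurableSet (g.martCell k n) :=
  (g.sat_cube k _).measurableSet

theorem martCell_disjoint (k : ℕ) : Pairwise (Function.onFun Disjoint (g.martCell k)) := by
  intro n m hnm
  change Disjoint (g.martCell k n) (g.martCell k m)
  rw [Set.disjoint_left]
  intro y hy hy'
  exact hnm ((g.mem_martCell.1 hy).symm.trans (g.mem_martCell.1 hy'))

theorem iUnion_martCell (k : ℕ) : ⋃ n, g.martCell k n = univ :=
  eq_univ_of_forall fun y => mem_iUnion.2 ⟨g.idx k y, g.mem_martCell.2 rfl⟩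

theorem volume_martCell_ne_top (k : ℕ) (n : Fin d → ℤ) : volume (g.martCell k n) ≠ ∞ := by
  rw [martCell, volume_cube]
  exact ENNReal.ofReal_ne_top

theorem Cst.eq_martCell {g : Grid d} {k : ℕ} {α : Type} {φ : E d → α} (hφ : g.Cst k φ)
    {n : Fin d → ℤ} {y : E d} (hy : y ∈ g.martCell k n) : φ y = φ (g.rep k n) :=
  hφ _ _ ((g.mem_martCell.1 hy).trans (g.idx_rep k n).symm)

theorem smul_vk_martCell (μ : E d → E d) (k : ℕ) (n : Fin d → ℤ) :
    volume.real (g.martCell k n) • g.vk μ k (g.rep k n) = ∫ u in g.martCell k n, μ u :=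
  measure_smul_setAverage μ (g.volume_martCell_ne_top k n)

theorem lintegral_martCell (k : ℕ) {S : Set (E d)} (hS : MeasurableSet S) (f : E d → ℝ≥0∞) :
    ∫⁻ y in S, f y = ∑' n, ∫⁻ y in S ∩ g.martCell k n, f y := by
  rw [← lintegral_iUnion (fun n => hS.inter (g.measurableSet_martCell k n))
    (fun n m hnm => (g.martCell_disjoint k hnm).mono inter_subset_right inter_subset_right),
    ← inter_iUnion, iUnion_martCell, inter_univ]

theorem integral_martCell (k : ℕ) {f : E d → ℝ} (hf : Integrable f) :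
    ∫ y, f y = ∑' n, ∫ y in g.martCell k n, f y := by
  rw [← integral_iUnion (g.measurableSet_martCell k) (g.martCell_disjoint k) hf.integrableOn,
    iUnion_martCell, Measure.restrict_univ]

theorem lintegral_vk_martCell (μ : E d → E d) (k : ℕ) (n : Fin d → ℤ) :
    ∫⁻ y in g.martCell k n, ‖g.vk μ k y‖ₑ ≤ ∫⁻ y in g.martCell k n, ‖μ y‖ₑ := by
  have h1 : ∫⁻ y in g.martCell k n, ‖g.vk μ k y‖ₑ =
      ∫⁻ _ in g.martCell k n, ‖g.vk μ k (g.rep k n)‖ₑ :=
    setLIntegral_congr_fun (g.measurableSet_martCell k n) fun y hy => by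
      simp only [(g.cst_vk μ k).eq_martCell hy]
  rw [h1, setLIntegral_const]
  refine le_trans (le_of_eq ?_) (enorm_integral_le_lintegral_enorm μ)
  rw [← g.smul_vk_martCell μ k n, enorm_smul, mul_comm, Real.enorm_of_nonneg measureReal_nonneg,
    ofReal_measureReal (g.volume_martCell_ne_top k n)]

theorem measurable_vk (μ : E d → E d) (k : ℕ) : Measurable (g.vk μ k) := by
  exact (g.cst_vk μ k).measurable

theorem lintegral_vk_le (hμ : Integrable μ) {k : ℕ} {S : Set (E d)} (hS : g.Sat k S) :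
    ∫⁻ y in S, ‖g.vk μ k y‖ₑ ≤ ∫⁻ y in S, ‖μ y‖ₑ := by
  rw [g.lintegral_martCell k hS.measurableSet, g.lintegral_martCell k hS.measurableSet]
  refine ENNReal.tsum_le_tsum fun n => ?_
  by_cases h : g.rep k n ∈ S
  · have : S ∩ g.martCell k n = g.martCell k n :=
      inter_eq_right.2 fun y hy => hS _ _ ((g.idx_rep k n).trans (g.mem_martCell.1 hy).symm) h
    rw [this]
    exact g.lintegral_vk_martCell μ k n
  · have : S ∩ g.martCell k n = ∅ :=
      eq_empty_of_forall_notMem fun y hy =>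
        h (hS _ _ ((g.mem_martCell.1 hy.2).trans (g.idx_rep k n).symm) hy.1)
    rw [this]
    simp

theorem integrable_vk (hμ : Integrable μ) (k : ℕ) : Integrable (g.vk μ k) := by
  refine ⟨(g.measurable_vk μ k).aestronglyMeasurable, ?_⟩
  have h := g.lintegral_vk_le hμ (k := k) (S := univ) fun _ _ _ _ => mem_univ _
  rw [Measure.restrict_univ] at h
  exact lt_of_le_of_lt h hμ.2

theorem mart_integrable_inner {φ ψ : E d → E d} (hφ : AEStronglyMeasurable φ volume) {M : ℝ}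
    (hM : ∀ y, ‖φ y‖ ≤ M) (hψ : Integrable ψ) : Integrable fun y => ⟪φ y, ψ y⟫ := by
  refine (hψ.norm.const_mul M).mono' (hφ.inner hψ.1) (Eventually.of_forall fun y => ?_)
  exact (norm_inner_le_norm _ _).trans (mul_le_mul_of_nonneg_right (hM y) (norm_nonneg _))

theorem integral_inner_vk (hμ : Integrable μ) {k : ℕ} {φ : E d → E d} (hφ : g.Cst k φ) {M : ℝ}
    (hM : ∀ y, ‖φ y‖ ≤ M) : ∫ y, ⟪φ y, g.vk μ k y⟫ = ∫ y, ⟪φ y, μ y⟫ := by
  have hφm : AEStronglyMeasurable φ volume := hφ.measurable.aestronglyMeasurable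
  rw [g.integral_martCell k (mart_integrable_inner hφm hM (g.integrable_vk hμ k)),
    g.integral_martCell k (mart_integrable_inner hφm hM hμ)]
  refine tsum_congr fun n => ?_
  have h1 : ∫ y in g.martCell k n, ⟪φ y, g.vk μ k y⟫ =
      ∫ _ in g.martCell k n, ⟪φ (g.rep k n), g.vk μ k (g.rep k n)⟫ :=
    setIntegral_congr_fun (g.measurableSet_martCell k n) fun y hy => by
      simp only [(g.cst_vk μ k).eq_martCell hy, hφ.eq_martCell hy]
  have h2 : ∫ y in g.martCell k n, ⟪φ y, μ y⟫ = ∫ y in g.martCell k n, ⟪φ (g.rep k n), μ y⟫ :=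
    setIntegral_congr_fun (g.measurableSet_martCell k n) fun y hy => by
      simp only [hφ.eq_martCell hy]
  rw [h1, h2, integral_inner hμ.integrableOn, ← g.smul_vk_martCell μ k n, setIntegral_const,
    real_inner_smul_right, smul_eq_mul]

theorem setIntegral_inner_vk_mu (hμ : Integrable μ) {k : ℕ} {φ : E d → E d} (hφ : g.Cst k φ)
    {M : ℝ} (hM : ∀ y, ‖φ y‖ ≤ M) {S : Set (E d)} (hS : g.Sat k S) :
    ∫ y in S, ⟪φ y, g.vk μ k y⟫ = ∫ y in S, ⟪φ y, μ y⟫ := by
  have hM' : ∀ y, ‖S.indicator φ y‖ ≤ M := fun y => (norm_indicator_le_norm_self _ _).trans (hM y)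
  have h := g.integral_inner_vk hμ (hφ.indicator hS) hM'
  have e : ∀ ψ : E d → E d, ∫ y, ⟪S.indicator φ y, ψ y⟫ = ∫ y in S, ⟪φ y, ψ y⟫ := by
    intro ψ
    rw [← integral_indicator hS.measurableSet]
    refine integral_congr_ae (Eventually.of_forall fun y => ?_)
    by_cases hy : y ∈ S
    · simp only [indicator_of_mem hy]
    · simp only [indicator_of_notMem hy, inner_zero_left]
  rwa [e, e] at h

theorem setIntegral_inner_vk (hμ : Integrable μ) {j k : ℕ} (hjk : j ≤ k) {φ : E d → E d}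
    (hφ : g.Cst j φ) {M : ℝ} (hM : ∀ y, ‖φ y‖ ≤ M) {S : Set (E d)} (hS : g.Sat j S) :
    ∫ y in S, ⟪φ y, g.vk μ k y⟫ = ∫ y in S, ⟪φ y, g.vk μ j y⟫ := by
  rw [g.setIntegral_inner_vk_mu hμ (hφ.mono hjk) hM (hS.mono hjk),
    g.setIntegral_inner_vk_mu hμ hφ hM hS]

/-- Integrability of the pairings used everywhere. -/
theorem integrable_inner_of_bdd {φ ψ : E d → E d} (hφ : AEStronglyMeasurable φ volume) {M : ℝ}
    (hM : ∀ y, ‖φ y‖ ≤ M) (hψ : Integrable ψ) : Integrable fun y => ⟪φ y, ψ y⟫ := by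
  exact mart_integrable_inner hφ hM hψ

theorem F_nonneg (k : ℕ) : 0 ≤ g.F μ k := by
  exact integral_nonneg fun y => norm_nonneg _

theorem ofReal_F (hμ : Integrable μ) (k : ℕ) :
    ENNReal.ofReal (g.F μ k) = ∫⁻ y, ‖g.vk μ k y‖ₑ := by
  exact ofReal_integral_norm_eq_lintegral_enorm (g.integrable_vk hμ k)

theorem ofReal_F_le (hμ : Integrable μ) (k : ℕ) : ENNReal.ofReal (g.F μ k) ≤ ∫⁻ y, ‖μ y‖ₑ := by
  have h := g.lintegral_vk_le hμ (k := k) (S := univ) fun _ _ _ _ => mem_univ _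
  rw [Measure.restrict_univ] at h
  rwa [g.ofReal_F hμ]

theorem F_le (hμ : Integrable μ) (k : ℕ) : g.F μ k ≤ ∫ y, ‖μ y‖ := by
  have h := g.ofReal_F_le hμ k
  rw [← ofReal_integral_norm_eq_lintegral_enorm hμ] at h
  exact (ENNReal.ofReal_le_ofReal_iff (integral_nonneg fun y => norm_nonneg _)).1 h

/-- The vertical loss between levels `j` and `k`. -/
noncomputable def lo (μ : E d → E d) (j k : ℕ) (y : E d) : ℝ :=
  ‖g.vk μ k y‖ - ⟪uv (g.vk μ j y), g.vk μ k y⟫

theorem lo_nonneg (j k : ℕ) (y : E d) : 0 ≤ g.lo μ j k y := by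
  exact sub_nonneg.2 (inner_uv_le _ _)

theorem measurable_lo (j k : ℕ) : Measurable (g.lo μ j k) := by
  exact (g.measurable_vk μ k).norm.sub
    ((measurable_uv.comp (g.measurable_vk μ j)).inner (g.measurable_vk μ k))

theorem cst_uv_vk (j : ℕ) : g.Cst j fun y => uv (g.vk μ j y) := fun y u h => by
  simp only [g.cst_vk μ j y u h]

theorem integrable_inner_uv_vk (hμ : Integrable μ) (j k : ℕ) :
    Integrable fun y => ⟪uv (g.vk μ j y), g.vk μ k y⟫ :=
  mart_integrable_inner (g.cst_uv_vk j).measurable.aestronglyMeasurable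
    (fun y => norm_uv_le _) (g.integrable_vk hμ k)

theorem integrable_lo (hμ : Integrable μ) (j k : ℕ) : Integrable (g.lo μ j k) :=
  (g.integrable_vk hμ k).norm.sub (g.integrable_inner_uv_vk hμ j k)

theorem setIntegral_lo (hμ : Integrable μ) {j k : ℕ} (hjk : j ≤ k) {S : Set (E d)}
    (hS : g.Sat j S) :
    ∫ y in S, g.lo μ j k y = (∫ y in S, ‖g.vk μ k y‖) - ∫ y in S, ‖g.vk μ j y‖ := by
  unfold lo
  rw [integral_sub (g.integrable_vk hμ k).norm.integrableOn
    (g.integrable_inner_uv_vk hμ j k).integrableOn,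
    g.setIntegral_inner_vk hμ hjk (g.cst_uv_vk j) (fun y => norm_uv_le _) hS]
  simp only [inner_uv_self]

theorem integral_lo (hμ : Integrable μ) {j k : ℕ} (hjk : j ≤ k) :
    ∫ y, g.lo μ j k y = g.F μ k - g.F μ j := by
  have h := g.setIntegral_lo hμ hjk (S := univ) fun _ _ _ _ => mem_univ _
  rwa [Measure.restrict_univ] at h

theorem lintegral_lo (hμ : Integrable μ) {j k : ℕ} (hjk : j ≤ k) :
    ∫⁻ y, ENNReal.ofReal (g.lo μ j k y) = ENNReal.ofReal (g.F μ k - g.F μ j) := by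
  rw [← g.integral_lo hμ hjk, ofReal_integral_eq_lintegral_ofReal (g.integrable_lo hμ j k)
    (Eventually.of_forall fun y => g.lo_nonneg j k y)]

theorem F_mono (hμ : Integrable μ) {j k : ℕ} (hjk : j ≤ k) : g.F μ j ≤ g.F μ k := by
  have h := g.integral_lo hμ hjk
  have h0 : 0 ≤ ∫ y, g.lo μ j k y := integral_nonneg fun y => g.lo_nonneg j k y
  linarith

theorem lintegral_vk_le_add (hμ : Integrable μ) {j k : ℕ} (hjk : j ≤ k) {S : Set (E d)}
    (hS : g.Sat j S) :
    ∫⁻ y in S, ‖g.vk μ k y‖ₑ ≤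
      (∫⁻ y in S, ‖g.vk μ j y‖ₑ) + ENNReal.ofReal (g.F μ k - g.F μ j) := by
  have h1 := g.setIntegral_lo hμ hjk hS
  have h2 : ∫ y in S, g.lo μ j k y ≤ ∫ y, g.lo μ j k y :=
    setIntegral_le_integral (g.integrable_lo hμ j k)
      (Eventually.of_forall fun y => g.lo_nonneg j k y)
  rw [g.integral_lo hμ hjk] at h2
  rw [← ofReal_integral_norm_eq_lintegral_enorm (g.integrable_vk hμ k).integrableOn,
    ← ofReal_integral_norm_eq_lintegral_enorm (g.integrable_vk hμ j).integrableOn]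
  refine le_trans (ENNReal.ofReal_le_ofReal ?_) ENNReal.ofReal_add_le
  linarith

theorem sum_F_step (hμ : Integrable μ) (n : ℕ) (s : Finset ℕ) :
    ∑ j ∈ s, ENNReal.ofReal (g.F μ (j + 1 + n) - g.F μ (j + n)) ≤ ∫⁻ y, ‖μ y‖ₑ := by
  obtain ⟨M, hM⟩ := s.exists_nat_subset_range
  refine le_trans (Finset.sum_le_sum_of_subset hM) ?_
  rw [← ENNReal.ofReal_sum_of_nonneg fun j _ => sub_nonneg.2 (g.F_mono hμ (by omega)),
    Finset.sum_range_sub (fun j => g.F μ (j + n))]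
  refine le_trans (ENNReal.ofReal_le_ofReal ?_) (g.ofReal_F_le hμ (M + n))
  linarith [g.F_nonneg (μ := μ) (0 + n)]

theorem sum_F_le (hμ : Integrable μ) (n : ℕ) (s : Finset ℕ) :
    ∑ j ∈ s, ENNReal.ofReal (g.F μ (j + n) - g.F μ j) ≤ n * ∫⁻ y, ‖μ y‖ₑ := by
  induction n with
  | zero => simp
  | succ n ih =>
    calc ∑ j ∈ s, ENNReal.ofReal (g.F μ (j + (n + 1)) - g.F μ j)
        ≤ ∑ j ∈ s, (ENNReal.ofReal (g.F μ (j + n) - g.F μ j) +
          ENNReal.ofReal (g.F μ (j + 1 + n) - g.F μ (j + n))) := by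
          refine Finset.sum_le_sum fun j _ => ?_
          refine le_trans (le_of_eq ?_) ENNReal.ofReal_add_le
          rw [show j + (n + 1) = j + 1 + n by ring]
          congr 1
          ring
      _ ≤ n * (∫⁻ y, ‖μ y‖ₑ) + ∫⁻ y, ‖μ y‖ₑ := by
          rw [Finset.sum_add_distrib]
          exact add_le_add ih (g.sum_F_step hμ n s)
      _ = _ := by
          push_cast
          ring

/-- Weighted version: `∑_m (3/4)^m (a + m)` is finite. -/
theorem exists_sum_F_geo (a : ℕ) : ∃ C : ℝ≥0, ∀ (g : Grid d) (μ : E d → E d), Integrable μ →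
    ∀ s : Finset ℕ, ∑ j ∈ s, ∑' m : ℕ, (3 / 4 : ℝ≥0∞) ^ m *
      ENNReal.ofReal (g.F μ (j + a + m) - g.F μ j) ≤ C * ∫⁻ y, ‖μ y‖ₑ := by
  have hs : Summable fun m : ℕ => (3 / 4 : ℝ) ^ m * ((a + m : ℕ) : ℝ) := by
    have h1 : Summable fun m : ℕ => (3 / 4 : ℝ) ^ m :=
      summable_geometric_of_lt_one (by norm_num) (by norm_num)
    have h2 : Summable fun m : ℕ => (m : ℝ) ^ 1 * (3 / 4 : ℝ) ^ m :=
      summable_pow_mul_geometric_of_norm_lt_one 1 (by norm_num)
    refine ((h1.mul_right (a : ℝ)).add h2).congr fun m => ?_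
    push_cast
    ring
  refine ⟨Real.toNNReal (∑' m : ℕ, (3 / 4 : ℝ) ^ m * ((a + m : ℕ) : ℝ)), fun g μ hμ s => ?_⟩
  have hC : ((Real.toNNReal (∑' m : ℕ, (3 / 4 : ℝ) ^ m * ((a + m : ℕ) : ℝ)) : ℝ≥0) : ℝ≥0∞) =
      ∑' m : ℕ, (3 / 4 : ℝ≥0∞) ^ m * ((a + m : ℕ) : ℝ≥0∞) := by
    change ENNReal.ofReal _ = _
    rw [ENNReal.ofReal_tsum_of_nonneg (fun m => by positivity) hs]
    refine tsum_congr fun m => ?_
    rw [ENNReal.ofReal_mul (by positivity), ENNReal.ofReal_pow (by norm_num),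
      ENNReal.ofReal_natCast, ENNReal.ofReal_div_of_pos (by norm_num)]
    simp
  rw [hC, ← Summable.tsum_finsetSum (fun _ _ => ENNReal.summable), ← ENNReal.tsum_mul_right]
  refine ENNReal.tsum_le_tsum fun m => ?_
  rw [← Finset.mul_sum, mul_assoc]
  refine mul_le_mul_right ?_ _
  simpa only [add_assoc] using g.sum_F_le hμ (a + m) s

theorem tsum_geo : ∑' m : ℕ, (3 / 4 : ℝ≥0∞) ^ m = 4 := by
  rw [ENNReal.tsum_geometric]
  have h : (1 - 3 / 4 : ℝ≥0∞) = 4⁻¹ := by
    refine ENNReal.sub_eq_of_eq_add (by finiteness) ?_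
    rw [← one_div, ← ENNReal.add_div]
    norm_num
    exact (ENNReal.div_self (by norm_num) (by norm_num)).symm
  rw [h, inv_inv]

theorem bd_le (Gd : Set (E d)) (k : ℕ) (y : E d) : g.bd μ Gd k y ≤ ‖g.vk μ k y‖ₑ := by
  exact indicator_le_self _ _ _

theorem bd_empty (k : ℕ) (y : E d) : g.bd μ ∅ k y = ‖g.vk μ k y‖ₑ := by
  simp [bd]

theorem bd_of_mem {Gd : Set (E d)} {k : ℕ} {y : E d} (h : g.vk μ k y ∈ Gd) :
    g.bd μ Gd k y = 0 := by
  exact indicator_of_notMem (s := Gdᶜ) (fun h' => h' h) _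

theorem bd_of_notMem {Gd : Set (E d)} {k : ℕ} {y : E d} (h : g.vk μ k y ∉ Gd) :
    g.bd μ Gd k y = ‖g.vk μ k y‖ₑ := by
  exact indicator_of_mem (s := Gdᶜ) h _

theorem cst_bd (Gd : Set (E d)) (k : ℕ) : g.Cst k (g.bd μ Gd k) := by
  intro y u h
  simp only [bd, g.cst_vk μ k y u h]

theorem measurable_bd (Gd : Set (E d)) (k : ℕ) : Measurable (g.bd μ Gd k) := by
  exact (g.cst_bd Gd k).measurable

theorem measurable_BD (Gd : Set (E d)) (k : ℕ) : Measurable (g.BD μ Gd k) := by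
  exact Measurable.tsum fun m => (g.measurable_bd Gd (k + m)).const_mul _

theorem bd_le_BD (Gd : Set (E d)) (k : ℕ) (y : E d) : g.bd μ Gd k y ≤ g.BD μ Gd k y := by
  refine le_trans (le_of_eq ?_) (ENNReal.le_tsum 0)
  simp

theorem lintegral_BD (Gd : Set (E d)) (k : ℕ) (S : Set (E d)) :
    ∫⁻ y in S, g.BD μ Gd k y =
      ∑' m : ℕ, (3 / 4 : ℝ≥0∞) ^ m * ∫⁻ y in S, g.bd μ Gd (k + m) y := by
  unfold BD
  rw [lintegral_tsum fun m => ((g.measurable_bd Gd (k + m)).const_mul _).aemeasurable]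
  exact tsum_congr fun m => lintegral_const_mul _ (g.measurable_bd Gd (k + m))

end Grid

end Vale.Agent.P137
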