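import Vale.Agent.P137.Mart
import Vale.Agent.P137.Stop

/-! P137 Pack1: packing of trivial cubes and of top cubes.

* `triv_mass`: on `Triv j` either `vk j y = 0` or `‖vk j y‖ ≤ 1600 pl (..)` for some `e ∈ box d` (`pl_far`);
  so `‖vk j y‖ₑ ≤ 1600 ∑_e ofReal (pl ..)` there; `lintegral_finset_sum` (measurability from
  `Cst.measurable`, `Cst.shift`).
* `trivsum`: `lintegral_BD`, `bd_empty`, `lintegral_vk_le_add` with `sat_triv`, `tsum_geo`,
  `exists_sum_F_geo`.
* `topsum`: level `4` contributes `≤ V` (`lintegral_vk_le`). For `j ≥ 4`, `{tp (j+1) = j+1}` is covered by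
  `{Triv j}` (mass `≤ ∫_{Triv j} ‖vk j‖ + (F (j+1) - F j)`) and by
  `B j = {tp (j+1) = j+1, ¬ Triv j, Far (3/20) (nu ω) (vk (j+1))}`, `ω = vk (tp j y) y ≠ 0`
  (`not_triv_tp`). With `u j y = uv (vk (tp j y) y)` (`Cst j`, norm `≤ 1`) put
  `Φ j = ∫ (‖vk j‖ - ⟪u j, vk j⟫) ≥ 0`, `Φ 4 = 0`. Since `∫ ⟪u j, vk j⟫ = ∫ ⟪u j, vk (j+1)⟫`,
  `Φ (j+1) - Φ j = F (j+1) - F j - ∫ ⟪u (j+1) - u j, vk (j+1)⟫`; the integrand vanishes unless
  `tp (j+1) y = j+1`, where it equals `‖vk (j+1)‖ - ⟪u j, vk (j+1)⟫ ≥ 0`, and on `B j` it is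
  `≥ (1/200) ‖vk (j+1)‖` (`Far.tri` with `not_far_nu` gives `Far (1/10) ω (vk (j+1))`, `Far.loss`).
  Telescoping: `∑_j ∫_{B j} ‖vk (j+1)‖ ≤ 200 (F K - F 4) ≤ 200 V`.
-/

namespace Vale.Agent.P137

open MeasureTheory Metric Set Filter Topology
open scoped ENNReal NNReal RealInnerProductSpace

variable {d : ℕ}

theorem triv_mass (g : Grid d) (μ : E d → E d) (j : ℕ) :
    ∫⁻ y in {y | Triv g μ j y}, ‖g.vk μ j y‖ₑ ≤ 1600 * PL g μ j := by
  have hm : ∀ e, Measurable fun y => ENNReal.ofReal (pl (g.vk μ j y) (g.vk μ j (y + g.sh j e))) := by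
    intro e
    refine Grid.Cst.measurable (g := g) (k := j) fun y u h => ?_
    have h2 : g.vk μ j (y + g.sh j e) = g.vk μ j (u + g.sh j e) := (g.cst_vk μ j).shift e y u h
    rw [g.cst_vk μ j y u h, h2]
  rw [PL, ← lintegral_finsetSum _ fun e _ => hm e,
    ← lintegral_const_mul _ (Finset.measurable_sum _ fun e _ => hm e)]
  refine le_trans (setLIntegral_mono' (sat_triv g μ j).measurableSet fun y hy => ?_)
    (setLIntegral_le_lintegral _ _)
  rcases hy with h | ⟨e, he, h1, h2⟩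
  · simp [h]
  · refine le_trans ?_ (mul_le_mul_right (Finset.single_le_sum
      (f := fun e => ENNReal.ofReal (pl (g.vk μ j y) (g.vk μ j (y + g.sh j e))))
      (fun _ _ => zero_le) he) _)
    rw [← ofReal_norm, ← ENNReal.ofReal_ofNat 1600, ← ENNReal.ofReal_mul (by norm_num)]
    exact ENNReal.ofReal_le_ofReal (pl_far h2 h1.le)

theorem trivsum : ∃ C : ℝ≥0, ∀ (g : Grid d) (μ : E d → E d) (K : ℕ), Integrable μ →
    ∑ j ∈ Finset.Icc 4 K, ∫⁻ y in {y | Triv g μ j y}, g.BD μ ∅ (j + aa d) y ≤ C * bud g μ K := by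
  obtain ⟨C, hC⟩ := Grid.exists_sum_F_geo (d := d) (aa d)
  refine ⟨C + 6400, fun g μ K hμ => ?_⟩
  have h1 : ∀ j, ∫⁻ y in {y | Triv g μ j y}, g.BD μ ∅ (j + aa d) y ≤ 6400 * PL g μ j +
      ∑' m : ℕ, (3 / 4 : ℝ≥0∞) ^ m * ENNReal.ofReal (g.F μ (j + aa d + m) - g.F μ j) := by
    intro j
    rw [g.lintegral_BD, show (6400 : ℝ≥0∞) * PL g μ j =
      (∑' m : ℕ, (3 / 4 : ℝ≥0∞) ^ m) * (1600 * PL g μ j) by
        rw [Grid.tsum_geo, ← mul_assoc]; norm_num, ← ENNReal.tsum_mul_right, ← ENNReal.tsum_add]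
    refine ENNReal.tsum_le_tsum fun m => ?_
    rw [← mul_add]
    refine mul_le_mul_right ?_ _
    simp only [g.bd_empty]
    exact (g.lintegral_vk_le_add hμ (by omega) (sat_triv g μ j)).trans
      (add_le_add_left (triv_mass g μ j) _)
  refine (Finset.sum_le_sum fun j _ => h1 j).trans ?_
  rw [Finset.sum_add_distrib, ← Finset.mul_sum, bud, mul_add, add_comm]
  push_cast
  refine add_le_add ((hC g μ hμ _).trans ?_) ?_
  · exact mul_le_mul_left le_self_add _
  · exact mul_le_mul_left le_add_self _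

/-- Direction of the top cube. -/
noncomputable def pack1U (g : Grid d) (μ : E d → E d) (j : ℕ) (y : E d) : E d :=
  uv (g.vk μ (tp g μ j y) y)

/-- Mass in the direction of the top cube. -/
noncomputable def pack1P (g : Grid d) (μ : E d → E d) (j : ℕ) : ℝ :=
  ∫ y, ⟪pack1U g μ j y, g.vk μ j y⟫

theorem pack1_cst (g : Grid d) (μ : E d → E d) (j : ℕ) : g.Cst j (pack1U g μ j) :=
  fun y u h => congrArg uv (cst_vk_tp g μ j y u h)

theorem pack1_int {μ : E d → E d} (hμ : Integrable μ) (g : Grid d) (j k : ℕ) :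
    Integrable fun y => ⟪pack1U g μ j y, g.vk μ k y⟫ :=
  Grid.integrable_inner_of_bdd (pack1_cst g μ j).measurable.aestronglyMeasurable
    (fun _ => norm_uv_le _) (g.integrable_vk hμ k)

theorem pack1_le {μ : E d → E d} (hμ : Integrable μ) (g : Grid d) (j : ℕ) :
    pack1P g μ j ≤ g.F μ j :=
  integral_mono (pack1_int hμ g j j) (g.integrable_vk hμ j).norm fun _ => inner_uv_le _ _

theorem pack1_four (g : Grid d) (μ : E d → E d) : pack1P g μ 4 = g.F μ 4 := by
  simp only [pack1P, pack1U, tp_four, inner_uv_self, Grid.F]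

theorem pack1_diff {μ : E d → E d} (hμ : Integrable μ) (g : Grid d) (j : ℕ) :
    pack1P g μ (j + 1) - pack1P g μ j =
      ∫ y, (⟪pack1U g μ (j + 1) y, g.vk μ (j + 1) y⟫ - ⟪pack1U g μ j y, g.vk μ (j + 1) y⟫) := by
  rw [integral_sub (pack1_int hμ g _ _) (pack1_int hμ g _ _), pack1P, pack1P,
    g.integral_inner_vk hμ (pack1_cst g μ j) fun _ => norm_uv_le _,
    g.integral_inner_vk hμ ((pack1_cst g μ j).mono (Nat.le_succ j)) fun _ => norm_uv_le _]

theorem pack1_nonneg (g : Grid d) (μ : E d → E d) (j : ℕ) (y : E d) :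
    0 ≤ ⟪pack1U g μ (j + 1) y, g.vk μ (j + 1) y⟫ - ⟪pack1U g μ j y, g.vk μ (j + 1) y⟫ := by
  by_cases h : tp g μ (j + 1) y = j + 1
  · rw [pack1U, h, inner_uv_self, sub_nonneg]
    exact inner_uv_le _ _
  · rw [pack1U, (tp_succ_ne h).2.2.2, pack1U, sub_self]

theorem pack1_mono {μ : E d → E d} (hμ : Integrable μ) (g : Grid d) (j : ℕ) :
    pack1P g μ j ≤ pack1P g μ (j + 1) := by
  rw [← sub_nonneg, pack1_diff hμ]
  exact integral_nonneg (pack1_nonneg g μ j)

theorem pack1_step (hd : 0 < d) {μ : E d → E d} (hμ : Integrable μ) (g : Grid d) {j : ℕ}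
    (hj : 4 ≤ j) : ∫⁻ y in {y | tp g μ (j + 1) y = j + 1}, ‖g.vk μ (j + 1) y‖ₑ ≤
      1600 * PL g μ j + (ENNReal.ofReal (g.F μ (j + 1) - g.F μ j) +
        ENNReal.ofReal (200 * (pack1P g μ (j + 1) - pack1P g μ j))) := by
  set S := {y | tp g μ (j + 1) y = j + 1} with hS
  set T := {y | Triv g μ j y} with hT
  have hTm : MeasurableSet T := (sat_triv g μ j).measurableSet
  have hSm : MeasurableSet S := (cst_tp g μ (j + 1)).measurable (measurableSet_singleton (j + 1))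
  have h1 : S ⊆ T ∪ S \ T := fun y hy => by
    by_cases h : y ∈ T
    · exact Or.inl h
    · exact Or.inr ⟨hy, h⟩
  refine (lintegral_mono_set h1).trans ((lintegral_union_le _ _ _).trans ?_)
  rw [← add_assoc]
  refine add_le_add ((g.lintegral_vk_le_add hμ (Nat.le_succ j) (sat_triv g μ j)).trans
    (add_le_add_left (triv_mass g μ j) _)) ?_
  rw [pack1_diff hμ, ← integral_const_mul, ofReal_integral_eq_lintegral_ofReal
    (((pack1_int hμ g _ _).sub' (pack1_int hμ g _ _)).const_mul _)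
    (ae_of_all _ fun y => mul_nonneg (by norm_num) (pack1_nonneg g μ j y))]
  refine le_trans (setLIntegral_mono' (hSm.diff hTm) fun y hy => ?_) (setLIntegral_le_lintegral _ _)
  have h2 : tp g μ (j + 1) y = j + 1 := hy.1
  have h3 : ¬ Triv g μ j y := hy.2
  have h4 := vk_ne_zero (not_triv_tp h3)
  have h5 := (tp_succ_eq hj h2).resolve_left h3
  rw [show (3 / 20 : ℝ) = 1 / 20 + 1 / 10 by norm_num] at h5
  have h6 := (h5.tri h4 (not_far_nu hd h4)).loss (by norm_num)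
  rw [← ofReal_norm]
  refine ENNReal.ofReal_le_ofReal ?_
  simp only [pack1U, h2, inner_uv_self]
  linarith

theorem topsum (hd : 0 < d) : ∃ C : ℝ≥0, ∀ (g : Grid d) (μ : E d → E d) (K : ℕ), Integrable μ →
    ∑ j ∈ Finset.Icc 4 K, ∫⁻ y in {y | tp g μ j y = j}, ‖g.vk μ j y‖ₑ ≤ C * bud g μ K := by
  refine ⟨1600, fun g μ K hμ => ?_⟩
  rcases lt_or_ge K 4 with hK | hK
  · simp [Finset.Icc_eq_empty_of_lt hK]
  have key : ∀ K, 4 ≤ K → g.F μ 4 + 200 * pack1P g μ 4 ≤ g.F μ K + 200 * pack1P g μ K ∧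
      ∑ j ∈ Finset.Icc 4 K, ∫⁻ y in {y | tp g μ j y = j}, ‖g.vk μ j y‖ₑ ≤
      (∫⁻ y, ‖μ y‖ₑ) + 1600 * ∑ j ∈ Finset.Ico 4 K, PL g μ j +
        ENNReal.ofReal (g.F μ K + 200 * pack1P g μ K - (g.F μ 4 + 200 * pack1P g μ 4)) := by
    intro K hK
    induction K, hK using Nat.le_induction with
    | base =>
      refine ⟨le_rfl, ?_⟩
      simp only [Finset.Icc_self, Finset.sum_singleton, Finset.Ico_self, Finset.sum_empty, mul_zero,
        add_zero, sub_self, ENNReal.ofReal_zero]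
      exact (setLIntegral_le_lintegral _ _).trans ((g.ofReal_F hμ 4).ge.trans (g.ofReal_F_le hμ 4))
    | succ K hK ih =>
      have h1 := g.F_mono hμ (Nat.le_succ K)
      have h2 := pack1_mono hμ g K
      refine ⟨by linarith [ih.1], ?_⟩
      rw [Finset.sum_Icc_succ_top (by omega), Finset.sum_Ico_succ_top hK]
      refine (add_le_add ih.2 (pack1_step hd hμ g hK)).trans (le_of_eq ?_)
      have h3 : ENNReal.ofReal (g.F μ (K + 1) + 200 * pack1P g μ (K + 1) -
          (g.F μ 4 + 200 * pack1P g μ 4)) =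
          ENNReal.ofReal (g.F μ K + 200 * pack1P g μ K - (g.F μ 4 + 200 * pack1P g μ 4)) +
          (ENNReal.ofReal (g.F μ (K + 1) - g.F μ K) +
            ENNReal.ofReal (200 * (pack1P g μ (K + 1) - pack1P g μ K))) := by
        rw [← ENNReal.ofReal_add (by linarith) (by linarith),
          ← ENNReal.ofReal_add (by linarith [ih.1]) (by linarith)]
        congr 1
        ring
      rw [h3]
      ring
  refine (key K hK).2.trans ?_
  have h1 : ENNReal.ofReal (g.F μ K + 200 * pack1P g μ K - (g.F μ 4 + 200 * pack1P g μ 4)) ≤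
      201 * ∫⁻ y, ‖μ y‖ₑ := by
    refine le_trans ?_ (mul_le_mul_right (g.ofReal_F_le hμ K) _)
    rw [← ENNReal.ofReal_ofNat 201, ← ENNReal.ofReal_mul (by norm_num)]
    refine ENNReal.ofReal_le_ofReal ?_
    have h2 := pack1_le hμ g K
    have h3 := pack1_four g μ
    have h4 := g.F_nonneg (μ := μ) 4
    linarith
  have h2 : ∑ j ∈ Finset.Ico 4 K, PL g μ j ≤ ∑ j ∈ Finset.Icc 4 K, PL g μ j :=
    Finset.sum_le_sum_of_subset Finset.Ico_subset_Icc_self
  refine (add_le_add (add_le_add_right (mul_le_mul_right h2 _) _) h1).trans ?_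
  rw [bud, mul_add, add_right_comm]
  refine add_le_add ?_ le_rfl
  rw [← one_add_mul]
  exact mul_le_mul_left (by norm_num) _

end Vale.Agent.P137
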