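import Vale.Agent.P137.Field

/-! P137 Smooth: the deformation identity for `C¹` functions, and stability of pairs under `L¹` limits.

* `av_eq_unit`: change of variables `y = z + r u`: `∫_{ball z r} H = r^d ∫_{ball 0 1} H (z + r u) du`
  (`Measure.integral_comp_smul` / `integral_comp_smul`, `integral_add_left_eq_self`, with indicators;
  `Measure.setIntegral_comp_smul`).
* `pair_of_contDiff`: for fixed `u`, `σ ↦ h (pz σ + pr σ • u)` is `C¹` with derivative
  `⟪μ (pz σ + pr σ • u), (z' - z) + (r' - r) • u⟫` (`intervalIntegral.integral_eq_sub_of_hasDerivAt`);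
  `μ` is continuous (`μ = toDual.symm ∘ fderiv h`). Fubini on `ball 0 1 × Icc 0 1` (continuous
  integrand on a bounded set), change variables back for each `σ`
  (`u = (pr σ)⁻¹ • (q - pz σ)`), Fubini again (the integrand is bounded by
  `C ‖μ q‖`, `integral_integral_swap`), and `integral_inner` to pull the pairing out of the `σ` integral.
* `Pair.of_tendsto`: `|av h z r - av hn z r| ≤ (om r^d)⁻¹ ∫ |hn - h|` (`av_eq`) and
  `|∫⟪fld, μn⟫ - ∫⟪fld, μ⟫| ≤ M ∫ ‖μn - μ‖` (`fld_bound`, `measurable_fld`); `tendsto_nhds_unique`.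
-/

namespace Vale.Agent.P137

open MeasureTheory Metric Set Filter Topology
open scoped ENNReal NNReal RealInnerProductSpace

variable {d : ℕ}

theorem setIntegral_ball_eq_unit {F : Type} [NormedAddCommGroup F] [NormedSpace ℝ F]
    (H : E d → F) (z : E d) {r : ℝ} (hr : 0 < r) :
    ∫ y in ball z r, H y = r ^ d • ∫ u in ball (0 : E d) 1, H (z + r • u) := by
  have h1 := Measure.setIntegral_comp_smul_of_pos (volume : Measure (E d)) (fun x => H (z + x))
    (ball (0 : E d) 1) hr
  rw [finrank_euclideanSpace_fin, smul_unitBall_of_pos hr] at h1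
  have h2 : ∫ x in ball (0 : E d) r, H (z + x) = ∫ y in ball z r, H y := by
    rw [← integral_indicator measurableSet_ball, ← integral_indicator measurableSet_ball,
      ← integral_add_left_eq_self ((ball z r).indicator H) z]
    refine integral_congr_ae (Eventually.of_forall fun x => ?_)
    simp only [indicator, mem_ball, dist_self_add_left, dist_zero_right]
  rw [h1, h2, smul_smul, mul_inv_cancel₀ (pow_pos hr d).ne', one_smul]

/-- The integrand of the deformation field. -/
noncomputable def smoothK (z : E d) (r : ℝ) (z' : E d) (r' σ : ℝ) (p : E d) : E d :=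
  (ball (pz z z' σ) (pr r r' σ)).indicator
    (fun q => (om d * pr r r' σ ^ d)⁻¹ • ((z' - z) + ((r' - r) / pr r r' σ) • (q - pz z z' σ))) p

theorem measurable_smoothK (z : E d) (r : ℝ) (z' : E d) (r' : ℝ) :
    Measurable fun p : ℝ × E d => smoothK z r z' r' p.1 p.2 := by
  have e : (fun p : ℝ × E d => smoothK z r z' r' p.1 p.2) =
      {p : ℝ × E d | dist p.2 (pz z z' p.1) < pr r r' p.1}.indicator fun p =>
        (om d * pr r r' p.1 ^ d)⁻¹ • ((z' - z) + ((r' - r) / pr r r' p.1) • (p.2 - pz z z' p.1)) :=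
    rfl
  rw [e]
  unfold pz pr
  exact Measurable.indicator (by fun_prop)
    (isOpen_lt (by fun_prop) (by fun_prop)).measurableSet

theorem min_le_pr_smooth {r r' σ : ℝ} (hσ : σ ∈ Icc (0 : ℝ) 1) : min r r' ≤ pr r r' σ := by
  have h1 := mul_le_mul_of_nonneg_left (min_le_left r r') (sub_nonneg.mpr hσ.2)
  have h2 := mul_le_mul_of_nonneg_left (min_le_right r r') hσ.1
  unfold pr
  linarith

theorem smoothK_bound {z z' : E d} {r r' σ : ℝ} (hr : 0 < r) (hr' : 0 < r') (hσ : σ ∈ Icc (0 : ℝ) 1)
    (p : E d) : ‖smoothK z r z' r' σ p‖ ≤ (om d * min r r' ^ d)⁻¹ * (‖z' - z‖ + |r' - r|) := by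
  have hm : 0 < min r r' := lt_min hr hr'
  have hle := min_le_pr_smooth (r := r) (r' := r') hσ
  have hp := hm.trans_le hle
  have hom : 0 < om d := om_pos
  by_cases hq : p ∈ ball (pz z z' σ) (pr r r' σ)
  · rw [smoothK, indicator_of_mem hq, norm_smul, Real.norm_of_nonneg (by positivity)]
    refine mul_le_mul (inv_anti₀ (by positivity) (by gcongr)) ((norm_add_le _ _).trans ?_)
      (norm_nonneg _) (by positivity)
    rw [norm_smul, Real.norm_eq_abs, abs_div, abs_of_pos hp, div_mul_eq_mul_div, add_le_add_iff_left,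
      div_le_iff₀ hp]
    exact mul_le_mul_of_nonneg_left (mem_ball_iff_norm.mp hq).le (abs_nonneg _)
  · rw [smoothK, indicator_of_notMem hq, norm_zero]
    positivity

theorem pair_of_contDiff {h : E d → ℝ} {μ : E d → E d} (hc : ContDiff ℝ 1 h) (hh : Integrable h)
    (hμ : Integrable μ) (hD : ∀ x v, fderiv ℝ h x v = ⟪μ x, v⟫) : Pair h μ univ := by
  refine ⟨hh, hμ, fun _ _ z r z' r' _ hr hr' _ _ => ?_⟩
  have hμc : Continuous μ := by
    have e : μ = fun x => (InnerProductSpace.toDual ℝ (E d)).symm (fderiv ℝ h x) := by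
      funext x
      refine ext_inner_right ℝ fun v => ?_
      rw [InnerProductSpace.toDual_symm_apply, hD]
    rw [e]
    exact (InnerProductSpace.toDual ℝ (E d)).symm.continuous.comp (hc.continuous_fderiv one_ne_zero)
  have hom : om d ≠ 0 := om_pos.ne'
  have hav : ∀ (y : E d) (s : ℝ), 0 < s →
      av h y s = (om d)⁻¹ * ∫ u in ball (0 : E d) 1, h (y + s • u) := by
    intro y s hs
    rw [av_eq h y hs, setIntegral_ball_eq_unit h y hs, smul_smul, smul_eq_mul, mul_inv,
      inv_mul_cancel_right₀ (pow_pos hs d).ne']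
  have hib : ∀ {g : E d → ℝ}, Continuous g → IntegrableOn g (ball (0 : E d) 1) := fun hg =>
    (hg.continuousOn.integrableOn_compact (isCompact_closedBall 0 1)).mono_set ball_subset_closedBall
  have hcc := hc.continuous
  have hftc : ∀ u : E d, h (z' + r' • u) - h (z + r • u) = ∫ σ in Icc (0 : ℝ) 1,
      ⟪μ (pz z z' σ + pr r r' σ • u), (z' - z) + (r' - r) • u⟫ := by
    intro u
    have hder : ∀ σ : ℝ, HasDerivAt (fun σ => h (pz z z' σ + pr r r' σ • u))
        ⟪μ (pz z z' σ + pr r r' σ • u), (z' - z) + (r' - r) • u⟫ σ := by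
      intro σ
      have h1 : HasDerivAt (fun σ : ℝ => pz z z' σ + pr r r' σ • u) ((z' - z) + (r' - r) • u) σ := by
        have a1 := ((hasDerivAt_id' σ).smul_const (z' - z)).const_add z
        have a2 := (((hasDerivAt_id' σ).mul_const (r' - r)).const_add r).smul_const u
        rw [one_smul] at a1
        rw [one_mul] at a2
        exact a1.add a2
      rw [← hD]
      exact HasFDerivAt.comp_hasDerivAt (f := fun σ : ℝ => pz z z' σ + pr r r' σ • u) σ
        (hc.differentiable one_ne_zero _).hasFDerivAt h1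
    rw [integral_Icc_eq_integral_Ioc, ← intervalIntegral.integral_of_le zero_le_one,
      intervalIntegral.integral_eq_sub_of_hasDerivAt (fun σ _ => hder σ)
        (Continuous.intervalIntegrable (by unfold pz pr; fun_prop) _ _)]
    simp [pz, pr]
  have hF1 : Integrable (Function.uncurry fun (u : E d) (σ : ℝ) =>
      ⟪μ (pz z z' σ + pr r r' σ • u), (z' - z) + (r' - r) • u⟫)
      ((volume.restrict (ball (0 : E d) 1)).prod (volume.restrict (Icc (0 : ℝ) 1))) := by
    rw [Measure.prod_restrict]
    have hcont : Continuous (Function.uncurry fun (u : E d) (σ : ℝ) =>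
      ⟪μ (pz z z' σ + pr r r' σ • u), (z' - z) + (r' - r) • u⟫) := by
      unfold pz pr Function.uncurry; fun_prop
    exact (hcont.continuousOn.integrableOn_compact ((isCompact_closedBall 0 1).prod isCompact_Icc)).mono_set
      (prod_mono ball_subset_closedBall subset_rfl)
  have hF2 : Integrable (Function.uncurry fun (σ : ℝ) (q : E d) => ⟪smoothK z r z' r' σ q, μ q⟫)
      ((volume.restrict (Icc (0 : ℝ) 1)).prod volume) := by
    refine Integrable.mono' ((integrable_const ((om d * min r r' ^ d)⁻¹ * (‖z' - z‖ + |r' - r|))).mul_prod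
      hμ.norm) ((measurable_smoothK z r z' r').inner (hμc.measurable.comp measurable_snd)).aestronglyMeasurable ?_
    rw [← Measure.restrict_univ (μ := (volume : Measure (E d))), Measure.prod_restrict,
      ae_restrict_iff' (measurableSet_Icc.prod MeasurableSet.univ)]
    refine Eventually.of_forall fun p hp => (norm_inner_le_norm _ _).trans ?_
    exact mul_le_mul_of_nonneg_right (smoothK_bound hr hr' hp.1 p.2) (norm_nonneg _)
  rw [hav z' r' hr', hav z r hr, ← mul_sub, ← integral_sub (hib (by fun_prop)) (hib (by fun_prop))]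
  simp only [hftc]
  rw [integral_integral_swap hF1, ← integral_const_mul]
  have h3 : ∀ p, ⟪fld z r z' r' p, μ p⟫ = ∫ σ in Icc (0 : ℝ) 1, ⟪smoothK z r z' r' σ p, μ p⟫ := by
    intro p
    have hi : Integrable (fun σ => smoothK z r z' r' σ p) (volume.restrict (Icc (0 : ℝ) 1)) := by
      refine Integrable.mono' (integrable_const ((om d * min r r' ^ d)⁻¹ * (‖z' - z‖ + |r' - r|)))
        ((measurable_smoothK z r z' r').comp measurable_prodMk_right).aestronglyMeasurable ?_
      rw [ae_restrict_iff' measurableSet_Icc]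
      exact Eventually.of_forall fun σ hσ => smoothK_bound hr hr' hσ p
    simp only [real_inner_comm (μ p)]
    rw [integral_inner hi]
    rfl
  simp only [h3]
  rw [← integral_integral_swap hF2]
  refine setIntegral_congr_fun measurableSet_Icc fun σ hσ => ?_
  have hp : 0 < pr r r' σ := (lt_min hr hr').trans_le (min_le_pr_smooth hσ)
  have h4 : ∀ q, ⟪smoothK z r z' r' σ q, μ q⟫ = (ball (pz z z' σ) (pr r r' σ)).indicator
      (fun q => (om d * pr r r' σ ^ d)⁻¹ *
        ⟪μ q, (z' - z) + ((r' - r) / pr r r' σ) • (q - pz z z' σ)⟫) q := by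
    intro q
    by_cases hq : q ∈ ball (pz z z' σ) (pr r r' σ)
    · rw [smoothK, indicator_of_mem hq, indicator_of_mem hq, real_inner_smul_left, real_inner_comm]
    · rw [smoothK, indicator_of_notMem hq, indicator_of_notMem hq, inner_zero_left]
  simp only [h4]
  rw [integral_indicator measurableSet_ball, integral_const_mul, setIntegral_ball_eq_unit _ _ hp,
    smul_eq_mul, mul_inv, mul_assoc, inv_mul_cancel_left₀ (pow_pos hp d).ne']
  simp only [add_sub_cancel_left, smul_smul, div_mul_cancel₀ _ hp.ne']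

theorem Pair.of_tendsto {hn : ℕ → E d → ℝ} {μn : ℕ → E d → E d} {h : E d → ℝ} {μ : E d → E d}
    (hP : ∀ n, Pair (hn n) (μn n) univ) (hh : Integrable h) (hμ : Integrable μ)
    (h1 : Tendsto (fun n => ∫ x, |hn n x - h x|) atTop (𝓝 0))
    (h2 : Tendsto (fun n => ∫ x, ‖μn n x - μ x‖) atTop (𝓝 0)) : Pair h μ univ := by
  refine ⟨hh, hμ, fun _ _ z r z' r' _ hr hr' _ _ => ?_⟩
  have t1 : ∀ (y : E d) (s : ℝ), 0 < s → Tendsto (fun n => av (hn n) y s) atTop (𝓝 (av h y s)) := by
    intro y s hs
    simp only [av_eq _ y hs]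
    refine Tendsto.const_smul ?_ _
    rw [tendsto_iff_norm_sub_tendsto_zero]
    refine squeeze_zero (fun n => norm_nonneg _) (fun n => ?_) h1
    rw [← integral_sub (hP n).ih.integrableOn hh.integrableOn]
    exact (norm_integral_le_integral_norm _).trans (setIntegral_le_integral ((hP n).ih.sub hh).norm
      (Eventually.of_forall fun x => norm_nonneg _))
  have hi : ∀ {ψ : E d → E d}, Integrable ψ → Integrable fun p => ⟪fld z r z' r' p, ψ p⟫ := by
    intro ψ hψ
    refine Integrable.mono' (hψ.norm.const_mul ((‖z' - z‖ + |r' - r|) / (om d * min r r' ^ d)))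
      ((measurable_fld z r z' r').aestronglyMeasurable.inner hψ.1) (Eventually.of_forall fun p => ?_)
    exact (norm_inner_le_norm _ _).trans (mul_le_mul_of_nonneg_right (fld_bound hr hr' p) (norm_nonneg _))
  have t2 : Tendsto (fun n => ∫ p, ⟪fld z r z' r' p, μn n p⟫) atTop
      (𝓝 (∫ p, ⟪fld z r z' r' p, μ p⟫)) := by
    rw [tendsto_iff_norm_sub_tendsto_zero]
    have h3 := h2.const_mul ((‖z' - z‖ + |r' - r|) / (om d * min r r' ^ d))
    rw [mul_zero] at h3
    refine squeeze_zero (fun n => norm_nonneg _) (fun n => ?_) h3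
    rw [← integral_sub (hi (hP n).im) (hi hμ), ← integral_const_mul]
    refine norm_integral_le_of_norm_le (((hP n).im.sub hμ).norm.const_mul _)
      (Eventually.of_forall fun p => ?_)
    rw [← inner_sub_right]
    exact (norm_inner_le_norm _ _).trans (mul_le_mul_of_nonneg_right (fld_bound hr hr' p) (norm_nonneg _))
  refine tendsto_nhds_unique ((t1 z' r' hr').sub (t1 z r hr)) ?_
  simp only [fun n => (hP n).eq_univ z z' hr hr']
  exact t2

end Vale.Agent.P137
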