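import Mathlib

/-! Definitions used in the statement of the P137 result. -/

namespace Vale.Agent.P137

open MeasureTheory Metric
open scoped ENNReal RealInnerProductSpace

/-- The uncentered Hardy-Littlewood maximal function (value in `[0, ∞]`): the supremum of the
averages of `|f|` over all open Euclidean balls containing `x`. -/
noncomputable def umax {d : ℕ} (f : EuclideanSpace ℝ (Fin d) → ℝ) (x : EuclideanSpace ℝ (Fin d)) :
    ℝ≥0∞ :=
  ⨆ (z : EuclideanSpace ℝ (Fin d)) (r : ℝ) (_ : x ∈ ball z r),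
    (∫⁻ y in ball z r, ‖f y‖ₑ) / volume (ball z r)

/-- `G` is a weak gradient of `f`: integration by parts against all smooth compactly supported
test functions, in every direction `v`. -/
def IsWeakGrad {d : ℕ} (f : EuclideanSpace ℝ (Fin d) → ℝ)
    (G : EuclideanSpace ℝ (Fin d) → EuclideanSpace ℝ (Fin d)) : Prop :=
  ∀ φ : EuclideanSpace ℝ (Fin d) → ℝ, ContDiff ℝ ((⊤ : ℕ∞) : WithTop ℕ∞) φ → HasCompactSupport φ →
    ∀ v : EuclideanSpace ℝ (Fin d),
      ∫ x, f x * fderiv ℝ φ x v = -∫ x, ⟪G x, v⟫ * φ x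

end Vale.Agent.P137
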