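import Vale.Agent.P137.Flat
import Vale.Agent.P137.Charge

/-! P137 Up: upper exposed points and trivial cubes.

* `up_point`: `N = Nm h δ η`, `β = be d`, `R = g.R j`. `Opt.inner_le` and `chord_init` give
  `‖x + (2 β r) u - z‖ ≤ r`. Put `w = (β r / 2) • (-u)`; then `x - (z + w) = x + (β r/2) u - z` has norm
  `< r` (`seg_lt`), so `av h (z + w) r < N x = av h z r` (`Act.av_lt`). Take `s0 = β r / 2`; for
  `s ∈ (s0, s0 + g0 R)` we have `s ≤ 3 β r / 2`, `seg_deep` and `flat` give `Near` (with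
  `ball y (6R) ⊆ ball z (7R)`, `Near.mono`). A later point `x' = x + s' u` with `Act`, `N x' = N x` is
  not in the open ball `(z, r)` (`Act.av_lt`), so `s' ≥ 2 β r` by `seg_lt`. Also `3 β r/2 ≤ r ≤ η`.
* `triv_bound`: `AA ⊆ ⋃ i s, AA ∩ {be ‖fderiv‖ ≤ fderiv (cdir i s)}` (`exists_dir`); each piece is
  measurable (`measurableSet_AA`, `measurable_fderiv`), apply `charge` with
  `w j = (S j).indicator (BD ∅ (j + aa d))`, `up_point` with `ν = 0`, `Gd = ∅`:
  `ball z (7 R) ⊆ ball z (len j / 6) ⊆ cube j z ⊆ S j` (`R_le_len`, `Deep.ball_subset`, `Sat`).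
-/

namespace Vale.Agent.P137

open MeasureTheory Metric Set Filter Topology
open scoped ENNReal NNReal RealInnerProductSpace

variable {d : ℕ}

theorem up_point (hd : 0 < d) : ∃ C : ℝ≥0, ∀ (h : E d → ℝ) (μ : E d → E d) (O : Set (E d))
    (δ η : ℝ) (g : Grid d) (ν : E d) (Gd : Set (E d)) (u : E d) (w : ℕ → E d → ℝ≥0∞)
    (x z : E d) (r : ℝ) (j : ℕ), Pair h μ O → 0 < δ → Cone ν Gd → ‖u‖ = 1 →
    (∀ ξ ∈ Gd, ‖ξ‖ / 4 ≤ ⟪-u, ξ⟫) → Act (Nm h δ η) x →
    be d * ‖fderiv ℝ (Nm h δ η) x‖ ≤ fderiv ℝ (Nm h δ η) x u →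
    Opt h δ η x z r → g.R j / 2 ≤ r → r ≤ g.R j → ball z (7 * g.R j) ⊆ O →
    (∀ p ∈ ball z (7 * g.R j), g.BD μ Gd (j + aa d) p ≤ w j p) →
    Chg h (Nm h δ η) C g.R w η u x := by
  obtain ⟨C, hC⟩ := flat hd
  refine ⟨C, fun h μ O δ η g ν Gd u w x z r j hP hδ hcone hu hG hact hder hopt hr1 hr2 hO hw => ?_⟩
  have hβ := be_pos hd
  have hβ' := be_le hd
  have hR := g.R_pos j
  have hc0 := c0_pos hd
  have hr : 0 < r := by linarith
  have hβr : 0 < be d * r := mul_pos hβ hr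
  have hβr' : be d * r ≤ r / 5 := by nlinarith
  have hg0 : g0 d * g.R j ≤ be d * r := by
    rw [g0]; nlinarith
  obtain ⟨ho1, ho2, ho3, ho4⟩ := hopt
  have hin := Opt.inner_le hP.ih hδ hact ⟨ho1, ho2, ho3, ho4⟩ hβ hder
  have hch := chord_init hd hu hr.le ho3 hin
  have hlt : av h (z + (be d * r / 2) • (-u)) r < Nm h δ η x := by
    refine hact.av_lt hP.ih hδ ho1 ho2 ?_
    have := seg_lt (s := be d * r / 2) hu ho3 hch (by linarith) (by linarith)
    rwa [show x - (z + (be d * r / 2) • (-u)) = x + (be d * r / 2) • u - z by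
      rw [smul_neg]; abel]
  refine ⟨j, be d * r / 2, by linarith, by linarith, fun s hs => ?_, fun s' hs' hact' hN => ?_⟩
  · have hdeep := seg_deep hd hu hR hr1 hr2 ho3 hch hs.1.le (by linarith [hs.2])
    have hsub : ball (x + s • u) (6 * g.R j) ⊆ ball z (7 * g.R j) := by
      refine ball_subset_ball' ?_
      rw [dist_eq_norm]
      nlinarith [mul_pos hc0 hR]
    refine (hC h μ O g ν Gd j z ((be d * r / 2) • (-u)) (x + s • u) r _ hP hcone hr1 hr2 ?_ ?_
      (hsub.trans hO) hdeep hlt.le ho4.ge).mono le_rfl fun p hp => hw p (hsub hp)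
    · rw [norm_smul, norm_neg, hu, mul_one, Real.norm_of_nonneg (by linarith)]
      linarith
    · intro ξ hξ
      rw [real_inner_smul_left]
      have h1 := mul_le_mul_of_nonneg_left (hG ξ hξ) (show 0 ≤ be d * r / 2 by linarith)
      have h2 : be d / 16 * g.R j ≤ be d * r / 8 := by nlinarith
      have h3 := mul_le_mul_of_nonneg_right h2 (norm_nonneg ξ)
      linarith
  · by_contra hlt'
    have h1 : s' < 2 * be d * r := by linarith
    have h2 := hact'.av_lt hP.ih hδ ho1 ho2 (seg_lt hu ho3 hch hs' h1)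
    rw [hN, ho4] at h2
    exact lt_irrefl _ h2

theorem triv_bound (hd : 0 < d) : ∃ C : ℝ≥0, ∀ (h : E d → ℝ) (μ : E d → E d) (O : Set (E d))
    (δ η : ℝ) (g : Grid d) (S : ℕ → Set (E d)), Pair h μ O → 0 < δ → δ ≤ η →
    (∀ j, g.Sat j (S j)) → (∀ j, S j ⊆ O) →
    ∫⁻ x in AA h δ η g S, ‖fderiv ℝ (Nm h δ η) x‖ₑ ≤
      C * ∑' j : ℕ, ∫⁻ y in S j, g.BD μ ∅ (j + aa d) y := by
  obtain ⟨C1, hC1⟩ := up_point hd
  obtain ⟨C2, hC2⟩ := charge hd C1
  refine ⟨(Fintype.card (Fin d × Bool) : ℝ≥0) * C2, fun h μ O δ η g S hP hδ hδη hS hSO => ?_⟩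
  set N := Nm h δ η with hN
  set A : Fin d × Bool → Set (E d) := fun p =>
    AA h δ η g S ∩ {x | be d * ‖fderiv ℝ N x‖ ≤ fderiv ℝ N x (cdir p.1 p.2)} with hA
  have hcov : AA h δ η g S ⊆ ⋃ p, A p := fun x hx => by
    obtain ⟨i, s, his⟩ := exists_dir hd (fderiv ℝ N x)
    exact mem_iUnion.2 ⟨(i, s), hx, his⟩
  have hpiece : ∀ p, ∫⁻ x in A p, ‖fderiv ℝ N x‖ₑ ≤
      C2 * ∑' j : ℕ, ∫⁻ y in S j, g.BD μ ∅ (j + aa d) y := fun p => by
    have hm : MeasurableSet (A p) := by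
      refine (measurableSet_AA hP.ih hδ hδη g hS).inter (measurableSet_le ?_ ?_)
      · exact (measurable_fderiv ℝ N).norm.const_mul _
      · exact measurable_fderiv_apply_const ℝ N _
    have key := hC2 h N (A p) (cdir p.1 p.2) η g.R
      (fun j => (S j).indicator (g.BD μ ∅ (j + aa d))) hP.ih hm g.R_pos
      (fun j => (g.measurable_BD _ _).indicator (hS j).measurableSet) ?_
    · refine key.trans (le_of_eq ?_)
      congr 1
      exact tsum_congr fun j => lintegral_indicator (hS j).measurableSet _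
    · rintro x ⟨⟨hact, j, z, r, hopt, hr1, hr2, hdeep, hz⟩, hx⟩
      have hsub : ball z (7 * g.R j) ⊆ S j := by
        have h1 := g.R_le_len j
        have h2 := one_le_sqrt hd
        have h3 := g.R_pos j
        have h4 : 7 * g.R j ≤ g.len j / 6 := by nlinarith
        intro y hy
        have h5 : g.idx j y = g.idx j z := hdeep.ball_subset (ball_subset_ball h4 hy)
        exact hS j z y h5.symm hz
      refine ⟨hact, hx, hC1 h μ O δ η g 0 ∅ _ _ x z r j hP hδ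
        ⟨by simp, MeasurableSet.empty, by simp⟩ (norm_cdir _ _) (by simp) hact hx hopt hr1 hr2
        (hsub.trans (hSO j)) fun y hy => ?_⟩
      rw [indicator_of_mem (hsub hy)]
  calc ∫⁻ x in AA h δ η g S, ‖fderiv ℝ N x‖ₑ ≤ ∫⁻ x in ⋃ p, A p, ‖fderiv ℝ N x‖ₑ :=
        lintegral_mono_set hcov
    _ ≤ ∑' p, ∫⁻ x in A p, ‖fderiv ℝ N x‖ₑ := lintegral_iUnion_le _ _
    _ ≤ ∑' _ : Fin d × Bool, C2 * ∑' j : ℕ, ∫⁻ y in S j, g.BD μ ∅ (j + aa d) y :=
        ENNReal.tsum_le_tsum hpiece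
    _ = _ := by
        rw [tsum_fintype, Finset.sum_const, Finset.card_univ, nsmul_eq_mul, ENNReal.coe_mul,
          ENNReal.coe_natCast, mul_assoc]

end Vale.Agent.P137
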