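import Vale.Agent.P137.Low
import Vale.Agent.P137.Up
import Vale.Agent.P137.GM

/-! P137 Tree: the gradient bound for one tree.

* `sum_wT_le`: `∫ wT j = ∫_{HH j} BD + ∫_{ZZ j} ‖vk‖ₑ` (`lintegral_add_left`, `lintegral_indicator`),
  `∫_{ZZ} ≤ ∫_{Zr} + ∫_{Zs} + ∫_{Zt}` (`lintegral_union_le`), `gm` three times with `m = 5`, `H = HH`
  (lemmas of `Geo`), `bd_le_BD`.
* `tree_bound`: `A = AA h δ η g T` is measurable (`measurableSet_AA`) and covered by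
  `A ∩ {be ‖fderiv‖ ≤ fderiv ν}` (use `low_point`, `charge` with `u = ν`) and the `2 d` sets
  `A ∩ {be ‖fderiv‖ ≤ fderiv (udir ν i s)}` (`exists_dir_up`; `up_point` with `O = cube j0 y0`,
  `w = wT`, `udir_cone`, `norm_udir`; `ball z (7R) ⊆ cube j z ⊆ T j ⊆ HH j`).
-/

namespace Vale.Agent.P137

open MeasureTheory Metric Set Filter Topology
open scoped ENNReal NNReal RealInnerProductSpace

variable {d : ℕ}

theorem sum_wT_le (hd : 0 < d) {μ : E d → E d} (hμ : Integrable μ) {g : Grid d} {j0 : ℕ} {y0 : E d}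
    {T : ℕ → Set (E d)} (hT : IsTree g j0 y0 T) {ν : E d} {Gd : Set (E d)} (hG : Cone ν Gd) :
    ∑' j : ℕ, ∫⁻ u, wT g μ Gd j0 y0 T j u ≤ 46 * cost g μ Gd j0 y0 T := by
  set a := ∫⁻ u in g.cube j0 y0, ‖g.vk μ j0 u‖ₑ with ha
  set b := ∑' j : ℕ, ∫⁻ u in HH g j0 y0 T j, g.BD μ Gd (j + aa d) u with hb
  have h1 : 1 ≤ aa d := by unfold aa bb; omega
  have hb' : ∑' j : ℕ, ∫⁻ u in HH g j0 y0 T j, g.bd μ Gd (j + aa d) u ≤ b :=
    ENNReal.tsum_le_tsum fun j => lintegral_mono fun u => g.bd_le_BD Gd _ u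
  have key : ∀ Z : ℕ → Set (E d), (∀ j, g.Sat (j + aa d) (Z j)) →
      (∀ j, Z j ⊆ HH g j0 y0 T j) → (∀ u j j', u ∈ Z j → u ∈ Z j' → j' < j + 5) →
      ∑' j : ℕ, ∫⁻ u in Z j, ‖g.vk μ (j + aa d) u‖ₑ ≤ 5 * (2 * a + 3 * b) := by
    intro Z z1 z2 z3
    refine (gm g hμ hG h1 j0 y0 (HH g j0 y0 T) Z hT.sat_HH (fun j hj => hT.HH_low hj) hT.HH_top
      (fun j hj => hT.HH_anti hj) z1 z2 5 z3).trans ?_
    rw [Nat.cast_ofNat]
    gcongr
  have k1 := key _ hT.sat_Zr hT.Zr_subset fun u j j' h h' => hT.Zr_overlap h h'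
  have k2 := key _ hT.sat_Zs Zs_subset fun u j j' h h' => Zs_overlap hd h h'
  have k3 := key _ sat_Zt hT.Zt_subset fun u j j' h h' => Zt_overlap h h'
  have h2 : ∀ j, ∫⁻ u, wT g μ Gd j0 y0 T j u ≤
      (∫⁻ u in HH g j0 y0 T j, g.BD μ Gd (j + aa d) u) +
        ((∫⁻ u in Zr g j0 y0 T j, ‖g.vk μ (j + aa d) u‖ₑ) +
          (∫⁻ u in Zs g j0 y0 T j, ‖g.vk μ (j + aa d) u‖ₑ) +
          ∫⁻ u in Zt g j0 y0 j, ‖g.vk μ (j + aa d) u‖ₑ) := by
    intro j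
    have m1 := (hT.sat_HH j).measurableSet
    have m2 : MeasurableSet (ZZ g j0 y0 T j) :=
      (((hT.sat_Zr j).union (hT.sat_Zs j)).union (sat_Zt j)).measurableSet
    unfold wT
    rw [lintegral_add_left ((g.measurable_BD Gd _).indicator m1), lintegral_indicator m1,
      lintegral_indicator m2]
    gcongr
    refine (lintegral_union_le _ _ _).trans ?_
    gcongr
    exact lintegral_union_le _ _ _
  refine (ENNReal.tsum_le_tsum h2).trans ?_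
  rw [ENNReal.tsum_add, ENNReal.tsum_add, ENNReal.tsum_add, ← hb]
  calc _ ≤ b + (5 * (2 * a + 3 * b) + 5 * (2 * a + 3 * b) + 5 * (2 * a + 3 * b)) := by gcongr
    _ = 30 * a + 46 * b := by ring
    _ ≤ 46 * a + 46 * b := by gcongr; norm_num
    _ = 46 * cost g μ Gd j0 y0 T := by rw [cost, mul_add]

theorem tree_bound (hd : 0 < d) : ∃ C : ℝ≥0, ∀ (h : E d → ℝ) (μ : E d → E d) (δ η : ℝ)
    (g : Grid d) (j0 : ℕ) (y0 : E d) (T : ℕ → Set (E d)) (ν : E d) (Gd : Set (E d)),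
    Pair h μ (g.cube j0 y0) → 0 < δ → δ ≤ η → g.R j0 ≤ η → IsTree g j0 y0 T →
    ‖ν‖ = 1 → (∀ i, 1 / (80 * √(d : ℝ)) ≤ |ν i|) → MeasurableSet Gd →
    (∀ ξ ∈ Gd, 7 / 8 * ‖ξ‖ ≤ ⟪ν, ξ⟫) →
    ∫⁻ x in AA h δ η g T, ‖fderiv ℝ (Nm h δ η) x‖ₑ ≤ C * cost g μ Gd j0 y0 T := by
  obtain ⟨C1, hlow⟩ := low_point hd
  obtain ⟨C2, hup⟩ := up_point hd
  obtain ⟨D1, hc1⟩ := charge hd C1
  obtain ⟨D2, hc2⟩ := charge hd C2
  refine ⟨(D1 + Fintype.card (Fin d × Bool) * D2) * 46, ?_⟩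
  intro h μ δ η g j0 y0 T ν Gd hP hδ hδη hR hT hν hνi hGm hGd
  have hG : Cone ν Gd := ⟨hν.le, hGm, fun ξ hξ => by
    have := hGd ξ hξ
    have := norm_nonneg ξ
    linarith⟩
  set N := Nm h δ η with hN
  set W := ∑' j : ℕ, ∫⁻ u, wT g μ Gd j0 y0 T j u with hW
  have hWc : W ≤ 46 * cost g μ Gd j0 y0 T := sum_wT_le hd hP.im hT hG
  have hA : MeasurableSet (AA h δ η g T) := measurableSet_AA hP.ih hδ hδη g hT.sat
  have hw : ∀ j, Measurable (wT g μ Gd j0 y0 T j) :=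
    hT.measurable_wT μ Gd (g.measurable_BD Gd) (g.measurable_vk μ)
  set B : E d → Set (E d) := fun u =>
    AA h δ η g T ∩ {x | be d * ‖fderiv ℝ N x‖ ≤ fderiv ℝ N x u} with hB
  have hBm : ∀ u, MeasurableSet (B u) := fun u =>
    hA.inter (measurableSet_le ((measurable_fderiv ℝ N).norm.const_mul _)
      (measurable_fderiv_apply_const ℝ N u))
  have b1 : ∫⁻ x in B ν, ‖fderiv ℝ N x‖ₑ ≤ D1 * W := by
    refine hc1 h N (B ν) ν (√(d : ℝ) * g.len j0) g.R _ hP.ih (hBm ν) g.R_pos hw ?_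
    rintro x ⟨⟨hx, j, z, r, ho, r1, r2, hdp, hz⟩, hx2⟩
    exact ⟨hx, hx2, hlow h μ δ η g j0 y0 T ν Gd x z r j hP hδ hR hT hG hν hνi hx hx2 ho r1 r2
      hdp hz⟩
  have b2 : ∀ p : Fin d × Bool, ∫⁻ x in B (udir ν p.1 p.2), ‖fderiv ℝ N x‖ₑ ≤ D2 * W := by
    intro p
    refine hc2 h N _ (udir ν p.1 p.2) η g.R _ hP.ih (hBm _) g.R_pos hw ?_
    rintro x ⟨⟨hx, j, z, r, ho, r1, r2, hdp, hz⟩, hx2⟩
    have s1 : ball z (7 * g.R j) ⊆ T j := by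
      refine Subset.trans (ball_subset_ball ?_) (hdp.ball_subset.trans (hT.cube_subset_of_mem hz))
      have := g.R_le_len j
      have := one_le_sqrt hd
      have := g.R_pos j
      nlinarith
    have s2 : T j ⊆ HH g j0 y0 T j := subset_inter (hT.subset_cube j) (Grid.subset_Nb 6 j)
    refine ⟨hx, hx2, hup h μ _ δ η g ν Gd _ _ x z r j hP hδ hG (norm_udir hν _ _)
      (fun ξ hξ => udir_cone hν (hGd ξ hξ) _ _) hx hx2 ho r1 r2 (s1.trans (hT.subset_cube j))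
      fun q hq => ?_⟩
    unfold wT
    rw [indicator_of_mem (s2 (s1 hq))]
    exact le_self_add
  have cover : AA h δ η g T ⊆ B ν ∪ ⋃ p : Fin d × Bool, B (udir ν p.1 p.2) := by
    intro x hx
    by_cases hx2 : be d * ‖fderiv ℝ N x‖ ≤ fderiv ℝ N x ν
    · exact Or.inl ⟨hx, hx2⟩
    · obtain ⟨i, s, hs⟩ := exists_dir_up hd hν (fderiv ℝ N x) (not_le.1 hx2).le
      exact Or.inr (mem_iUnion.2 ⟨(i, s), hx, hs⟩)
  calc ∫⁻ x in AA h δ η g T, ‖fderiv ℝ N x‖ₑ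
      ≤ (∫⁻ x in B ν, ‖fderiv ℝ N x‖ₑ) +
          ∑' p : Fin d × Bool, ∫⁻ x in B (udir ν p.1 p.2), ‖fderiv ℝ N x‖ₑ :=
        (lintegral_mono_set cover).trans ((lintegral_union_le _ _ _).trans
          (add_le_add le_rfl (lintegral_iUnion_le _ _)))
    _ ≤ D1 * W + ∑' _p : Fin d × Bool, D2 * W := add_le_add b1 (ENNReal.tsum_le_tsum b2)
    _ = (D1 + Fintype.card (Fin d × Bool) * D2) * W := by
        rw [tsum_fintype, Finset.sum_const, Finset.card_univ, nsmul_eq_mul]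
        ring
    _ ≤ (D1 + Fintype.card (Fin d × Bool) * D2) * (46 * cost g μ Gd j0 y0 T) := by gcongr
    _ = _ := by
        push_cast
        ring

end Vale.Agent.P137
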