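import Vale.Agent.P137.Defs

/-! P137 Vec: elementary vector inequalities (inner product space algebra) and parameters.

Plan.
* `inner_uv`: for `v, w ≠ 0`, `⟪uv v, w⟫ = ‖w‖ (1 - ‖uv v - uv w‖^2 / 2)` (expand the square,
  both are unit vectors, `w = ‖w‖ • uv w`).
* `pl_far`: with `a = ‖v‖, b = ‖w‖, t = ‖uv v - uv w‖`: `‖v+w‖^2 = (a+b)^2 - a b t^2`, so
  `pl = a b t^2 / (a + b + ‖v+w‖) ≥ a b t^2 / (2 (a+b)) ≥ min a b * t^2 / 4`.
* `nu_spec`: `ν' = uv ω + c • sgn`, `c = 1/(40 √d)`, `‖c • sgn‖ = 1/40`, `|ν' i| ≥ c` (same signs),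
  `39/40 ≤ ‖ν'‖ ≤ 41/40`, `‖uv ν' - ν'‖ = |1 - ‖ν'‖| ≤ 1/40`.
* `seg_sq`: `‖a + s u - z‖^2` is a quadratic polynomial `p s` in `s` with leading coefficient `1`;
  `p s = (1 - s/l) p 0 + (s/l) p l - s (l - s)`.
* `exists_dir`: represent `φ` by a vector `G` (`InnerProductSpace.toDual`), some coordinate has
  `|G i| ≥ ‖G‖ / √d` (`EuclideanSpace.norm_eq`, `Finset.exists_le_of_sum_le` or the max coordinate).
* `exists_dir_up`: choose `i, s` with `s * G i ≤ -‖G‖/√d`; for `p = ν + (s/2) e_i` one has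
  `1/2 ≤ ‖p‖ ≤ 3/2`, `-φ p ≥ ‖φ‖ (1/(2√d) - be d) = (3/2) be d ‖φ‖`.
-/

namespace Vale.Agent.P137

open MeasureTheory Metric Set Filter Topology
open scoped ENNReal NNReal RealInnerProductSpace

variable {d : ℕ}

theorem one_le_sqrt (hd : 0 < d) : (1 : ℝ) ≤ √(d : ℝ) := by
  exact Real.one_le_sqrt.2 (by exact_mod_cast hd)

theorem be_pos (hd : 0 < d) : 0 < be d := by
  have := one_le_sqrt hd
  unfold be
  positivity

theorem be_le (hd : 0 < d) : be d ≤ 1 / 5 := by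
  have := one_le_sqrt hd
  exact one_div_le_one_div_of_le (by norm_num) (by linarith)

theorem c0_pos (hd : 0 < d) : 0 < c0 d := by
  have := be_pos hd
  unfold c0
  positivity

theorem c0_le (hd : 0 < d) : c0 d ≤ 1 / 1600 := by
  have h1 := be_pos hd
  have h2 := be_le hd
  unfold c0
  nlinarith

theorem g0_pos (hd : 0 < d) : 0 < g0 d := by
  have := be_pos hd
  unfold g0
  positivity

theorem sqrt_le_two_pow_bb : 2000 * √(d : ℝ) ≤ 2 ^ bb d := by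
  have h1 : (d : ℝ) ≤ 2 ^ d := by exact_mod_cast (Nat.lt_two_pow_self (n := d)).le
  have h2 : (1 : ℝ) ≤ 2 ^ d := one_le_pow₀ (by norm_num)
  have h3 : √(d : ℝ) ≤ 2 ^ d := Real.sqrt_le_iff.2 ⟨by positivity, by nlinarith⟩
  unfold bb
  rw [pow_add]
  nlinarith

theorem om_pos : 0 < om d := by
  exact ENNReal.toReal_pos (measure_ball_pos _ _ one_pos).ne' measure_ball_lt_top.ne

/-- Volume of a ball (use `Measure.addHaar_ball_of_pos`, `finrank_euclideanSpace_fin`). -/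
theorem volume_ball_eq (z : E d) {r : ℝ} (hr : 0 < r) :
    volume (ball z r) = ENNReal.ofReal (om d * r ^ d) := by
  rw [Measure.addHaar_ball_of_pos volume z hr, finrank_euclideanSpace_fin, mul_comm (om d),
    ENNReal.ofReal_mul (by positivity), om, ENNReal.ofReal_toReal measure_ball_lt_top.ne]

theorem av_eq {F : Type} [NormedAddCommGroup F] [NormedSpace ℝ F] (h : E d → F) (z : E d) {r : ℝ}
    (hr : 0 < r) : av h z r = (om d * r ^ d)⁻¹ • ∫ y in ball z r, h y := by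
  have := om_pos (d := d)
  rw [av, setAverage_eq, Measure.real, volume_ball_eq z hr, ENNReal.toReal_ofReal (by positivity)]

theorem norm_uv_le (v : E d) : ‖uv v‖ ≤ 1 := by
  rw [uv, norm_smul, norm_inv, norm_norm]
  exact inv_mul_le_one

theorem norm_uv {v : E d} (hv : v ≠ 0) : ‖uv v‖ = 1 := by
  rw [uv, norm_smul, norm_inv, norm_norm, inv_mul_cancel₀ (norm_ne_zero_iff.2 hv)]

theorem uv_of_norm_one {v : E d} (hv : ‖v‖ = 1) : uv v = v := by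
  rw [uv, hv, inv_one, one_smul]

theorem inner_uv_self (v : E d) : ⟪uv v, v⟫ = ‖v‖ := by
  rw [uv, real_inner_smul_left, real_inner_self_eq_norm_sq]
  by_cases h : ‖v‖ = 0
  · simp [h]
  · field_simp

theorem inner_uv_le (v w : E d) : ⟪uv v, w⟫ ≤ ‖w‖ := by
  exact (real_inner_le_norm _ _).trans (mul_le_of_le_one_left (norm_nonneg _) (norm_uv_le v))

theorem inner_uv {v w : E d} (hv : v ≠ 0) (hw : w ≠ 0) :
    ⟪uv v, w⟫ = ‖w‖ * (1 - ‖uv v - uv w‖ ^ 2 / 2) := by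
  have h : ⟪uv v, uv w⟫ = ‖w‖⁻¹ * ⟪uv v, w⟫ := real_inner_smul_right _ _ _
  have h0 : ‖w‖ ≠ 0 := norm_ne_zero_iff.2 hw
  rw [norm_sub_sq_real, norm_uv hv, norm_uv hw, h]
  field_simp
  ring

theorem Far.symm {α : ℝ} {v w : E d} (h : Far α v w) : Far α w v := by
  exact ⟨h.2.1, h.1, by rw [norm_sub_rev]; exact h.2.2⟩

theorem Far.loss {α : ℝ} (hα : 0 ≤ α) {v w : E d} (h : Far α v w) :
    α ^ 2 / 2 * ‖w‖ ≤ ‖w‖ - ⟪uv v, w⟫ := by
  rw [inner_uv h.1 h.2.1]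
  have h1 := pow_le_pow_left₀ hα h.2.2.le 2
  nlinarith [norm_nonneg w]

/-- Triangle inequality: far from `a` but `b` is close to `a`, so far from `b`. -/
theorem Far.tri {α γ : ℝ} {a b c : E d} (h : Far (α + γ) a c) (hb : b ≠ 0) (hab : ¬ Far α a b) :
    Far γ b c := by
  refine ⟨hb, h.2.1, ?_⟩
  have h1 : ‖uv a - uv b‖ ≤ α := not_lt.1 fun h' => hab ⟨h.1, hb, h'⟩
  have h2 := norm_sub_le_norm_sub_add_norm_sub (uv a) (uv b) (uv c)
  linarith [h.2.2]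

theorem pl_nonneg (v w : E d) : 0 ≤ pl v w := by
  exact sub_nonneg.2 (norm_add_le v w)

theorem pl_comm (v w : E d) : pl v w = pl w v := by
  rw [pl, pl, add_comm v, add_comm ‖v‖]

theorem pl_le (a b w : E d) (hw : ‖w‖ ≤ 1) : pl a b ≤ (‖a‖ - ⟪w, a⟫) + (‖b‖ - ⟪w, b⟫) := by
  have h1 := (real_inner_le_norm w (a + b)).trans (mul_le_of_le_one_left (norm_nonneg _) hw)
  rw [inner_add_right] at h1
  unfold pl
  linarith

theorem pl_far {v w : E d} (h : Far (1 / 20) v w) (hle : ‖v‖ ≤ ‖w‖) : ‖v‖ ≤ 1600 * pl v w := by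
  have ha : 0 < ‖v‖ := norm_pos_iff.2 h.1
  have h1 := inner_uv h.1 h.2.1
  have h2 : ⟪uv v, w⟫ = ‖v‖⁻¹ * ⟪v, w⟫ := real_inner_smul_left _ _ _
  have h3 : ⟪v, w⟫ = ‖v‖ * (‖w‖ * (1 - ‖uv v - uv w‖ ^ 2 / 2)) := by
    rw [← h1, h2]
    field_simp
  have h4 := pow_le_pow_left₀ (by norm_num) h.2.2.le 2
  have h5 : ‖v + w‖ ^ 2 ≤ (‖v‖ + ‖w‖ - ‖v‖ / 1600) ^ 2 := by
    rw [norm_add_sq_real, h3]
    have h6 := mul_le_mul_of_nonneg_left h4 (mul_pos ha (ha.trans_le hle)).le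
    nlinarith [mul_nonneg ha.le (sub_nonneg.2 hle)]
  have h7 := (sq_le_sq₀ (norm_nonneg _) (by linarith)).1 h5
  unfold pl
  linarith

theorem nu_spec (hd : 0 < d) {ω : E d} (hω : ω ≠ 0) :
    ‖nu ω‖ = 1 ∧ ‖nu ω - uv ω‖ ≤ 1 / 20 ∧ ∀ i, 1 / (80 * √(d : ℝ)) ≤ |nu ω i| := by
  have hs := one_le_sqrt hd
  set c : ℝ := 1 / (40 * √(d : ℝ)) with hc
  have hc0 : 0 < c := by positivity
  set s : E d := WithLp.toLp 2 fun i => if 0 ≤ ω i then (1 : ℝ) else -1 with hsd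
  have h1 : ‖s‖ = √(d : ℝ) := by
    rw [EuclideanSpace.norm_eq]
    congr 1
    have : ∀ i, ‖s i‖ ^ 2 = 1 := by
      intro i
      simp only [hsd]
      split_ifs <;> simp
    simp only [this]
    simp
  have h2 : ‖c • s‖ = 1 / 40 := by
    rw [norm_smul, h1, Real.norm_of_nonneg hc0.le, hc]
    field_simp
  have h3 := norm_uv hω
  have h4 : ‖uv ω + c • s‖ ≤ 41 / 40 := (norm_add_le _ _).trans (by linarith)
  have h5 : 39 / 40 ≤ ‖uv ω + c • s‖ := by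
    have := norm_sub_le (uv ω + c • s) (c • s)
    rw [add_sub_cancel_right] at this
    linarith
  have h6 : nu ω = uv (uv ω + c • s) := rfl
  have h8 : ∀ i, c ≤ |(uv ω + c • s) i| := by
    intro i
    have e : (uv ω + c • s) i = ‖ω‖⁻¹ * ω i + c * if 0 ≤ ω i then (1 : ℝ) else -1 := rfl
    have hn : 0 ≤ ‖ω‖⁻¹ := by positivity
    rw [e]
    split_ifs with h
    · exact le_abs.2 (Or.inl (by nlinarith [mul_nonneg hn h]))
    · exact le_abs.2 (Or.inr (by nlinarith [mul_nonneg hn (neg_nonneg.2 (not_le.1 h).le)]))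
  generalize hp : uv ω + c • s = p at *
  have hp0 : 0 < ‖p‖ := by linarith
  have h7 : ‖uv p - p‖ ≤ 1 / 40 := by
    have e : uv p - p = (‖p‖⁻¹ - 1) • p := by rw [uv, sub_smul, one_smul]
    have e2 : (‖p‖⁻¹ - 1) * ‖p‖ = 1 - ‖p‖ := by field_simp
    rw [e, norm_smul, Real.norm_eq_abs, ← abs_of_pos hp0, ← abs_mul, abs_of_pos hp0, e2, abs_le]
    constructor <;> linarith
  refine ⟨h6 ▸ norm_uv (norm_pos_iff.1 hp0), ?_, fun i => ?_⟩
  · have e : nu ω - uv ω = (uv p - p) + c • s := by rw [h6, ← hp]; abel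
    rw [e]
    exact (norm_add_le _ _).trans (by linarith)
  · have e : nu ω i = ‖p‖⁻¹ * p i := by rw [h6]; rfl
    have e2 : 1 / (80 * √(d : ℝ)) = 1 / 2 * c := by rw [hc]; field_simp; norm_num
    have h9 : 1 / 2 ≤ ‖p‖⁻¹ := by
      rw [one_div]
      exact inv_anti₀ hp0 (by linarith)
    rw [e, e2, abs_mul, abs_of_pos (inv_pos.2 hp0)]
    exact mul_le_mul h9 (h8 i) hc0.le (by linarith)

theorem not_far_nu (hd : 0 < d) {ω : E d} (hω : ω ≠ 0) : ¬ Far (1 / 20) (nu ω) ω := by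
  obtain ⟨h1, h2, -⟩ := nu_spec hd hω
  intro h
  have h3 := h.2.2
  rw [uv_of_norm_one h1] at h3
  linarith

theorem measurable_uv : Measurable (uv : E d → E d) := by
  exact measurable_norm.inv.smul measurable_id

theorem measurableSet_Good (ν : E d) : MeasurableSet (Good ν) := by
  have h1 : MeasurableSet {ξ : E d | ξ ≠ 0} := (measurableSet_singleton 0).compl
  have h2 : MeasurableSet {ξ : E d | 1 / 4 < ‖uv ν - uv ξ‖} :=
    measurableSet_lt measurable_const (measurable_const.sub measurable_uv).norm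
  exact ((MeasurableSet.const (ν ≠ 0)).inter (h1.inter h2)).compl

theorem Good_inner {ν : E d} (hν : ‖ν‖ = 1) : ∀ ξ ∈ Good ν, 7 / 8 * ‖ξ‖ ≤ ⟪ν, ξ⟫ := by
  intro ξ hξ
  by_cases h0 : ξ = 0
  · simp [h0]
  have hν0 : ν ≠ 0 := norm_ne_zero_iff.1 (by rw [hν]; exact one_ne_zero)
  have h1 : ‖uv ν - uv ξ‖ ≤ 1 / 4 := not_lt.1 fun h => hξ ⟨hν0, h0, h⟩
  have h2 := inner_uv hν0 h0
  have h3 := pow_le_pow_left₀ (norm_nonneg _) h1 2
  rw [uv_of_norm_one hν] at h2 h3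
  rw [h2]
  nlinarith [norm_nonneg ξ]

theorem seg_vec {u : E d} (hu : ‖u‖ = 1) (a z : E d) (s : ℝ) :
    ‖a + s • u - z‖ ^ 2 = ‖a - z‖ ^ 2 + 2 * s * ⟪a - z, u⟫ + s ^ 2 := by
  rw [add_sub_right_comm, norm_add_sq_real, real_inner_smul_right, norm_smul, hu, mul_one,
    Real.norm_eq_abs, sq_abs]
  ring

/-- Points of a chord of a ball. -/
theorem seg_sq {a z u : E d} {r l s : ℝ} (hu : ‖u‖ = 1) (ha : ‖a - z‖ ≤ r)
    (hb : ‖a + l • u - z‖ ≤ r) (hs : 0 ≤ s) (hsl : s ≤ l) :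
    ‖a + s • u - z‖ ^ 2 ≤ r ^ 2 - s * (l - s) := by
  have h1 := pow_le_pow_left₀ (norm_nonneg _) ha 2
  have h2 := pow_le_pow_left₀ (norm_nonneg _) hb 2
  rw [seg_vec hu] at h2 ⊢
  rcases (hs.trans hsl).eq_or_lt with h | h
  · have : s = 0 := by linarith
    subst this
    linarith
  · refine le_of_mul_le_mul_left ?_ h
    nlinarith [mul_le_mul_of_nonneg_left h1 (sub_nonneg.2 hsl), mul_le_mul_of_nonneg_left h2 hs]

theorem seg_lt {a z u : E d} {r l s : ℝ} (hu : ‖u‖ = 1) (ha : ‖a - z‖ ≤ r)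
    (hb : ‖a + l • u - z‖ ≤ r) (hs : 0 < s) (hsl : s < l) : ‖a + s • u - z‖ < r := by
  have h1 := seg_sq hu ha hb hs.le hsl.le
  have h2 := mul_pos hs (sub_pos.2 hsl)
  exact lt_of_pow_lt_pow_left₀ 2 ((norm_nonneg _).trans ha) (by linarith)

/-- The middle half of a chord of length `2 be r` is at depth `2 c0 R`. -/
theorem seg_deep (hd : 0 < d) {a z u : E d} {r R s : ℝ} (hu : ‖u‖ = 1) (hR : 0 < R)
    (hr : R / 2 ≤ r) (hrR : r ≤ R) (ha : ‖a - z‖ ≤ r) (hb : ‖a + (2 * be d * r) • u - z‖ ≤ r)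
    (hs : be d * r / 2 ≤ s) (hs' : s ≤ 3 * be d * r / 2) :
    ‖a + s • u - z‖ + 2 * (c0 d * R) ≤ r := by
  have h1 := be_pos hd
  have h2 := be_le hd
  have hr0 : 0 < r := by linarith
  have h3 : 0 < be d * r := mul_pos h1 hr0
  have h4 := seg_sq hu ha hb (s := s) (by linarith) (by linarith)
  have h5 : be d * r / 2 * (be d * r / 2) ≤ s * (2 * be d * r - s) :=
    mul_le_mul hs (by linarith) (by linarith) (by linarith)
  have h6 : be d ^ 2 * r ≤ r := by nlinarith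
  have h7 : ‖a + s • u - z‖ ≤ r - be d ^ 2 * r / 16 := by
    refine (sq_le_sq₀ (norm_nonneg _) (by linarith)).1 ?_
    nlinarith [sq_nonneg (be d ^ 2 * r), sq_nonneg (be d * r)]
  unfold c0
  nlinarith [mul_le_mul_of_nonneg_left hr (sq_nonneg (be d))]

/-- An entering direction gives a thick chord. -/
theorem chord_init (hd : 0 < d) {x z u : E d} {r : ℝ} (hu : ‖u‖ = 1) (hr : 0 ≤ r)
    (hx : ‖x - z‖ ≤ r) (hin : ⟪x - z, u⟫ ≤ -(be d * r)) : ‖x + (2 * be d * r) • u - z‖ ≤ r := by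
  have h1 := pow_le_pow_left₀ (norm_nonneg _) hx 2
  have h3 : 0 ≤ be d * r := mul_nonneg (be_pos hd).le hr
  refine (sq_le_sq₀ (norm_nonneg _) hr).1 ?_
  rw [seg_vec hu]
  nlinarith [mul_le_mul_of_nonneg_left hin h3]

/-- The `2 d` coordinate directions. -/
noncomputable def cdir (i : Fin d) (s : Bool) : E d :=
  EuclideanSpace.single i (if s then (1 : ℝ) else -1)

theorem norm_cdir (i : Fin d) (s : Bool) : ‖cdir i s‖ = 1 := by
  cases s <;> simp [cdir]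

theorem dir_vec (hd : 0 < d) (φ : E d →L[ℝ] ℝ) : ∃ i s, 5 * (be d * ‖φ‖) ≤ φ (cdir i s) := by
  have hs := one_le_sqrt hd
  set G : E d := (InnerProductSpace.toDual ℝ (E d)).symm φ with hG
  have h1 : ‖G‖ = ‖φ‖ := LinearIsometryEquiv.norm_map _ _
  have h2 : ∀ x, φ x = ⟪G, x⟫ := fun x => (InnerProductSpace.toDual_symm_apply).symm
  have : Nonempty (Fin d) := ⟨⟨0, hd⟩⟩
  obtain ⟨i, -, hi⟩ := Finset.exists_max_image Finset.univ (fun i => |G i|) Finset.univ_nonempty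
  have h3 : ‖G‖ ≤ √(d : ℝ) * |G i| := by
    rw [EuclideanSpace.norm_eq, ← Real.sqrt_sq (abs_nonneg (G i)), ← Real.sqrt_mul (by positivity)]
    refine Real.sqrt_le_sqrt ?_
    calc ∑ j, ‖G j‖ ^ 2 ≤ ∑ _j : Fin d, |G i| ^ 2 :=
          Finset.sum_le_sum fun j hj => pow_le_pow_left₀ (norm_nonneg _) (hi j hj) 2
      _ = _ := by simp
  have h4 : 5 * (be d * ‖φ‖) ≤ |G i| := by
    have e : 5 * (be d * ‖φ‖) = ‖φ‖ / √(d : ℝ) := by
      unfold be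
      field_simp
    rw [e, div_le_iff₀ (by linarith), ← h1, mul_comm]
    exact h3
  refine ⟨i, decide (0 ≤ G i), h4.trans (le_of_eq ?_)⟩
  rw [h2, cdir, EuclideanSpace.inner_single_right]
  by_cases h : 0 ≤ G i
  · simp [h, abs_of_nonneg h]
  · simp [h, abs_of_neg (not_le.1 h)]

theorem exists_dir (hd : 0 < d) (φ : E d →L[ℝ] ℝ) : ∃ i s, be d * ‖φ‖ ≤ φ (cdir i s) := by
  obtain ⟨i, s, h⟩ := dir_vec hd φ
  exact ⟨i, s, by nlinarith [mul_nonneg (be_pos hd).le (norm_nonneg φ)]⟩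

/-- The `2 d` directions used for upper exposed points. -/
noncomputable def udir (ν : E d) (i : Fin d) (s : Bool) : E d := -uv (ν + (1 / 2 : ℝ) • cdir i s)

theorem udir_vec {ν : E d} (hν : ‖ν‖ = 1) (i : Fin d) (s : Bool) :
    1 / 2 ≤ ‖ν + (1 / 2 : ℝ) • cdir i s‖ ∧ ‖ν + (1 / 2 : ℝ) • cdir i s‖ ≤ 3 / 2 := by
  have h1 : ‖(1 / 2 : ℝ) • cdir i s‖ = 1 / 2 := by
    rw [norm_smul, norm_cdir]
    norm_num
  have h2 := norm_sub_le (ν + (1 / 2 : ℝ) • cdir i s) ((1 / 2 : ℝ) • cdir i s)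
  rw [add_sub_cancel_right] at h2
  exact ⟨by linarith, (norm_add_le _ _).trans (by linarith)⟩

theorem norm_udir {ν : E d} (hν : ‖ν‖ = 1) (i : Fin d) (s : Bool) : ‖udir ν i s‖ = 1 := by
  rw [udir, norm_neg]
  exact norm_uv (norm_pos_iff.1 (by linarith [(udir_vec hν i s).1]))

theorem udir_cone {ν ξ : E d} (hν : ‖ν‖ = 1) (hξ : 7 / 8 * ‖ξ‖ ≤ ⟪ν, ξ⟫) (i : Fin d) (s : Bool) :
    ‖ξ‖ / 4 ≤ ⟪-udir ν i s, ξ⟫ := by
  obtain ⟨h1, h2⟩ := udir_vec hν i s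
  have h3 := (abs_le.1 (abs_real_inner_le_norm (cdir i s) ξ)).1
  rw [norm_cdir, one_mul] at h3
  rw [udir, neg_neg, uv, real_inner_smul_left, inner_add_left, real_inner_smul_left]
  have h4 : (3 / 2 : ℝ)⁻¹ ≤ ‖ν + (1 / 2 : ℝ) • cdir i s‖⁻¹ := inv_anti₀ (by linarith) h2
  have h5 : 3 / 8 * ‖ξ‖ ≤ ⟪ν, ξ⟫ + 1 / 2 * ⟪cdir i s, ξ⟫ := by linarith
  have h6 := mul_le_mul h4 h5 (by positivity) (by positivity)
  linarith

theorem exists_dir_up (hd : 0 < d) {ν : E d} (hν : ‖ν‖ = 1) (φ : E d →L[ℝ] ℝ)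
    (hφ : φ ν ≤ be d * ‖φ‖) : ∃ i s, be d * ‖φ‖ ≤ φ (udir ν i s) := by
  obtain ⟨i, s, h⟩ := dir_vec hd (-φ)
  refine ⟨i, s, ?_⟩
  obtain ⟨h1, h2⟩ := udir_vec hν i s
  rw [norm_neg, ContinuousLinearMap.neg_apply] at h
  rw [udir, uv, map_neg, map_smul, map_add, map_smul, smul_eq_mul, smul_eq_mul, ← mul_neg]
  have h4 : (3 / 2 : ℝ)⁻¹ ≤ ‖ν + (1 / 2 : ℝ) • cdir i s‖⁻¹ := inv_anti₀ (by linarith) h2
  have h5 : 3 / 2 * (be d * ‖φ‖) ≤ -(φ ν + 1 / 2 * φ (cdir i s)) := by linarith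
  have h0 := mul_nonneg (be_pos hd).le (norm_nonneg φ)
  have h6 := mul_le_mul h4 h5 (by positivity) (by positivity)
  linarith

end Vale.Agent.P137
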